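import Vale.Agent.P088.R2.H31.Spec

/-!
# P088, THEOREM S, core: basic functions
-/

open MeasureTheory Set Filter Topology Metric
open scoped ContDiff

noncomputable section

namespace Vale.Agent.P088.R2.H31

variable {n : ℕ}

/-- symmetry of second derivatives -/
theorem dj_comm {g : E n → ℝ} {x : E n} (hg : ContDiffAt ℝ 2 g x) (i j : Fin n) :
    dj i (dj j g) x = dj j (dj i g) x := by
  have h := hg.isSymmSndFDerivAt (by simp)
  have key : ∀ a b : Fin n, dj a (dj b g) x = fderiv ℝ (fderiv ℝ g) x (ev a) (ev b) := by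
    intro a b
    unfold dj
    have h1 : DifferentiableAt ℝ (fderiv ℝ g) x :=
      (hg.fderiv_right (m := 1) (by norm_num)).differentiableAt (by norm_num)
    rw [fderiv_clm_apply h1 (differentiableAt_const _)]
    simp
  rw [key, key]
  exact h (ev i) (ev j)

/-- A product is smooth if one factor is smooth on the support of the other one. -/
theorem cd_mul {u g : E n → ℝ} {k : WithTop ℕ∞} (hu : ∀ x ∈ tsupport g, ContDiffAt ℝ k u x)
    (hg : ContDiff ℝ k g) : ContDiff ℝ k (fun x => u x * g x) := by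
  rw [contDiff_iff_contDiffAt]
  intro x
  by_cases hx : x ∈ tsupport g
  · exact (hu x hx).mul hg.contDiffAt
  · have h1 : g =ᶠ[𝓝 x] fun _ => (0 : ℝ) := notMem_tsupport_iff_eventuallyEq.1 hx
    have h2 : (fun x => u x * g x) =ᶠ[𝓝 x] fun _ => (0 : ℝ) := by
      filter_upwards [h1] with y hy
      rw [hy, mul_zero]
    exact contDiffAt_const.congr_of_eventuallyEq h2

theorem cs_mul {u g : E n → ℝ} (hg : HasCompactSupport g) :
    HasCompactSupport (fun x => u x * g x) := hg.mul_left

/-! ### squares of distances -/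

/-- `|x - p|²` -/
def nsq (p x : E n) : ℝ := ‖x - p‖ ^ 2

theorem nsq_eq (p x : E n) : nsq p x = ∑ j, (x j - p j) ^ 2 := by
  unfold nsq
  rw [EuclideanSpace.norm_sq_eq]
  simp

theorem nsq_pos {p x : E n} (h : x ≠ p) : 0 < nsq p x := by
  unfold nsq
  have := norm_pos_iff.2 (sub_ne_zero.2 h)
  positivity

theorem cd_nsq (p : E n) {k : WithTop ℕ∞} : ContDiff ℝ k (nsq p) := by
  unfold nsq
  exact (contDiff_id.sub contDiff_const).norm_sq ℝ

theorem cd_coord (p : E n) (i : Fin n) {k : WithTop ℕ∞} :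
    ContDiff ℝ k (fun x : E n => x i - p i) := by
  have : ContDiff ℝ k (fun x : E n => x i) := by fun_prop
  exact this.sub contDiff_const

theorem dj_coord (p : E n) (i j : Fin n) (x : E n) :
    dj j (fun x : E n => x i - p i) x = if j = i then 1 else 0 := by
  unfold dj
  have h : HasFDerivAt (fun x : E n => x i - p i) (EuclideanSpace.proj i : E n →L[ℝ] ℝ) x :=
    (EuclideanSpace.proj i : E n →L[ℝ] ℝ).hasFDerivAt.sub_const _
  rw [h.fderiv]
  simp [eq_comm]

theorem dj_nsq (p : E n) (i : Fin n) (x : E n) : dj i (nsq p) x = 2 * (x i - p i) := by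
  unfold dj nsq
  have h : HasFDerivAt (fun x : E n => ‖x - p‖ ^ 2) _ x :=
    ((hasFDerivAt_id x).sub_const p).norm_sq
  rw [h.fderiv]
  simp [inner_sub_left, EuclideanSpace.inner_single_right]

theorem lap_nsq (p : E n) (x : E n) : lap (nsq p) x = 2 * n := by
  unfold lap
  have h : ∀ i, dj i (nsq p) = fun x => 2 * (x i - p i) := fun i => funext fun x => dj_nsq p i x
  have h2 : ∀ i, dj i (dj i (nsq p)) x = 2 := by
    intro i
    rw [h i, dj_cmul 2 ((cd_coord p i (k := 1)).differentiable (by norm_num) x), dj_coord]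
    simp
  simp only [h2]
  simp
  ring

theorem sum_dj_nsq (p : E n) (x : E n) : ∑ i, dj i (nsq p) x ^ 2 = 4 * nsq p x := by
  rw [nsq_eq, Finset.mul_sum]
  refine Finset.sum_congr rfl fun i _ => ?_
  rw [dj_nsq]
  ring

end Vale.Agent.P088.R2.H31
end
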