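import Mathlib

/-!
# P088, THEOREM S, core: statements of the two analytic blocks LAP and MOM (pure Mathlib)
-/

open MeasureTheory Set Filter Topology Metric
open scoped ContDiff

noncomputable section

namespace Vale.Agent.P088.R2.H31

/-- (MOM) vanishing spherical means: all moments vanish. -/
def MOM_statement : Prop :=
  ∀ (d : ℕ) (f : EuclideanSpace ℝ (Fin d) → ℝ) (c₀ : EuclideanSpace ℝ (Fin d)) (η s : ℝ),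
    Continuous f → HasCompactSupport f → 0 < η →
    (∀ c ∈ ball c₀ η, ∀ h : ℝ → ℝ, Continuous h → (∀ t, s ≤ t → h t = 0) →
      ∫ y, f y * h (‖y - c‖ ^ 2) = 0) →
    ∀ y, ‖y - c₀‖ ^ 2 < s → f y = 0

/-- `D = (r² + |v|² - ρ²)² + 4 ρ² |v|² + 4 ρ² z²` -/
def DD (k : ℕ) (r z ρ : ℝ) (v : EuclideanSpace ℝ (Fin k)) : ℝ :=
  (r ^ 2 + ‖v‖ ^ 2 - ρ ^ 2) ^ 2 + 4 * ρ ^ 2 * ‖v‖ ^ 2 + 4 * ρ ^ 2 * z ^ 2

/-- The kernel `(4ρ²z²/D)^m D^{-(k+1)/2}`. -/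
def KK (k m : ℕ) (r z ρ : ℝ) (v : EuclideanSpace ℝ (Fin k)) : ℝ :=
  (4 * ρ ^ 2 * z ^ 2 / DD k r z ρ v) ^ m / √(DD k r z ρ v) ^ (k + 1)

/-- The normalisation `κ_m = ∫∫ (1 + t² + |v|²)^{-m-(k+1)/2} dt dv`. -/
def kap (k m : ℕ) : ℝ :=
  ∫ p : ℝ × EuclideanSpace ℝ (Fin k), 1 / ((1 + p.1 ^ 2 + ‖p.2‖ ^ 2) ^ m *
    √(1 + p.1 ^ 2 + ‖p.2‖ ^ 2) ^ (k + 1))

/-- (LAP) Laplace's method. Proof: `t = (ρ² - r² - |v|²)/(2ρz)` for fixed `v` (a bijection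
`(0,∞) → ℝ` with `dt/dρ = (1 + (r²+|v|²)/ρ²)/(2z)`), `v = z v'`, `D = 4ρ²z²(1+t²+|v'|²)`, all powers
of `z` cancel: the integral is `∫∫ g(t,v') (1+t²+|v'|²)^{-m-(k+1)/2}`,
`g = a(ρ) ψ(y - z v') (2ρ)^{-(k+1)} 2ρ²/(ρ²+r²+|v|²)` bounded and continuous; approximate identity. -/
def LAP_statement : Prop :=
  ∀ (k : ℕ) (a : ℝ → ℝ) (ψ : EuclideanSpace ℝ (Fin k) → ℝ) (ra rb : ℝ), Continuous a →
    0 < ra → (∀ ρ, ρ ∉ Icc ra rb → a ρ = 0) → Continuous ψ → HasCompactSupport ψ →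
    (∀ m, 0 < kap k m) ∧
    ∃ B : ℝ, ∀ (r z : ℝ) (y : EuclideanSpace ℝ (Fin k)), 0 < r → 0 < z →
      (∀ m, |∫ ρ in Ioi (0 : ℝ), ∫ v, a ρ * ψ (y - v) * KK k m r z ρ v| ≤ B * kap k m) ∧
      Tendsto (fun m => (∫ ρ in Ioi (0 : ℝ), ∫ v, a ρ * ψ (y - v) * KK k m r z ρ v) / kap k m)
        atTop (𝓝 (a r * ψ y / (2 * r) ^ (k + 1)))

end Vale.Agent.P088.R2.H31
end
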