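import Mathlib

/-!
# P088, local data, flat background: calculus in `ℝⁿ` (`C²` real functions)
-/

open MeasureTheory Set Filter Topology
open scoped ContDiff

noncomputable section

namespace Vale.Agent.P088.R2.H31

/-- Euclidean space. -/
abbrev E (n : ℕ) : Type := EuclideanSpace ℝ (Fin n)

/-- The `i`-th unit vector. -/
abbrev ev {n : ℕ} (i : Fin n) : E n := EuclideanSpace.single i (1 : ℝ)

variable {n : ℕ}

/-- The partial derivative. -/
def dj (i : Fin n) (f : E n → ℝ) (x : E n) : ℝ := fderiv ℝ f x (ev i)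

/-- The Laplacian. -/
def lap (f : E n → ℝ) (x : E n) : ℝ := ∑ i, dj i (dj i f) x

theorem dj_congr {f g : E n → ℝ} {x : E n} (h : f =ᶠ[𝓝 x] g) (i : Fin n) : dj i f x = dj i g x := by
  unfold dj; rw [h.fderiv_eq]

theorem dj_congr_ev {f g : E n → ℝ} {x : E n} (h : f =ᶠ[𝓝 x] g) (i : Fin n) :
    dj i f =ᶠ[𝓝 x] dj i g := by
  filter_upwards [h.eventually_nhds] with y hy
  exact dj_congr hy i

theorem lap_congr {f g : E n → ℝ} {x : E n} (h : f =ᶠ[𝓝 x] g) : lap f x = lap g x := by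
  unfold lap
  exact Finset.sum_congr rfl fun i _ => dj_congr (dj_congr_ev h i) i

theorem c2_ev {f : E n → ℝ} {x : E n} (hf : ContDiffAt ℝ 2 f x) :
    ∀ᶠ y in 𝓝 x, ContDiffAt ℝ 2 f y := hf.eventually (by norm_num)

theorem c2_diff {f : E n → ℝ} {x : E n} (hf : ContDiffAt ℝ 2 f x) : DifferentiableAt ℝ f x :=
  hf.differentiableAt (by norm_num)

theorem c1_dj {f : E n → ℝ} {x : E n} {k : ℕ∞} (hf : ContDiffAt ℝ (k + 1) f x) (i : Fin n) :
    ContDiffAt ℝ k (dj i f) x := by
  have h := hf.fderiv_right (m := k) le_rfl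
  exact h.clm_apply contDiffAt_const

theorem c2_dj {f : E n → ℝ} {x : E n} (hf : ContDiffAt ℝ 2 f x) (i : Fin n) :
    ContDiffAt ℝ 1 (dj i f) x := by
  have h := hf.fderiv_right (m := 1) (by norm_num)
  exact h.clm_apply contDiffAt_const

theorem c2_djd {f : E n → ℝ} {x : E n} (hf : ContDiffAt ℝ 2 f x) (i : Fin n) :
    DifferentiableAt ℝ (dj i f) x := (c2_dj hf i).differentiableAt (by norm_num)

theorem dj_const (c : ℝ) (i : Fin n) (x : E n) : dj i (fun _ => c) x = 0 := by
  simp [dj]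

theorem dj_add {f g : E n → ℝ} {x : E n} (hf : DifferentiableAt ℝ f x)
    (hg : DifferentiableAt ℝ g x) (i : Fin n) :
    dj i (fun y => f y + g y) x = dj i f x + dj i g x := by
  unfold dj; rw [fderiv_fun_add hf hg]; rfl

theorem dj_sub {f g : E n → ℝ} {x : E n} (hf : DifferentiableAt ℝ f x)
    (hg : DifferentiableAt ℝ g x) (i : Fin n) :
    dj i (fun y => f y - g y) x = dj i f x - dj i g x := by
  unfold dj; rw [fderiv_fun_sub hf hg]; rfl

theorem dj_neg {f : E n → ℝ} {x : E n} (i : Fin n) :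
    dj i (fun y => -f y) x = -dj i f x := by
  unfold dj; rw [fderiv_fun_neg]; rfl

theorem dj_sum {ι : Type*} (s : Finset ι) {f : ι → E n → ℝ} {x : E n}
    (hf : ∀ k ∈ s, DifferentiableAt ℝ (f k) x) (i : Fin n) :
    dj i (fun y => ∑ k ∈ s, f k y) x = ∑ k ∈ s, dj i (f k) x := by
  unfold dj; rw [fderiv_fun_sum hf]; simp

theorem dj_mul {f g : E n → ℝ} {x : E n}
    (hf : DifferentiableAt ℝ f x) (hg : DifferentiableAt ℝ g x) (i : Fin n) :
    dj i (fun y => f y * g y) x = dj i f x * g x + f x * dj i g x := by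
  unfold dj; rw [fderiv_fun_mul hf hg]
  simp only [add_apply, smul_apply, smul_eq_mul]
  ring

theorem dj_cmul {f : E n → ℝ} {x : E n} (c : ℝ)
    (hf : DifferentiableAt ℝ f x) (i : Fin n) :
    dj i (fun y => c * f y) x = c * dj i f x := by
  unfold dj; rw [fderiv_const_mul hf]
  simp only [smul_apply, smul_eq_mul]

theorem dj_comp {f : E n → ℝ} {h : ℝ → ℝ} {h' : ℝ} {x : E n} (hh : HasDerivAt h h' (f x))
    (hf : DifferentiableAt ℝ f x) (i : Fin n) :
    dj i (fun y => h (f y)) x = h' * dj i f x := by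
  unfold dj
  have := (hh.comp_hasFDerivAt x hf.hasFDerivAt).fderiv
  rw [show (fun y => h (f y)) = h ∘ f from rfl, this]
  simp only [smul_apply, smul_eq_mul]

theorem lap_add {f g : E n → ℝ} {x : E n} (hf : ContDiffAt ℝ 2 f x) (hg : ContDiffAt ℝ 2 g x) :
    lap (fun y => f y + g y) x = lap f x + lap g x := by
  unfold lap
  rw [← Finset.sum_add_distrib]
  refine Finset.sum_congr rfl fun i _ => ?_
  have h1 : dj i (fun y => f y + g y) =ᶠ[𝓝 x] fun y => dj i f y + dj i g y := by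
    filter_upwards [c2_ev hf, c2_ev hg] with y hy hy'
    exact dj_add (c2_diff hy) (c2_diff hy') i
  rw [dj_congr h1, dj_add (c2_djd hf i) (c2_djd hg i)]

theorem lap_cmul {f : E n → ℝ} {x : E n} (c : ℝ) (hf : ContDiffAt ℝ 2 f x) :
    lap (fun y => c * f y) x = c * lap f x := by
  unfold lap
  rw [Finset.mul_sum]
  refine Finset.sum_congr rfl fun i _ => ?_
  have h1 : dj i (fun y => c * f y) =ᶠ[𝓝 x] fun y => c * dj i f y := by
    filter_upwards [c2_ev hf] with y hy
    exact dj_cmul c (c2_diff hy) i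
  rw [dj_congr h1, dj_cmul c (c2_djd hf i)]

theorem lap_sub {f g : E n → ℝ} {x : E n} (hf : ContDiffAt ℝ 2 f x) (hg : ContDiffAt ℝ 2 g x) :
    lap (fun y => f y - g y) x = lap f x - lap g x := by
  unfold lap
  rw [← Finset.sum_sub_distrib]
  refine Finset.sum_congr rfl fun i _ => ?_
  have h1 : dj i (fun y => f y - g y) =ᶠ[𝓝 x] fun y => dj i f y - dj i g y := by
    filter_upwards [c2_ev hf, c2_ev hg] with y hy hy'
    exact dj_sub (c2_diff hy) (c2_diff hy') i
  rw [dj_congr h1, dj_sub (c2_djd hf i) (c2_djd hg i)]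

theorem lap_mul {f g : E n → ℝ} {x : E n} (hf : ContDiffAt ℝ 2 f x) (hg : ContDiffAt ℝ 2 g x) :
    lap (fun y => f y * g y) x = lap f x * g x + 2 * ∑ i, dj i f x * dj i g x + f x * lap g x := by
  unfold lap
  rw [Finset.sum_mul, Finset.mul_sum, Finset.mul_sum, ← Finset.sum_add_distrib,
    ← Finset.sum_add_distrib]
  refine Finset.sum_congr rfl fun i _ => ?_
  have h1 : dj i (fun y => f y * g y) =ᶠ[𝓝 x] fun y => dj i f y * g y + f y * dj i g y := by
    filter_upwards [c2_ev hf, c2_ev hg] with y hy hy'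
    exact dj_mul (c2_diff hy) (c2_diff hy') i
  rw [dj_congr h1, dj_add ((c2_djd hf i).fun_mul (c2_diff hg)) ((c2_diff hf).fun_mul (c2_djd hg i)),
    dj_mul (c2_djd hf i) (c2_diff hg), dj_mul (c2_diff hf) (c2_djd hg i)]
  ring

/-- The Laplacian of a composition. -/
theorem lap_comp {f : E n → ℝ} {h h₁ : ℝ → ℝ} {h₂ : ℝ} {x : E n} (hf : ContDiffAt ℝ 2 f x)
    (h1 : ∀ᶠ t in 𝓝 (f x), HasDerivAt h (h₁ t) t) (h2 : HasDerivAt h₁ h₂ (f x)) :
    lap (fun y => h (f y)) x = h₁ (f x) * lap f x + h₂ * ∑ i, dj i f x ^ 2 := by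
  unfold lap
  rw [Finset.mul_sum, Finset.mul_sum, ← Finset.sum_add_distrib]
  refine Finset.sum_congr rfl fun i _ => ?_
  have h3 : dj i (fun y => h (f y)) =ᶠ[𝓝 x] fun y => h₁ (f y) * dj i f y := by
    filter_upwards [c2_ev hf, (c2_diff hf).continuousAt.eventually h1] with y hy hy'
    exact dj_comp hy' (c2_diff hy) i
  have h4 : DifferentiableAt ℝ (fun y => h₁ (f y)) x :=
    h2.differentiableAt.comp x (c2_diff hf)
  rw [dj_congr h3, dj_mul h4 (c2_djd hf i), dj_comp h2 (c2_diff hf)]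
  ring

/-! ### Integration by parts -/

theorem cont_dj {f : E n → ℝ} (hf : ContDiff ℝ 1 f) (i : Fin n) : Continuous (dj i f) :=
  (hf.continuous_fderiv one_ne_zero).clm_apply continuous_const

theorem supp_dj {f : E n → ℝ} (hc : HasCompactSupport f) (i : Fin n) :
    HasCompactSupport (dj i f) :=
  (hc.fderiv (𝕜 := ℝ)).comp_left (g := fun L : E n →L[ℝ] ℝ => L (ev i)) (by simp)

theorem integral_dj_eq_zero {f : E n → ℝ} (hf : ContDiff ℝ 1 f) (hc : HasCompactSupport f)
    (i : Fin n) : ∫ x, dj i f x = 0 := by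
  have h := integral_mul_fderiv_eq_neg_fderiv_mul_of_integrable (μ := (volume : Measure (E n)))
    (f := fun _ : E n => (1 : ℝ)) (g := f) (v := ev i) (by simp) ?_ ?_ ?_ ?_
  · simpa [dj] using h
  · simp only [one_mul]
    exact (cont_dj hf i).integrable_of_hasCompactSupport (supp_dj hc i)
  · simp only [one_mul]
    exact hf.continuous.integrable_of_hasCompactSupport hc
  · fun_prop
  · exact fun x _ => hf.differentiable one_ne_zero x

end Vale.Agent.P088.R2.H31
end
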