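import Vale.Agent.P088.R2.H31.CSpec
import Vale.Agent.P088.R2.H31.Def

/-!
# P088, THEOREM S, core: the passage from the main inequality to `q = 0` (block CB)
-/

open MeasureTheory Set Filter Topology Metric
open scoped ContDiff

noncomputable section

namespace Vale.Agent.P088.R2.H31

variable {k : ℕ}

/-- The first three coordinates. -/
def pL (x : E (k + 3)) : E 3 := WithLp.toLp 2 fun i => x ⟨i.1, by omega⟩

/-- The other coordinates. -/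
def pP (x : E (k + 3)) : E k := WithLp.toLp 2 fun i => x ⟨i.1 + 3, by omega⟩

/-- `|z|`, `z = (b + i e)·y`, `b = (12/13, 5/13, 0)`, `e = (0, 0, 1)`. -/
def zz (y : E (k + 3)) : ℝ := √((12 / 13 * y 0 + 5 / 13 * y 1) ^ 2 + y 2 ^ 2)

/-- The kernel of the pair of multipoles with centre `c` and radius `ρ`. -/
def Ker (k m : ℕ) (c : E (k + 3)) (ρ : ℝ) (x : E (k + 3)) : ℝ :=
  KK k m ‖pL (x - c)‖ (zz (x - c)) ρ (pP (x - c))

/-- (CB) from the main inequality to `Q = 0` near `0`. Proof: integrate over `ρ` with the weight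
`a ρ`, `supp a ⊆ (ρ₀-η, ρ₀+η)`, and over the coordinates `pP c` with the weight `ψ (pP c)` at fixed
`pL c`; Fubini; `LAP` (divide by `kap k m`; `θ^m / kap k m → 0`) gives
`∫ Q(x) a(|pL (x-c)|) ψ(pP x) (2|pL (x-c)|)^{-(k+1)} dx = 0`; then `MOM` for
`f(y) = ∫ Q(y,t) ψ(t) dt`. -/
def CB_statement : Prop :=
  ∀ (k : ℕ) (Q P : E (k + 3) → ℝ) (ρ₀ η η₁ C θ : ℝ) (m₀ : ℕ), Continuous Q →
    HasCompactSupport Q → Continuous P → HasCompactSupport P → (∀ x, 0 ≤ P x) → 0 < η → η < ρ₀ →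
    0 < η₁ → 0 ≤ C → 0 ≤ θ → θ < 1 →
    (∀ c ∈ ball (ρ₀ • ev 1 : E (k + 3)) η₁, ∀ x, ‖pP x‖ < η₁ → ‖pL (x - c)‖ ≤ ρ₀ - η / 2 →
      Q x = 0) →
    (∀ c ∈ ball (ρ₀ • ev 1 : E (k + 3)) η₁, ∀ ρ ∈ Ioo (ρ₀ - η) (ρ₀ + η), ∀ m : ℕ, m₀ ≤ m → 1 ≤ m →
      |∫ x, Q x * Ker k m c ρ x| ≤ C / m * (∫ x, P x * Ker k m c ρ x) + C * θ ^ m) →
    ∃ δ > 0, ∀ x ∈ ball (0 : E (k + 3)) δ, Q x = 0

end Vale.Agent.P088.R2.H31
end
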