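import Vale.Agent.P088.R2.H31.Main1

/-!
# P088, THEOREM S, core: statements of the blocks GEO and KID
-/

open MeasureTheory Set Filter Topology Metric
open scoped ContDiff

noncomputable section

namespace Vale.Agent.P088.R2.H31

/-- The axis `a = (5/13, -12/13, 0, …)`. -/
def av (k : ℕ) : E (k + 3) := (5 / 13 : ℝ) • ev 0 - (12 / 13 : ℝ) • ev 1

/-- (GEO) configurations. `ρ₀ = min r R / 1000`, `η = ρ₀ / 2000`, `η₁ = η / 8`, `κ = ρ₀ / 20`,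
`S = 0.361/ρ₀`, `Em = 28`, `Ez = 1.02`, `τ = 8 / R`, `θ = 3/4`, `ρl = ρ₀ / 2`, `ρm = 2 ρ₀`. -/
def GEO_statement : Prop :=
  ∀ (k : ℕ) (R r : ℝ) (G : Set (E (k + 3))), 0 < R → 0 < r →
    ball (r • ev 1) r ∩ ball 0 R ⊆ G →
    ∃ ρ₀ η η₁ κ S Em Ez τ θ ρl ρm : ℝ, 0 < η ∧ η < ρ₀ ∧ 0 < η₁ ∧ 0 < κ ∧ 0 < S ∧ 0 < Em ∧ 0 < Ez ∧
      0 < τ ∧ τ ≤ S ∧ 0 < θ ∧ θ < 1 ∧ 0 < ρl ∧
      (∀ c ∈ ball (ρ₀ • ev 1 : E (k + 3)) η₁, ∀ ρ ∈ Ioo (ρ₀ - η) (ρ₀ + η),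
        Cfg k G R κ S Em Ez τ θ ρl ρm ρ (c - ρ • av k) (c + ρ • av k)) ∧
      ∀ c ∈ ball (ρ₀ • ev 1 : E (k + 3)) η₁, ∀ x : E (k + 3), ‖pP x‖ < η₁ →
        ‖pL (x - c)‖ ≤ ρ₀ - η / 2 → x ∈ ball (r • ev 1 : E (k + 3)) r

/-- (KID) the kernel is the sum of the products of the multipoles. -/
def KID_statement : Prop :=
  ∀ (k m : ℕ) (c x : E (k + 3)) (ρ : ℝ), 0 < ρ → x ≠ c - ρ • av k → x ≠ c + ρ • av k →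
    DD k ‖pL (x - c)‖ (zz (x - c)) ρ (pP (x - c)) =
      (‖x - (c - ρ • av k)‖ * ‖x - (c + ρ • av k)‖) ^ 2 ∧
    Ker k m c ρ x = (4 * ρ ^ 2) ^ m *
      (Um Complex.reCLM (c - ρ • av k) m x * Um Complex.reCLM (c + ρ • av k) m x +
        Um Complex.imCLM (c - ρ • av k) m x * Um Complex.imCLM (c + ρ • av k) m x) ∧
    Ker k m c ρ x = Gam ρ (c - ρ • av k) (c + ρ • av k) x ^ (2 * m) /
      (‖x - (c - ρ • av k)‖ * ‖x - (c + ρ • av k)‖) ^ (k + 1)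

end Vale.Agent.P088.R2.H31
end
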