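import Vale.Agent.P088.R2.H31.Bas

/-!
# P088, THEOREM S, core: the Carleman estimate with the weight `|x - p| / |x - q|`
-/

open MeasureTheory Set Filter Topology Metric
open scoped ContDiff

noncomputable section

namespace Vale.Agent.P088.R2.H31

variable {n : ℕ}

theorem int_div {Y : Fin n → E n → ℝ} (hY : ∀ j, ContDiff ℝ 1 (Y j))
    (hc : ∀ j, HasCompactSupport (Y j)) : ∫ x, ∑ j, dj j (Y j) x = 0 := by
  rw [integral_finsetSum]
  · exact Finset.sum_eq_zero fun j _ => integral_dj_eq_zero (hY j) (hc j) j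
  · exact fun j _ => (cont_dj (hY j) j).integrable_of_hasCompactSupport (supp_dj (hc j) j)

variable (p q : E n)

/-- `X = θ ∇φ` -/
def cX (j : Fin n) (x : E n) : ℝ :=
  (nsq q x * (x j - p j) - nsq p x * (x j - q j)) / nsq p q

def cmu (x : E n) : ℝ := (nsq q x - nsq p x) / nsq p q

def cth (x : E n) : ℝ := nsq p x * nsq q x / nsq p q

/-- `φ = log |x - p| - log |x - q|` -/
def cph (x : E n) : ℝ := (Real.log (nsq p x) - Real.log (nsq q x)) / 2

/-- `D g = X · ∇g + (n-2)/2 μ g` -/
def cD (g : E n → ℝ) (x : E n) : ℝ :=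
  (∑ j, cX p q j x * dj j g x) + ((n : ℝ) - 2) / 2 * cmu p q x * g x

variable {p q}

theorem cd_cX (j : Fin n) {k : WithTop ℕ∞} : ContDiff ℝ k (cX p q j) := by
  unfold cX
  exact (((cd_nsq q).mul (cd_coord p j)).sub ((cd_nsq p).mul (cd_coord q j))).div_const _

theorem cd_cmu {k : WithTop ℕ∞} : ContDiff ℝ k (cmu p q) := by
  unfold cmu
  exact ((cd_nsq q).sub (cd_nsq p)).div_const _

theorem cd_cth {k : WithTop ℕ∞} : ContDiff ℝ k (cth p q) := by
  unfold cth
  exact ((cd_nsq p).mul (cd_nsq q)).div_const _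

theorem cth_pos (hpq : p ≠ q) {x : E n} (hp : x ≠ p) (hq : x ≠ q) : 0 < cth p q x := by
  unfold cth
  have := nsq_pos hp
  have := nsq_pos hq
  have := nsq_pos hpq.symm
  positivity

theorem cd_cph {x : E n} (hp : x ≠ p) (hq : x ≠ q) {k : WithTop ℕ∞} :
    ContDiffAt ℝ k (cph p q) x := by
  unfold cph
  exact (((cd_nsq p).contDiffAt.log (nsq_pos hp).ne').sub
    ((cd_nsq q).contDiffAt.log (nsq_pos hq).ne')).div_const _

theorem dj_log {f : E n → ℝ} {x : E n} (hf : DifferentiableAt ℝ f x) (h0 : f x ≠ 0) (i : Fin n) :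
    dj i (fun y => Real.log (f y)) x = dj i f x / f x := by
  rw [dj_comp (Real.hasDerivAt_log h0) hf i]
  ring

theorem dj_div_const {f : E n → ℝ} {x : E n} (hf : DifferentiableAt ℝ f x) (c : ℝ) (i : Fin n) :
    dj i (fun y => f y / c) x = dj i f x / c := by
  have h : (fun y => f y / c) = fun y => c⁻¹ * f y := by
    funext y
    ring
  rw [h, dj_cmul _ hf]
  ring

theorem dj_cph {x : E n} (hp : x ≠ p) (hq : x ≠ q) (j : Fin n) :
    dj j (cph p q) x = (x j - p j) / nsq p x - (x j - q j) / nsq q x := by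
  have h1 : DifferentiableAt ℝ (nsq p) x := (cd_nsq p (k := 1)).differentiable (by norm_num) x
  have h2 : DifferentiableAt ℝ (nsq q) x := (cd_nsq q (k := 1)).differentiable (by norm_num) x
  have h1' : DifferentiableAt ℝ (fun y => Real.log (nsq p y)) x := h1.log (nsq_pos hp).ne'
  have h2' : DifferentiableAt ℝ (fun y => Real.log (nsq q y)) x := h2.log (nsq_pos hq).ne'
  unfold cph
  rw [dj_div_const (h1'.fun_sub h2'), dj_sub h1' h2', dj_log h1 (nsq_pos hp).ne',
    dj_log h2 (nsq_pos hq).ne', dj_nsq, dj_nsq]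
  ring

theorem dj_cph' (hpq : p ≠ q) {x : E n} (hp : x ≠ p) (hq : x ≠ q) (j : Fin n) :
    cth p q x * dj j (cph p q) x = cX p q j x := by
  rw [dj_cph hp hq]
  have h1 := (nsq_pos hp).ne'
  have h2 := (nsq_pos hq).ne'
  have h3 := (nsq_pos hpq.symm).ne'
  unfold cth cX
  field_simp

theorem nsq_pq (x : E n) : nsq p q = nsq p x + nsq q x - 2 * ∑ j, (x j - p j) * (x j - q j) := by
  simp only [nsq_eq]
  rw [Finset.mul_sum, ← Finset.sum_add_distrib, ← Finset.sum_sub_distrib]
  refine Finset.sum_congr rfl fun j _ => ?_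
  ring

theorem sum_dj_cph (hpq : p ≠ q) {x : E n} (hp : x ≠ p) (hq : x ≠ q) :
    cth p q x * ∑ j, dj j (cph p q) x ^ 2 = 1 := by
  have h1 := (nsq_pos hp).ne'
  have h2 := (nsq_pos hq).ne'
  have h3 := (nsq_pos hpq.symm).ne'
  have h4 : ∑ j, dj j (cph p q) x ^ 2 = nsq p q / (nsq p x * nsq q x) := by
    have h5 : ∀ j, dj j (cph p q) x ^ 2 = (nsq p x)⁻¹ ^ 2 * (x j - p j) ^ 2 +
        (nsq q x)⁻¹ ^ 2 * (x j - q j) ^ 2 -
        2 * ((nsq p x)⁻¹ * (nsq q x)⁻¹) * ((x j - p j) * (x j - q j)) := by
      intro j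
      rw [dj_cph hp hq]
      ring
    simp only [h5, Finset.sum_sub_distrib, Finset.sum_add_distrib, ← Finset.mul_sum]
    rw [← nsq_eq, ← nsq_eq, nsq_pq (p := p) (q := q) x]
    field_simp
    ring
  rw [h4]
  unfold cth
  field_simp

theorem lap_cph (hpq : p ≠ q) {x : E n} (hp : x ≠ p) (hq : x ≠ q) :
    cth p q x * lap (cph p q) x = ((n : ℝ) - 2) * cmu p q x := by
  have h1 := (nsq_pos hp).ne'
  have h2 := (nsq_pos hq).ne'
  have h3 := (nsq_pos hpq.symm).ne'
  have key : ∀ (a : E n), x ≠ a → lap (fun y => Real.log (nsq a y)) x =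
      (2 * n - 4) / nsq a x := by
    intro a ha
    have h4 := (nsq_pos ha).ne'
    rw [lap_comp (h := Real.log) (h₁ := fun t => t⁻¹) (h₂ := -(nsq a x ^ 2)⁻¹)
      (cd_nsq a).contDiffAt ?_ (hasDerivAt_inv h4), lap_nsq, sum_dj_nsq]
    · field_simp
      ring
    · filter_upwards [IsOpen.mem_nhds isOpen_ne h4] with t ht
      exact Real.hasDerivAt_log ht
  have h5 : lap (cph p q) x = ((2 * n - 4) / nsq p x - (2 * n - 4) / nsq q x) / 2 := by
    have h6 : cph p q = fun x => (1 / 2) * (Real.log (nsq p x) - Real.log (nsq q x)) := by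
      funext y
      unfold cph
      ring
    have c1 : ContDiffAt ℝ 2 (fun y => Real.log (nsq p y)) x := (cd_nsq p).contDiffAt.log h1
    have c2 : ContDiffAt ℝ 2 (fun y => Real.log (nsq q y)) x := (cd_nsq q).contDiffAt.log h2
    rw [h6, lap_cmul _ (c1.sub c2), lap_sub c1 c2, key p hp, key q hq]
    ring
  rw [h5]
  unfold cth cmu
  field_simp
  ring

theorem dj_cX (i j : Fin n) (x : E n) :
    dj i (cX p q j) x = (2 * (x i - q i) * (x j - p j) - 2 * (x i - p i) * (x j - q j) +
      (nsq q x - nsq p x) * if i = j then 1 else 0) / nsq p q := by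
  have d1 : DifferentiableAt ℝ (nsq p) x := (cd_nsq p (k := 1)).differentiable (by norm_num) x
  have d2 : DifferentiableAt ℝ (nsq q) x := (cd_nsq q (k := 1)).differentiable (by norm_num) x
  have d3 : DifferentiableAt ℝ (fun x : E n => x j - p j) x :=
    (cd_coord p j (k := 1)).differentiable (by norm_num) x
  have d4 : DifferentiableAt ℝ (fun x : E n => x j - q j) x :=
    (cd_coord q j (k := 1)).differentiable (by norm_num) x
  unfold cX
  rw [dj_div_const ((d2.fun_mul d3).fun_sub (d1.fun_mul d4)), dj_sub (d2.fun_mul d3) (d1.fun_mul d4),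
    dj_mul d2 d3, dj_mul d1 d4, dj_nsq, dj_nsq, dj_coord, dj_coord]
  ring

theorem dj_cmu (j : Fin n) (x : E n) : dj j (cmu p q) x = 2 * (p j - q j) / nsq p q := by
  have d1 : DifferentiableAt ℝ (nsq p) x := (cd_nsq p (k := 1)).differentiable (by norm_num) x
  have d2 : DifferentiableAt ℝ (nsq q) x := (cd_nsq q (k := 1)).differentiable (by norm_num) x
  unfold cmu
  rw [dj_div_const (d2.fun_sub d1), dj_sub d2 d1, dj_nsq, dj_nsq]
  ring

/-- `∑ ∂_i X_j a_i a_j = μ |a|²` -/
theorem sum_dj_cX (x : E n) (a : Fin n → ℝ) :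
    ∑ i, ∑ j, dj i (cX p q j) x * (a i * a j) = cmu p q x * ∑ i, a i ^ 2 := by
  have h1 : ∑ i, ∑ j, dj i (cX p q j) x * (a i * a j) =
      ∑ i, ∑ j, dj j (cX p q i) x * (a i * a j) := by
    rw [Finset.sum_comm]
    refine Finset.sum_congr rfl fun i _ => Finset.sum_congr rfl fun j _ => ?_
    ring
  have h2 : ∑ i, ∑ j, dj i (cX p q j) x * (a i * a j) +
      ∑ i, ∑ j, dj j (cX p q i) x * (a i * a j) = 2 * (cmu p q x * ∑ i, a i ^ 2) := by
    rw [← Finset.sum_add_distrib, Finset.mul_sum, Finset.mul_sum]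
    refine Finset.sum_congr rfl fun i _ => ?_
    rw [← Finset.sum_add_distrib]
    have h3 : ∀ j, dj i (cX p q j) x * (a i * a j) + dj j (cX p q i) x * (a i * a j) =
        if i = j then 2 * (cmu p q x * a i ^ 2) else 0 := by
      intro j
      rw [dj_cX, dj_cX]
      by_cases hij : i = j
      · subst hij
        simp only [if_true]
        unfold cmu
        ring
      · simp only [hij, Ne.symm hij, if_false]
        ring
    simp only [h3, Finset.sum_ite_eq, Finset.mem_univ, if_true]
  linarith

/-- derivative of `D g` -/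
theorem dj_cD {g : E n → ℝ} {x : E n} (hg : ContDiffAt ℝ 2 g x) (i : Fin n) :
    dj i (cD p q g) x = (∑ j, (dj i (cX p q j) x * dj j g x + cX p q j x * dj j (dj i g) x)) +
      ((n : ℝ) - 2) / 2 * (dj i (cmu p q) x * g x + cmu p q x * dj i g x) := by
  have dX : ∀ j, DifferentiableAt ℝ (cX p q j) x := fun j =>
    (cd_cX j (k := 1)).differentiable (by norm_num) x
  have dm : DifferentiableAt ℝ (cmu p q) x := (cd_cmu (k := 1)).differentiable (by norm_num) x
  have dg := c2_diff hg
  have dgj := fun j => c2_djd hg j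
  have h1 : cD p q g = fun x => (∑ j, cX p q j x * dj j g x) +
      ((n : ℝ) - 2) / 2 * (cmu p q x * g x) := by
    funext y
    unfold cD
    ring
  rw [h1, dj_add (DifferentiableAt.fun_sum fun j _ => (dX j).fun_mul (dgj j))
    ((dm.fun_mul dg).const_mul _), dj_sum _ fun j _ => (dX j).fun_mul (dgj j),
    dj_cmul _ (dm.fun_mul dg), dj_mul dm dg]
  congr 1
  refine Finset.sum_congr rfl fun j _ => ?_
  rw [dj_mul (dX j) (dgj j), dj_comm hg i j]

theorem cd_cD {g : E n → ℝ} (hg : ContDiff ℝ 2 g) : ContDiff ℝ 1 (cD p q g) := by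
  have h1 : ∀ j, ContDiff ℝ 1 (dj j g) := fun j => by
    rw [contDiff_iff_contDiffAt]
    exact fun x => c2_dj hg.contDiffAt j
  unfold cD
  exact (ContDiff.sum fun j _ => (cd_cX j).mul (h1 j)).add
    ((contDiff_const.mul cd_cmu).mul (hg.of_le (by norm_num)))

theorem cs_cD {g : E n → ℝ} (hc : HasCompactSupport g) : HasCompactSupport (cD p q g) := by
  refine hc.mono' (fun x hx => ?_)
  by_contra h
  have h1 : g =ᶠ[𝓝 x] fun _ => (0 : ℝ) := notMem_tsupport_iff_eventuallyEq.1 h
  refine hx ?_
  unfold cD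
  simp [dj_congr h1, dj_const, h1.self_of_nhds]

theorem cdj {g : E n → ℝ} (hg : ContDiff ℝ 2 g) (j : Fin n) : ContDiff ℝ 1 (dj j g) := by
  rw [contDiff_iff_contDiffAt]
  exact fun x => c2_dj hg.contDiffAt j

theorem cont_lap {g : E n → ℝ} (hg : ContDiff ℝ 2 g) : Continuous (lap g) := by
  unfold lap
  exact continuous_finsetSum _ fun j _ => cont_dj (cdj hg j) j

theorem supp_lap {g : E n → ℝ} (hc : HasCompactSupport g) : HasCompactSupport (lap g) := by
  refine hc.mono' (fun x hx => ?_)
  by_contra h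
  have h1 : g =ᶠ[𝓝 x] fun _ => (0 : ℝ) := notMem_tsupport_iff_eventuallyEq.1 h
  refine hx ?_
  rw [lap_congr h1]
  unfold lap
  have h2 : ∀ i : Fin n, dj i (fun _ : E n => (0 : ℝ)) = fun _ => 0 := fun i => by
    funext y
    exact dj_const 0 i y
  simp [h2, dj_const]

/-- (I1) `∫ Δg D g = 0` -/
theorem int_lap_D {g : E n → ℝ} (hg : ContDiff ℝ 2 g) (hc : HasCompactSupport g) :
    ∫ x, lap g x * cD p q g x = 0 := by
  have hj := cdj hg
  have hcj := fun j => supp_dj hc j
  have key := int_div (Y := fun i x => dj i g x * cD p q g x -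
    cX p q i x * (1 / 2 * ∑ k, dj k g x ^ 2) - ((n : ℝ) - 2) / 4 * (2 * (p i - q i) / nsq p q) *
      g x ^ 2) ?_ ?_
  · rw [← key]
    refine integral_congr_ae (Eventually.of_forall fun x => ?_)
    simp only
    have dg := c2_diff (x := x) hg.contDiffAt
    have dgj := fun j => c2_djd (x := x) hg.contDiffAt j
    have dX : ∀ j, DifferentiableAt ℝ (cX p q j) x := fun j =>
      (cd_cX j (k := 1)).differentiable (by norm_num) x
    have dD : DifferentiableAt ℝ (cD p q g) x := (cd_cD hg).differentiable (by norm_num) x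
    have dS : DifferentiableAt ℝ (fun x => 1 / 2 * ∑ k, dj k g x ^ 2) x :=
      (DifferentiableAt.fun_sum fun k _ => (dgj k).fun_pow 2).const_mul _
    have e1 : ∀ i, dj i (fun x => dj i g x * cD p q g x -
        cX p q i x * (1 / 2 * ∑ k, dj k g x ^ 2) -
        ((n : ℝ) - 2) / 4 * (2 * (p i - q i) / nsq p q) * g x ^ 2) x =
        dj i (dj i g) x * cD p q g x +
        (∑ j, dj i (cX p q j) x * (dj i g x * dj j g x)) +
        (∑ j, cX p q j x * (dj i g x * dj j (dj i g) x)) +
        ((n : ℝ) - 2) / 2 * cmu p q x * dj i g x ^ 2 -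
        dj i (cX p q i) x * (1 / 2 * ∑ k, dj k g x ^ 2) -
        ∑ k, cX p q i x * (dj k g x * dj i (dj k g) x) := by
      intro i
      have e2 : dj i (fun x => 1 / 2 * ∑ k, dj k g x ^ 2) x =
          ∑ k, dj k g x * dj i (dj k g) x := by
        rw [dj_cmul _ (DifferentiableAt.fun_sum fun k _ => (dgj k).fun_pow 2),
          dj_sum _ fun k _ => (dgj k).fun_pow 2, Finset.mul_sum]
        refine Finset.sum_congr rfl fun k _ => ?_
        have : (fun y => dj k g y ^ 2) = fun y => dj k g y * dj k g y := by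
          funext y
          ring
        rw [this, dj_mul (dgj k) (dgj k)]
        ring
      have e3 : dj i (fun x => ((n : ℝ) - 2) / 4 * (2 * (p i - q i) / nsq p q) * g x ^ 2) x =
          ((n : ℝ) - 2) / 2 * dj i (cmu p q) x * (g x * dj i g x) := by
        rw [dj_cmul _ (dg.fun_pow 2)]
        have : (fun y => g y ^ 2) = fun y => g y * g y := by
          funext y
          ring
        rw [this, dj_mul dg dg, dj_cmu]
        ring
      rw [dj_sub (((dgj i).fun_mul dD).fun_sub ((dX i).fun_mul dS)) ((dg.fun_pow 2).const_mul _),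
        dj_sub ((dgj i).fun_mul dD) ((dX i).fun_mul dS), dj_mul (dgj i) dD, dj_mul (dX i) dS, e2,
        e3, dj_cD hg.contDiffAt, Finset.sum_add_distrib, mul_add, mul_add, Finset.mul_sum,
        Finset.mul_sum, Finset.mul_sum (s := Finset.univ) (a := cX p q i x)]
      have e4 : ∑ j, dj i g x * (dj i (cX p q j) x * dj j g x) =
          ∑ j, dj i (cX p q j) x * (dj i g x * dj j g x) :=
        Finset.sum_congr rfl fun j _ => by ring
      have e5 : ∑ j, dj i g x * (cX p q j x * dj j (dj i g) x) =
          ∑ j, cX p q j x * (dj i g x * dj j (dj i g) x) :=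
        Finset.sum_congr rfl fun j _ => by ring
      rw [e4, e5]
      ring
    have e6 : ∑ i, ∑ j, cX p q j x * (dj i g x * dj j (dj i g) x) =
        ∑ i, cX p q i x * ∑ k, dj k g x * dj i (dj k g) x := by
      rw [Finset.sum_comm]
      exact Finset.sum_congr rfl fun i _ => (Finset.mul_sum _ _ _).symm
    have e7 : ∑ i, dj i (cX p q i) x = n * cmu p q x := by
      have : ∀ i : Fin n, dj i (cX p q i) x = cmu p q x := by
        intro i
        rw [dj_cX]
        simp only [if_true]
        unfold cmu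
        ring
      simp [this]
    simp only [e1, Finset.sum_add_distrib, Finset.sum_sub_distrib, ← Finset.mul_sum,
      ← Finset.sum_mul]
    rw [sum_dj_cX, e7, e6]
    unfold lap
    ring
  · intro i
    exact (((hj i).mul (cd_cD hg)).sub ((cd_cX i).mul (contDiff_const.mul
      (ContDiff.sum fun k _ => (hj k).pow 2)))).sub
      (contDiff_const.mul ((hg.of_le (by norm_num)).pow 2))
  · intro i
    refine hc.mono' (fun x hx => ?_)
    by_contra h
    have h1 : g =ᶠ[𝓝 x] fun _ => (0 : ℝ) := notMem_tsupport_iff_eventuallyEq.1 h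
    refine hx ?_
    simp [dj_congr h1, dj_const, h1.self_of_nhds]

/-- (I2), (I3): `∫ a(φ) g D g / θ = - 1/2 ∫ a'(φ) g² / θ`; here for `a = 1` and `a = φ`. -/
theorem int_D (hpq : p ≠ q) {g : E n → ℝ} (hg : ContDiff ℝ 2 g) (hc : HasCompactSupport g)
    (hp : p ∉ tsupport g) (hq : q ∉ tsupport g) {a a' : ℝ → ℝ} (ha : ContDiff ℝ 1 a)
    (ha' : ∀ t, HasDerivAt a (a' t) t) :
    ∫ x, (a (cph p q x) * (g x * cD p q g x / cth p q x) +
      1 / 2 * (a' (cph p q x) * g x ^ 2 / cth p q x)) = 0 := by
  have hne : ∀ x ∈ tsupport g, x ≠ p ∧ x ≠ q := fun x hx =>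
    ⟨fun h => hp (h ▸ hx), fun h => hq (h ▸ hx)⟩
  have key := int_div (Y := fun j x => (a (cph p q x) * dj j (cph p q) x * g x) * g x) ?_ ?_
  · have h2 : ∀ x, ∑ j, dj j (fun x => (a (cph p q x) * dj j (cph p q) x * g x) * g x) x =
        2 * (a (cph p q x) * (g x * cD p q g x / cth p q x) +
      1 / 2 * (a' (cph p q x) * g x ^ 2 / cth p q x)) := by
      intro x
      by_cases hx : x ∈ tsupport g
      · obtain ⟨h1, h2⟩ := hne x hx
        have dg := c2_diff (x := x) hg.contDiffAt
        have dφ : DifferentiableAt ℝ (cph p q) x := (cd_cph h1 h2 (k := 1)).differentiableAt (by norm_num)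
        have da : DifferentiableAt ℝ (fun x => a (cph p q x)) x :=
          (ha' _).differentiableAt.comp x dφ
        have dφj : ∀ j, DifferentiableAt ℝ (dj j (cph p q)) x := fun j => c2_djd (cd_cph h1 h2) j
        have hth := (cth_pos hpq h1 h2).ne'
        have e1 : ∀ j, dj j (fun x => (a (cph p q x) * dj j (cph p q) x * g x) * g x) x =
            a' (cph p q x) * g x ^ 2 * dj j (cph p q) x ^ 2 +
            a (cph p q x) * g x ^ 2 * dj j (dj j (cph p q)) x +
            2 * a (cph p q x) * g x * (cX p q j x * dj j g x) / cth p q x := by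
          intro j
          rw [dj_mul ((da.fun_mul (dφj j)).fun_mul dg) dg, dj_mul (da.fun_mul (dφj j)) dg,
            dj_mul da (dφj j), dj_comp (ha' _) dφ, ← dj_cph' hpq h1 h2 j]
          field_simp
          ring
        have e2 : ∑ j, dj j (cph p q) x ^ 2 = 1 / cth p q x := by
          rw [eq_div_iff hth, mul_comm]
          exact sum_dj_cph hpq h1 h2
        have e3 : ∑ j, dj j (dj j (cph p q)) x = ((n : ℝ) - 2) * cmu p q x / cth p q x := by
          rw [eq_div_iff hth, mul_comm]
          exact lap_cph hpq h1 h2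
        simp only [e1, Finset.sum_add_distrib, ← Finset.mul_sum, ← Finset.sum_div]
        rw [e2, e3]
        unfold cD
        field_simp
        ring
      · have h1 : g =ᶠ[𝓝 x] fun _ => (0 : ℝ) := notMem_tsupport_iff_eventuallyEq.1 hx
        have h3 : ∀ j, (fun x => (a (cph p q x) * dj j (cph p q) x * g x) * g x) =ᶠ[𝓝 x]
            fun _ => 0 := by
          intro j
          filter_upwards [h1] with y hy
          rw [hy, mul_zero]
        simp only [fun j => dj_congr (h3 j) j, dj_const, h1.self_of_nhds]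
        simp
    simp only [h2] at key
    rw [integral_const_mul] at key
    linarith
  · intro j
    refine cd_mul (fun x hx => ?_) (hg.of_le (by norm_num))
    obtain ⟨h1, h2⟩ := hne x hx
    exact ((ha.contDiffAt.comp x (cd_cph h1 h2)).mul (c2_dj (cd_cph h1 h2) j)).mul
      (hg.of_le (by norm_num)).contDiffAt
  · exact fun j => hc.mul_left

/-- the conjugated operator -/
theorem conj_id (hpq : p ≠ q) {f : E n → ℝ} {x : E n} (hp : x ≠ p) (hq : x ≠ q)
    (hf : ContDiffAt ℝ 2 f x) (m : ℝ) :
    cth p q x * lap (fun y => Real.exp (m * cph p q y) * f y) x +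
      m ^ 2 * (Real.exp (m * cph p q x) * f x) -
      2 * m * cD p q (fun y => Real.exp (m * cph p q y) * f y) x =
    Real.exp (m * cph p q x) * (cth p q x * lap f x) := by
  have hth := (cth_pos hpq hp hq).ne'
  have cφ : ContDiffAt ℝ 2 (cph p q) x := cd_cph hp hq
  have dφ := c2_diff cφ
  have df := c2_diff hf
  have hexp : ∀ t, HasDerivAt (fun t => Real.exp (m * t)) (m * Real.exp (m * t)) t := by
    intro t
    have := ((hasDerivAt_id' t).const_mul m).exp
    rw [mul_one, mul_comm (Real.exp _)] at this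
    exact this
  have hexp2 : HasDerivAt (fun t => m * Real.exp (m * t)) (m * (m * Real.exp (m * cph p q x)))
      (cph p q x) := (hexp _).const_mul m
  have ce : ContDiffAt ℝ 2 (fun y => Real.exp (m * cph p q y)) x :=
    (contDiffAt_const.mul cφ).exp
  have e1 : ∀ j, dj j (fun y => Real.exp (m * cph p q y)) x =
      m * Real.exp (m * cph p q x) * dj j (cph p q) x := fun j => dj_comp (hexp _) dφ j
  have e2 : lap (fun y => Real.exp (m * cph p q y)) x = m * Real.exp (m * cph p q x) *
      lap (cph p q) x + m * (m * Real.exp (m * cph p q x)) * ∑ i, dj i (cph p q) x ^ 2 :=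
    lap_comp (h := fun t => Real.exp (m * t)) (h₁ := fun t => m * Real.exp (m * t)) cφ
      (Eventually.of_forall hexp) hexp2
  have e3 : ∑ j, dj j (cph p q) x ^ 2 = 1 / cth p q x := by
    rw [eq_div_iff hth, mul_comm]
    exact sum_dj_cph hpq hp hq
  have e4 : lap (cph p q) x = ((n : ℝ) - 2) * cmu p q x / cth p q x := by
    rw [eq_div_iff hth, mul_comm]
    exact lap_cph hpq hp hq
  have e5 : ∀ j, dj j (fun y => Real.exp (m * cph p q y) * f y) x =
      m * Real.exp (m * cph p q x) * dj j (cph p q) x * f x +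
        Real.exp (m * cph p q x) * dj j f x := by
    intro j
    rw [dj_mul (c2_diff ce) df, e1]
  have e6 : ∑ j, dj j (cph p q) x * dj j f x = (∑ j, cX p q j x * dj j f x) / cth p q x := by
    rw [eq_div_iff hth, Finset.sum_mul]
    refine Finset.sum_congr rfl fun j _ => ?_
    rw [← dj_cph' hpq hp hq j]
    ring
  have e7 : ∑ j, cX p q j x * dj j (cph p q) x = 1 := by
    rw [← sum_dj_cph hpq hp hq, Finset.mul_sum]
    refine Finset.sum_congr rfl fun j _ => ?_
    rw [← dj_cph' hpq hp hq j]
    ring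
  have e8 : ∑ j, cX p q j x * (m * Real.exp (m * cph p q x) * dj j (cph p q) x * f x +
      Real.exp (m * cph p q x) * dj j f x) = m * Real.exp (m * cph p q x) * f x +
      Real.exp (m * cph p q x) * ∑ j, cX p q j x * dj j f x := by
    have : ∀ j, cX p q j x * (m * Real.exp (m * cph p q x) * dj j (cph p q) x * f x +
      Real.exp (m * cph p q x) * dj j f x) = m * Real.exp (m * cph p q x) * f x *
      (cX p q j x * dj j (cph p q) x) + Real.exp (m * cph p q x) * (cX p q j x * dj j f x) := by
      intro j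
      ring
    simp only [this, Finset.sum_add_distrib, ← Finset.mul_sum, e7, mul_one]
  rw [lap_mul ce hf]
  unfold cD
  simp only [e1, e5, e8]
  have e9 : ∑ i, m * Real.exp (m * cph p q x) * dj i (cph p q) x * dj i f x =
      m * Real.exp (m * cph p q x) * ((∑ j, cX p q j x * dj j f x) / cth p q x) := by
    rw [← e6, Finset.mul_sum]
    refine Finset.sum_congr rfl fun j _ => ?_
    ring
  rw [e9, e2, e3, e4]
  field_simp
  ring

/-- The Carleman estimate. -/
theorem carleman (hpq : p ≠ q) {f : E n → ℝ} (hf : ContDiff ℝ 2 f) (hc : HasCompactSupport f)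
    (hp : p ∉ tsupport f) (hq : q ∉ tsupport f) {m L : ℝ} (hm : 0 < m)
    (hL : ∀ x ∈ tsupport f, |cph p q x| ≤ L) :
    ∫ x, Real.exp (m * cph p q x) ^ 2 * f x ^ 2 / cth p q x ≤
      L ^ 2 / m ^ 2 * ∫ x, Real.exp (m * cph p q x) ^ 2 * (cth p q x * lap f x ^ 2) := by
  have hne : ∀ x ∈ tsupport f, x ≠ p ∧ x ≠ q := fun x hx =>
    ⟨fun h => hp (h ▸ hx), fun h => hq (h ▸ hx)⟩
  set g : E n → ℝ := fun y => Real.exp (m * cph p q y) * f y with hg
  have cg : ContDiff ℝ 2 g := by
    refine cd_mul (fun x hx => ?_) hf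
    obtain ⟨h1, h2⟩ := hne x hx
    exact (contDiffAt_const.mul (cd_cph h1 h2)).exp
  have hts : tsupport g ⊆ tsupport f := closure_mono fun x hx => by
    intro h
    refine hx ?_
    simp [hg, h]
  have hcg : HasCompactSupport g := hc.mul_left
  have hpg : p ∉ tsupport g := fun h => hp (hts h)
  have hqg : q ∉ tsupport g := fun h => hq (hts h)
  have cD := cd_cD (p := p) (q := q) cg
  have cDc := cs_cD (p := p) (q := q) hcg
  have cl := cont_lap cg
  -- continuity of products with compact support in the good set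
  have hcont : ∀ (a b : E n → ℝ), Continuous b → tsupport b ⊆ tsupport f →
      (∀ x, x ≠ p → x ≠ q → ContinuousAt a x) → Continuous fun x => a x * b x := by
    intro a b hb hbs ha
    rw [continuous_iff_continuousAt]
    intro x
    by_cases hx : x ∈ tsupport b
    · obtain ⟨h1, h2⟩ := hne x (hbs hx)
      exact (ha x h1 h2).mul hb.continuousAt
    · have h1 : b =ᶠ[𝓝 x] fun _ => (0 : ℝ) := notMem_tsupport_iff_eventuallyEq.1 hx
      have h2 : (fun x => a x * b x) =ᶠ[𝓝 x] fun _ => (0 : ℝ) := by
        filter_upwards [h1] with y hy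
        rw [hy, mul_zero]
      exact continuousAt_const.congr h2.symm
  have hint : ∀ (a b : E n → ℝ), Continuous b → tsupport b ⊆ tsupport f →
      (∀ x, x ≠ p → x ≠ q → ContinuousAt a x) → Integrable fun x => a x * b x := by
    intro a b hb hbs ha
    refine (hcont a b hb hbs ha).integrable_of_hasCompactSupport ?_
    exact (HasCompactSupport.of_support_subset_isCompact hc
      (fun x hx => hbs (subset_tsupport _ hx))).mul_left
  have hsD : tsupport (H31.cD p q g) ⊆ tsupport f := by
    refine (closure_minimal (fun x hx => ?_) (isClosed_tsupport g)).trans hts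
    by_contra h
    have h1 : g =ᶠ[𝓝 x] fun _ => (0 : ℝ) := notMem_tsupport_iff_eventuallyEq.1 h
    refine hx ?_
    unfold H31.cD
    simp [dj_congr h1, dj_const, h1.self_of_nhds]
  have hsl : tsupport (lap g) ⊆ tsupport f := by
    refine (closure_minimal (fun x hx => ?_) (isClosed_tsupport g)).trans hts
    by_contra h
    have h1 : g =ᶠ[𝓝 x] fun _ => (0 : ℝ) := notMem_tsupport_iff_eventuallyEq.1 h
    refine hx ?_
    rw [lap_congr h1]
    unfold lap
    have h2 : ∀ i : Fin n, dj i (fun _ : E n => (0 : ℝ)) = fun _ => 0 := fun i => by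
      funext y
      exact dj_const 0 i y
    simp [h2, dj_const]
  have hmults : ∀ (a b : E n → ℝ), tsupport b ⊆ tsupport f →
      tsupport (fun x => a x * b x) ⊆ tsupport f := fun a b hb =>
    (closure_mono fun x hx => by
      intro h
      refine hx ?_
      simp [h]).trans hb
  have cθ : ∀ x, x ≠ p → x ≠ q → ContinuousAt (fun x => 1 / cth p q x) x := fun x h1 h2 =>
    continuousAt_const.div (cd_cth (k := 1)).continuous.continuousAt (cth_pos hpq h1 h2).ne'
  have cφ : ∀ x, x ≠ p → x ≠ q → ContinuousAt (cph p q) x := fun x h1 h2 =>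
    (cd_cph h1 h2 (k := 1)).continuousAt
  have cθ' : Continuous (cth p q) := (cd_cth (k := 1)).continuous
  -- the integrals
  have i1 : Integrable fun x => 1 / cth p q x * (g x * g x) :=
    hint _ _ (cg.continuous.mul cg.continuous) (hmults _ _ hts) cθ
  have i2 : Integrable fun x => 1 / cth p q x * (g x * H31.cD p q g x) :=
    hint _ _ (cg.continuous.mul cD.continuous) (hmults _ _ hsD) cθ
  have i3 : Integrable fun x => (cph p q x * (1 / cth p q x)) * (g x * H31.cD p q g x) :=
    hint _ _ (cg.continuous.mul cD.continuous) (hmults _ _ hsD)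
      fun x h1 h2 => (cφ x h1 h2).mul (cθ x h1 h2)
  have i4 : Integrable fun x => 1 / cth p q x * (H31.cD p q g x * H31.cD p q g x) :=
    hint _ _ (cD.continuous.mul cD.continuous) (hmults _ _ hsD) cθ
  have i5 : Integrable fun x => lap g x * H31.cD p q g x :=
    (cl.mul cD.continuous).integrable_of_hasCompactSupport cDc.mul_left
  have i6 : Integrable fun x => 1 / cth p q x *
      ((cth p q x * lap g x + m ^ 2 * g x) * (cth p q x * lap g x + m ^ 2 * g x)) := by
    refine hint _ _ ?_ (hmults _ _ ?_) cθ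
    · fun_prop
    · refine (tsupport_add _ _).trans (union_subset (hmults _ _ hsl) (hmults _ _ hts))
  -- the identities
  have I1 := int_lap_D (p := p) (q := q) cg hcg
  have I2 := int_D hpq cg hcg hpg hqg (a := fun _ => 1) (a' := fun _ => 0) contDiff_const
    (fun t => hasDerivAt_const t 1)
  have I3 := int_D hpq cg hcg hpg hqg (a := fun t => t) (a' := fun _ => 1) contDiff_id
    (fun t => hasDerivAt_id t)
  have I2' : ∫ x, 1 / cth p q x * (g x * H31.cD p q g x) = 0 := by
    rw [← I2]
    refine integral_congr_ae (Eventually.of_forall fun x => ?_)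
    simp only
    ring
  have I3' : ∫ x, 1 / cth p q x * (g x * g x) =
      -2 * ∫ x, (cph p q x * (1 / cth p q x)) * (g x * H31.cD p q g x) := by
    have h1 : ∫ x, ((cph p q x * (1 / cth p q x)) * (g x * H31.cD p q g x) +
        1 / 2 * (1 / cth p q x * (g x * g x))) = 0 := by
      rw [← I3]
      refine integral_congr_ae (Eventually.of_forall fun x => ?_)
      simp only
      ring
    rw [integral_add i3 (i1.const_mul _), integral_const_mul] at h1
    linarith
  -- lower bound for `D g`
  have J1 : ∫ x, 1 / cth p q x * (g x * g x) ≤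
      4 * L ^ 2 * ∫ x, 1 / cth p q x * (H31.cD p q g x * H31.cD p q g x) := by
    have h1 : ∫ x, -((cph p q x * (1 / cth p q x)) * (g x * H31.cD p q g x)) ≤
        ∫ x, (1 / 4 * (1 / cth p q x * (g x * g x)) +
          L ^ 2 * (1 / cth p q x * (H31.cD p q g x * H31.cD p q g x))) := by
      refine integral_mono i3.neg ((i1.const_mul _).add (i4.const_mul _)) fun x => ?_
      simp only
      by_cases hx : x ∈ tsupport f
      · obtain ⟨h1, h2⟩ := hne x hx
        have hth := cth_pos hpq h1 h2
        have hφ := hL x hx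
        have hφ2 : cph p q x ^ 2 ≤ L ^ 2 := by
          rw [← sq_abs]
          exact pow_le_pow_left₀ (abs_nonneg _) hφ 2
        have h3 : -(cph p q x * (g x * H31.cD p q g x)) ≤ 1 / 4 * (g x * g x) +
            L ^ 2 * (H31.cD p q g x * H31.cD p q g x) := by
          have h4 : cph p q x ^ 2 * (H31.cD p q g x * H31.cD p q g x) ≤
              L ^ 2 * (H31.cD p q g x * H31.cD p q g x) :=
            mul_le_mul_of_nonneg_right hφ2 (mul_self_nonneg _)
          nlinarith [sq_nonneg (g x / 2 + cph p q x * H31.cD p q g x)]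
        have h5 := mul_le_mul_of_nonneg_left h3 (one_div_pos.2 hth).le
        linarith
      · have h1 : g x = 0 := by
          simp [hg, image_eq_zero_of_notMem_tsupport hx]
        have h2 : H31.cD p q g x = 0 := image_eq_zero_of_notMem_tsupport fun h => hx (hsD h)
        simp [h1, h2]
    rw [integral_neg, integral_add (i1.const_mul _) (i4.const_mul _), integral_const_mul,
      integral_const_mul] at h1
    linarith
  -- the expansion
  have J2 : 4 * m ^ 2 * ∫ x, 1 / cth p q x * (H31.cD p q g x * H31.cD p q g x) ≤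
      ∫ x, Real.exp (m * cph p q x) ^ 2 * (cth p q x * lap f x ^ 2) := by
    have h1 : ∀ x, Real.exp (m * cph p q x) ^ 2 * (cth p q x * lap f x ^ 2) =
        1 / cth p q x * ((cth p q x * lap g x + m ^ 2 * g x) *
          (cth p q x * lap g x + m ^ 2 * g x)) +
        4 * m ^ 2 * (1 / cth p q x * (H31.cD p q g x * H31.cD p q g x)) -
        4 * m * (lap g x * H31.cD p q g x) -
        4 * m ^ 3 * (1 / cth p q x * (g x * H31.cD p q g x)) := by
      intro x
      by_cases hx : x ∈ tsupport f
      · obtain ⟨h1, h2⟩ := hne x hx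
        have hth := (cth_pos hpq h1 h2).ne'
        have h3 := conj_id hpq h1 h2 (hf.contDiffAt (x := x)) m
        have h4 : Real.exp (m * cph p q x) ^ 2 * (cth p q x * lap f x ^ 2) =
            1 / cth p q x * (Real.exp (m * cph p q x) * (cth p q x * lap f x)) ^ 2 := by
          field_simp
        rw [h4, ← h3]
        simp only [← hg]
        field_simp
        ring
      · have h1 : g x = 0 := by
          simp [hg, image_eq_zero_of_notMem_tsupport hx]
        have h2 : H31.cD p q g x = 0 := image_eq_zero_of_notMem_tsupport fun h => hx (hsD h)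
        have h3 : lap g x = 0 := image_eq_zero_of_notMem_tsupport fun h => hx (hsl h)
        have h4 : lap f x = 0 := by
          have h5 : f =ᶠ[𝓝 x] fun _ => (0 : ℝ) := notMem_tsupport_iff_eventuallyEq.1 hx
          rw [lap_congr h5]
          unfold lap
          have h2 : ∀ i : Fin n, dj i (fun _ : E n => (0 : ℝ)) = fun _ => 0 := fun i => by
            funext y
            exact dj_const 0 i y
          simp [h2, dj_const]
        simp [h1, h2, h3, h4]
    simp only [h1]
    rw [integral_sub, integral_sub, integral_add i6 (i4.const_mul _), integral_const_mul,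
      integral_const_mul, integral_const_mul, I1, I2']
    · have h2 : 0 ≤ ∫ x, 1 / cth p q x * ((cth p q x * lap g x + m ^ 2 * g x) *
          (cth p q x * lap g x + m ^ 2 * g x)) := by
        refine integral_nonneg fun x => mul_nonneg ?_ (mul_self_nonneg _)
        unfold cth nsq
        positivity
      linarith
    · exact i6.add (i4.const_mul _)
    · exact i5.const_mul _
    · exact (i6.add (i4.const_mul _)).sub (i5.const_mul _)
    · exact i2.const_mul _
  have J3 : ∫ x, Real.exp (m * cph p q x) ^ 2 * f x ^ 2 / cth p q x =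
      ∫ x, 1 / cth p q x * (g x * g x) := by
    refine integral_congr_ae (Eventually.of_forall fun x => ?_)
    simp only [hg]
    ring
  rw [J3]
  refine J1.trans ?_
  have h5 : 4 * L ^ 2 * ∫ x, 1 / cth p q x * (H31.cD p q g x * H31.cD p q g x) =
      L ^ 2 / m ^ 2 * (4 * m ^ 2 * ∫ x, 1 / cth p q x * (H31.cD p q g x * H31.cD p q g x)) := by
    field_simp
  rw [h5]
  exact mul_le_mul_of_nonneg_left J2 (by positivity)

end Vale.Agent.P088.R2.H31
end
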