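import Vale.Agent.P088.R2.H31.Main4
import Vale.Agent.P088.R2.H31.CSpec3

/-!
# P088, THEOREM S, core: assembly
-/

open MeasureTheory Set Filter Topology Metric
open scoped ContDiff

noncomputable section

namespace Vale.Agent.P088.R2.H31

theorem poly_exp {θ θ' : ℝ} (hθ : 0 < θ) (h : θ < θ') :
    ∃ C, 0 ≤ C ∧ ∀ m : ℕ, ((m : ℝ) + 1) ^ 2 * θ ^ m ≤ C * θ' ^ m := by
  have hθ' : 0 < θ' := hθ.trans h
  have hr : |θ / θ'| < 1 := by
    rw [abs_of_pos (by positivity), div_lt_one hθ']
    exact h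
  have h1 : Tendsto (fun m : ℕ => (m : ℝ) ^ 2 * (θ / θ') ^ m) atTop (𝓝 0) :=
    tendsto_pow_const_mul_const_pow_of_abs_lt_one 2 hr
  obtain ⟨C, hC⟩ := h1.bddAbove_range
  have hC' : ∀ m : ℕ, (m : ℝ) ^ 2 * (θ / θ') ^ m ≤ C := fun m => hC ⟨m, rfl⟩
  refine ⟨C * (θ' / θ), ?_, fun m => ?_⟩
  · have := hC' 0
    simp at this
    positivity
  · have h2 := hC' (m + 1)
    have h3 : θ ^ m = (θ / θ') ^ (m + 1) * (θ' / θ) * θ' ^ m := by
      rw [div_pow, pow_succ, pow_succ]
      field_simp
    rw [h3]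
    push_cast at h2
    calc ((m : ℝ) + 1) ^ 2 * ((θ / θ') ^ (m + 1) * (θ' / θ) * θ' ^ m)
        = (((m : ℝ) + 1) ^ 2 * (θ / θ') ^ (m + 1)) * ((θ' / θ) * θ' ^ m) := by ring
      _ ≤ C * ((θ' / θ) * θ' ^ m) := mul_le_mul_of_nonneg_right h2 (by positivity)
      _ = _ := by ring

theorem core_of (hg : GEO_statement) (hk : KID_statement) (hcb : CB_statement) :
    Core_statement := by
  intro k R r G q hR hr hG hq hqG hball hSt
  obtain ⟨ρ₀, η, η₁, κ, S, Em, Ez, τ, θ, ρl, ρm, hη, hηρ, hη₁, hκ, hS, hEm, hEz, hτ, hτS, hθ, hθ1,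
    hρl, hcfg, hin⟩ := hg k R r G hR hr hball
  let χ : ContDiffBump (0 : E (k + 3)) := ⟨R / 4, 3 * R / 8, by linarith, by linarith⟩
  let χ₂ : ContDiffBump (0 : E (k + 3)) := ⟨R / 2, 3 * R / 4, by linarith, by linarith⟩
  have hχs : tsupport (χ : E (k + 3) → ℝ) ⊆ ball 0 (R / 2) := by
    rw [χ.tsupport_eq]
    exact closedBall_subset_ball (by simp only [χ]; linarith)
  have hχ₂s : tsupport (χ₂ : E (k + 3) → ℝ) ⊆ ball 0 R := by
    rw [χ₂.tsupport_eq]
    exact closedBall_subset_ball (by simp only [χ₂]; linarith)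
  have hχz : ∀ x, ‖x‖ < R / 4 → (χ : E (k + 3) → ℝ) =ᶠ[𝓝 x] fun _ => 1 := by
    intro x hx
    have hx' : x ∈ ball (0 : E (k + 3)) (R / 4) := by rwa [mem_ball_zero_iff]
    filter_upwards [isOpen_ball.mem_nhds hx'] with y hy
    exact χ.one_of_mem_closedBall (ball_subset_closedBall hy)
  obtain ⟨C, m₀, hC, hmain⟩ := main_ineq (ρm := ρm) hG hR hκ hS hEm hEz hτ hτS hθ hθ1 hρl hq hqG hSt
    (χ := χ) χ.contDiff (fun x => χ.nonneg) (fun x => χ.le_one) hχs hχz
  have hsub : ball (0 : E (k + 3)) (R / 2) ⊆ ball 0 R := ball_subset_ball (by linarith)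
  -- continuity
  have hcont : ∀ (a b : E (k + 3) → ℝ), Continuous b → tsupport b ⊆ ball 0 R →
      ContinuousOn a (ball 0 R) → Continuous fun x => b x * a x := by
    intro a b hb hbs ha
    rw [continuous_iff_continuousAt]
    intro x
    by_cases hx : x ∈ tsupport b
    · exact hb.continuousAt.mul (ha.continuousAt (isOpen_ball.mem_nhds (hbs hx)))
    · have h1 : b =ᶠ[𝓝 x] fun _ => (0 : ℝ) := notMem_tsupport_iff_eventuallyEq.1 hx
      have h2 : (fun x => b x * a x) =ᶠ[𝓝 x] fun _ => (0 : ℝ) := by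
        filter_upwards [h1] with y hy
        rw [hy, zero_mul]
      exact continuousAt_const.congr h2.symm
  set Q : E (k + 3) → ℝ := fun x => χ x * q x with hQ
  set P : E (k + 3) → ℝ := fun x => χ₂ x * q x ^ 2 with hP
  have hQc : Continuous Q := hcont q χ χ.continuous (hχs.trans hsub) hq
  have hPc : Continuous P := hcont (fun x => q x ^ 2) χ₂ χ₂.continuous hχ₂s (hq.pow 2)
  have hQs : HasCompactSupport Q := χ.hasCompactSupport.mul_right
  have hPs : HasCompactSupport P := χ₂.hasCompactSupport.mul_right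
  have hP0 : ∀ x, 0 ≤ P x := fun x => mul_nonneg χ₂.nonneg (sq_nonneg _)
  obtain ⟨Cθ, hCθ, hpoly⟩ := poly_exp hθ (show θ < (1 + θ) / 2 by linarith)
  set θ' : ℝ := (1 + θ) / 2 with hθ'
  set C' : ℝ := 2 * C * (R ^ 2) ^ (k + 1) + 2 * C * Cθ with hC'
  have hC'0 : 0 ≤ C' := by positivity
  have hsd1 : ∀ c ∈ ball (ρ₀ • ev 1 : E (k + 3)) η₁, ∀ x, ‖pP x‖ < η₁ →
      ‖pL (x - c)‖ ≤ ρ₀ - η / 2 → Q x = 0 := by
    intro c hc x hx1 hx2
    have h1 := hin c hc x hx1 hx2
    by_cases h2 : x ∈ ball (0 : E (k + 3)) R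
    · simp only [hQ, hqG x ⟨hball ⟨h1, h2⟩, h2⟩, mul_zero]
    · have h3 : χ x = 0 := image_eq_zero_of_notMem_tsupport fun h => h2 (hsub (hχs h))
      simp only [hQ, h3, zero_mul]
  have hsd2 : ∀ c ∈ ball (ρ₀ • ev 1 : E (k + 3)) η₁, ∀ ρ ∈ Ioo (ρ₀ - η) (ρ₀ + η), ∀ m : ℕ,
      m₀ ≤ m → 1 ≤ m →
      |∫ x, Q x * Ker k m c ρ x| ≤ C' / m * (∫ x, P x * Ker k m c ρ x) + C' * θ' ^ m := by
    intro c hc ρ hρ m hm1 hm2
    have hcf := hcfg c hc ρ hρ
    set p : E (k + 3) := c - ρ • av k with hp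
    set p' : E (k + 3) := c + ρ • av k with hp'
    have hρ0 : 0 < ρ := hρl.trans_le hcf.ρl
    have hm : (1 : ℝ) ≤ m := by exact_mod_cast hm2
    have hmpos : (0 : ℝ) < m := by linarith
    have hpR : p ∈ ball (0 : E (k + 3)) R := by
      rw [mem_ball_zero_iff]
      linarith [hcf.hpR]
    have hp'R : p' ∈ ball (0 : E (k + 3)) R := by
      rw [mem_ball_zero_iff]
      linarith [hcf.hqR]
    obtain ⟨ir, hr1⟩ := hmain ρ p p' hcf Complex.reCLM (fun w => by
      simpa using Complex.abs_re_le_norm w) m hm1 hm2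
    obtain ⟨ii, hi1⟩ := hmain ρ p p' hcf Complex.imCLM (fun w => by
      simpa using Complex.abs_im_le_norm w) m hm1 hm2
    have e1 : ∀ x, Q x * Ker k m c ρ x = (2 * ρ) ^ (2 * m) *
        (χ x * q x * (Um Complex.reCLM p m x * Um Complex.reCLM p' m x) +
          χ x * q x * (Um Complex.imCLM p m x * Um Complex.imCLM p' m x)) := by
      intro x
      by_cases h1 : x = p
      · have h2 : q x = 0 := hqG x ⟨h1 ▸ hcf.hp, h1 ▸ hpR⟩
        simp only [hQ, h2]
        ring
      · by_cases h3 : x = p'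
        · have h2 : q x = 0 := hqG x ⟨h3 ▸ hcf.hq, h3 ▸ hp'R⟩
          simp only [hQ, h2]
          ring
        · rw [(hk k m c x ρ hρ0 h1 h3).2.1, pow_mul, show (2 * ρ) ^ 2 = 4 * ρ ^ 2 by ring]
          simp only [hQ]
          ring
    have e2 : ∫ x, Q x * Ker k m c ρ x = (2 * ρ) ^ (2 * m) *
        ((∫ x, χ x * q x * (Um Complex.reCLM p m x * Um Complex.reCLM p' m x)) +
          ∫ x, χ x * q x * (Um Complex.imCLM p m x * Um Complex.imCLM p' m x)) := by
      simp only [e1]
      rw [integral_const_mul, integral_add ir ii]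
    have hK3m : MeasurableSet (ball (0 : E (k + 3)) R \ G) :=
      measurableSet_ball.diff hG.measurableSet
    have hK3v : volume (ball (0 : E (k + 3)) R \ G) ≠ ⊤ :=
      ((measure_mono sdiff_subset).trans_lt measure_ball_lt_top).ne
    set A : ℝ := ∫ x in ball 0 (R / 2) \ G, q x ^ 2 * Gam ρ p p' x ^ (2 * m) with hA
    -- the kernel on the complement of `G`
    have hne : ∀ x ∈ ball (0 : E (k + 3)) R \ G, x ≠ p ∧ x ≠ p' := fun x hx =>
      ⟨fun h => hx.2 (h ▸ hcf.hp), fun h => hx.2 (h ▸ hcf.hq)⟩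
    have hnp : ∀ x ∈ ball (0 : E (k + 3)) R \ G, 0 < ‖x - p‖ ∧ 0 < ‖x - p'‖ := fun x hx =>
      ⟨hκ.trans_le (hcf.far x hx).1, hκ.trans_le (hcf.far x hx).2⟩
    have hKer : ∀ x ∈ ball (0 : E (k + 3)) R \ G, Ker k m c ρ x =
        Gam ρ p p' x ^ (2 * m) / (‖x - p‖ * ‖x - p'‖) ^ (k + 1) := fun x hx =>
      (hk k m c x ρ hρ0 (hne x hx).1 (hne x hx).2).2.2
    have hΓ0 : ∀ x, 0 ≤ Gam ρ p p' x := fun x => by
      have := zz_nonneg (x - p)
      unfold Gam
      positivity
    have hΓ1 : ∀ x ∈ ball (0 : E (k + 3)) R \ G, Gam ρ p p' x ≤ 1 := by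
      intro x hx
      unfold Gam
      rw [div_le_one (mul_pos (hnp x hx).1 (hnp x hx).2)]
      exact hcf.bΓ x
    have hKer0 : ∀ x ∈ ball (0 : E (k + 3)) R \ G, 0 ≤ Ker k m c ρ x := fun x hx => by
      rw [hKer x hx]
      have := hΓ0 x
      positivity
    have hPz : ∀ x, x ∉ ball (0 : E (k + 3)) R \ G → P x * Ker k m c ρ x = 0 := by
      intro x hx
      by_cases h1 : x ∈ ball (0 : E (k + 3)) R
      · have h2 : x ∈ G := by
          by_contra h
          exact hx ⟨h1, h⟩
        simp only [hP, hqG x ⟨h2, h1⟩]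
        ring
      · have : χ₂ x = 0 := image_eq_zero_of_notMem_tsupport fun h => h1 (hχ₂s h)
        simp only [hP, this]
        ring
    have hΓc : ContinuousOn (Gam ρ p p') (ball 0 R \ G) := by
      have h1 : ContinuousOn (fun x : E (k + 3) => 2 * ρ * zz (x - p)) (ball 0 R \ G) :=
        (continuous_const.mul (cont_zz.comp (continuous_id.sub continuous_const))).continuousOn
      exact h1.div (by fun_prop) fun x hx => (mul_pos (hnp x hx).1 (hnp x hx).2).ne'
    have hPint : IntegrableOn (fun x => P x * Ker k m c ρ x) (ball 0 R \ G) := by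
      obtain ⟨MP, hMP0, hMP⟩ := bdd_of_cs hPc hPs
      have hc1 : ContinuousOn (fun x => P x * (Gam ρ p p' x ^ (2 * m) /
          (‖x - p‖ * ‖x - p'‖) ^ (k + 1))) (ball 0 R \ G) := by
        refine hPc.continuousOn.mul (ContinuousOn.div ?_ (by fun_prop) fun x hx => ?_)
        · exact hΓc.pow _
        · have := mul_pos (hnp x hx).1 (hnp x hx).2
          positivity
      have h2 : IntegrableOn (fun x => P x * (Gam ρ p p' x ^ (2 * m) /
          (‖x - p‖ * ‖x - p'‖) ^ (k + 1))) (ball 0 R \ G) := by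
        refine int_bdd (C := MP * (1 / (κ * κ) ^ (k + 1))) hK3m hK3v
          (hc1.aestronglyMeasurable hK3m) fun x hx => ?_
        have h3 := hΓ0 x
        have h4 := mul_pos (hnp x hx).1 (hnp x hx).2
        rw [abs_mul, abs_of_nonneg (a := Gam ρ p p' x ^ (2 * m) / _) (by positivity)]
        refine mul_le_mul (hMP x) ?_ (by positivity) hMP0
        refine div_le_div₀ zero_le_one (pow_le_one₀ h3 (hΓ1 x hx)) (by positivity) ?_
        refine pow_le_pow_left₀ (by positivity) ?_ _
        exact mul_le_mul (hcf.far x hx).1 (hcf.far x hx).2 hκ.le (norm_nonneg _)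
      refine h2.congr_fun (fun x hx => ?_) hK3m
      simp only
      rw [hKer x hx]
    have hA1 : A ≤ (R ^ 2) ^ (k + 1) * ∫ x, P x * Ker k m c ρ x := by
      have h1 : ∫ x, P x * Ker k m c ρ x = ∫ x in ball 0 R \ G, P x * Ker k m c ρ x :=
        (setIntegral_eq_integral_of_forall_compl_eq_zero hPz).symm
      have hsub2 : ball (0 : E (k + 3)) (R / 2) \ G ⊆ ball 0 R \ G := sdiff_subset_sdiff_left hsub
      rw [h1, ← integral_const_mul]
      have h3 : ∀ x ∈ ball (0 : E (k + 3)) R \ G, 0 ≤ (R ^ 2) ^ (k + 1) * (P x * Ker k m c ρ x) :=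
        fun x hx => by
          have := hKer0 x hx
          have := hP0 x
          positivity
      calc A ≤ ∫ x in ball 0 (R / 2) \ G, (R ^ 2) ^ (k + 1) * (P x * Ker k m c ρ x) := by
            refine setIntegral_mono_on ?_ ((hPint.mono_set hsub2).const_mul _)
              (measurableSet_ball.diff hG.measurableSet) fun x hx => ?_
            · have hK2v : volume (ball (0 : E (k + 3)) (R / 2) \ G) ≠ ⊤ :=
                ((measure_mono sdiff_subset).trans_lt measure_ball_lt_top).ne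
              obtain ⟨Cq, hCq⟩ := (isCompact_closedBall (0 : E (k + 3)) (R / 2)).exists_bound_of_continuousOn
                (hq.mono (closedBall_subset_ball (by linarith)))
              refine int_bdd (C := Cq ^ 2 * 1) (measurableSet_ball.diff hG.measurableSet) hK2v ?_ ?_
              · refine ContinuousOn.aestronglyMeasurable ?_ (measurableSet_ball.diff hG.measurableSet)
                refine ContinuousOn.mul ((hq.mono ?_).pow 2) (ContinuousOn.pow (hΓc.mono hsub2) _)
                exact sdiff_subset.trans hsub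
              · intro x hx
                have h4 : |q x| ≤ Cq := hCq x (ball_subset_closedBall hx.1)
                rw [abs_mul, abs_pow, abs_of_nonneg (a := Gam ρ p p' x ^ (2 * m))
                  (pow_nonneg (hΓ0 x) _)]
                exact mul_le_mul (pow_le_pow_left₀ (abs_nonneg _) h4 2)
                  (pow_le_one₀ (hΓ0 x) (hΓ1 x (hsub2 hx))) (pow_nonneg (hΓ0 x) _) (sq_nonneg _)
            · have h4 : χ₂ x = 1 := χ₂.one_of_mem_closedBall (ball_subset_closedBall hx.1)
              have hxK := hsub2 hx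
              have hn1 := hnp x hxK
              simp only [hP, h4, one_mul]
              rw [hKer x hxK]
              have h5 : ‖x - p‖ ≤ R := by
                have h6 : ‖x‖ < R / 2 := by
                  have := hx.1
                  rwa [mem_ball_zero_iff] at this
                have h7 := norm_sub_le x p
                linarith [hcf.hpR]
              have h5' : ‖x - p'‖ ≤ R := by
                have h6 : ‖x‖ < R / 2 := by
                  have := hx.1
                  rwa [mem_ball_zero_iff] at this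
                have h7 := norm_sub_le x p'
                linarith [hcf.hqR]
              have h8 : (‖x - p‖ * ‖x - p'‖) ^ (k + 1) ≤ (R ^ 2) ^ (k + 1) := by
                refine pow_le_pow_left₀ (by positivity) ?_ _
                rw [sq]
                exact mul_le_mul h5 h5' (norm_nonneg _) hR.le
              have h9 : 0 < (‖x - p‖ * ‖x - p'‖) ^ (k + 1) := pow_pos (mul_pos hn1.1 hn1.2) _
              have h10 : 0 ≤ q x ^ 2 * Gam ρ p p' x ^ (2 * m) :=
                mul_nonneg (sq_nonneg _) (pow_nonneg (hΓ0 x) _)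
              have h11 : (R ^ 2) ^ (k + 1) * (q x ^ 2 * (Gam ρ p p' x ^ (2 * m) /
                  (‖x - p‖ * ‖x - p'‖) ^ (k + 1))) = (q x ^ 2 * Gam ρ p p' x ^ (2 * m)) *
                  ((R ^ 2) ^ (k + 1) / (‖x - p‖ * ‖x - p'‖) ^ (k + 1)) := by ring
              rw [h11]
              exact le_mul_of_one_le_right h10 ((one_le_div h9).2 h8)
        _ ≤ _ := by
          refine setIntegral_mono_set (hPint.const_mul _) ?_ (Eventually.of_forall hsub2)
          rw [EventuallyLE, ae_restrict_iff' hK3m]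
          exact Eventually.of_forall fun x hx => h3 x hx
    have hr2 := hr1
    have hi2 := hi1
    rw [e2]
    have hc0 : 0 < (2 * ρ) ^ (2 * m) := by positivity
    calc |(2 * ρ) ^ (2 * m) *
        ((∫ x, χ x * q x * (Um Complex.reCLM p m x * Um Complex.reCLM p' m x)) +
          ∫ x, χ x * q x * (Um Complex.imCLM p m x * Um Complex.imCLM p' m x))|
        ≤ (2 * ρ) ^ (2 * m) *
          |∫ x, χ x * q x * (Um Complex.reCLM p m x * Um Complex.reCLM p' m x)| +
          (2 * ρ) ^ (2 * m) *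
          |∫ x, χ x * q x * (Um Complex.imCLM p m x * Um Complex.imCLM p' m x)| := by
          rw [abs_mul, abs_of_pos hc0, ← mul_add]
          exact mul_le_mul_of_nonneg_left (abs_add_le _ _) hc0.le
      _ ≤ 2 * (C / m * A + C * ((m + 1) ^ 2 * θ ^ m)) := by linarith
      _ ≤ 2 * (C / m * ((R ^ 2) ^ (k + 1) * ∫ x, P x * Ker k m c ρ x) + C * (Cθ * θ' ^ m)) := by
        have h1 := mul_le_mul_of_nonneg_left hA1 (show 0 ≤ C / m by positivity)
        have h2 := mul_le_mul_of_nonneg_left (hpoly m) hC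
        linarith
      _ ≤ C' / m * (∫ x, P x * Ker k m c ρ x) + C' * θ' ^ m := by
        have hI0 : 0 ≤ ∫ x, P x * Ker k m c ρ x := by
          rw [← setIntegral_eq_integral_of_forall_compl_eq_zero hPz]
          exact setIntegral_nonneg hK3m fun x hx => mul_nonneg (hP0 x) (hKer0 x hx)
        have hθm : 0 ≤ θ' ^ m := by positivity
        have h1 : 0 ≤ 2 * C * Cθ / m * ∫ x, P x * Ker k m c ρ x := by positivity
        have h2 : 0 ≤ 2 * C * (R ^ 2) ^ (k + 1) * θ' ^ m := by positivity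
        have h3 : C' / m * (∫ x, P x * Ker k m c ρ x) + C' * θ' ^ m =
          2 * (C / m * ((R ^ 2) ^ (k + 1) * ∫ x, P x * Ker k m c ρ x) + C * (Cθ * θ' ^ m)) +
          2 * C * Cθ / m * (∫ x, P x * Ker k m c ρ x) + 2 * C * (R ^ 2) ^ (k + 1) * θ' ^ m := by
          rw [hC']
          ring
        rw [h3]
        linarith
  obtain ⟨δ, hδ, hzero⟩ := hcb k Q P ρ₀ η η₁ C' θ' m₀ hQc hQs hPc hPs hP0 hη hηρ hη₁ hC'0
    (by linarith) (by linarith) hsd1 hsd2
  refine ⟨min δ (R / 4), lt_min hδ (by linarith), fun x hx => ?_⟩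
  have hx1 : x ∈ ball (0 : E (k + 3)) δ := ball_subset_ball (min_le_left _ _) hx
  have hx2 : x ∈ ball (0 : E (k + 3)) (R / 4) := ball_subset_ball (min_le_right _ _) hx
  have h1 := hzero x hx1
  rw [mem_ball_zero_iff] at hx2
  have h2 : χ x = 1 := (hχz x hx2).self_of_nhds
  simp only [hQ, h2, one_mul] at h1
  exact h1

end Vale.Agent.P088.R2.H31
end
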