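import Vale.Agent.P088.R2.H31.Core
import Vale.Agent.P088.R2.H196.CB
import Vale.Agent.P088.R2.H884.Kid

/-!
# P088, THEOREM S, core: the blocks CB and KID are proved
-/

namespace Vale.Agent.P088.R2.H31

theorem core_geo (hg : GEO_statement) : Core_statement := core_of hg H884.kid H196.cb

end Vale.Agent.P088.R2.H31
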