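import Vale.Agent.P088.R2.H31.Def

/-!
# P088, local data, flat background: the interface between the manifold part and the core in `ℝⁿ`
-/

open MeasureTheory Set Filter Topology Metric
open scoped ContDiff

noncomputable section

namespace Vale.Agent.P088.R2.H31

/-- The interface between the manifold and the core (helper338). `B = ball 0 R`, `G` is the set
where the two problems agree (or the outside of the manifold), `q = τ⁻¹ Δ τ`. For every smooth
compactly supported `f` with `Δ f = h₁ + h₂`, `supp h₁ ⊆ G`, there are a solution `v` (`= ω u₁`) of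
the first problem which is close to `f` off `G`, and `w` (`= τ u₂ - ω u₁`), which vanishes on `G`
and solves `Δ w = q (w + v)`. -/
def Step (n : ℕ) (R : ℝ) (G : Set (E n)) (q : E n → ℝ) : Prop :=
  ∃ C : ℝ, 0 ≤ C ∧ ∀ f h₁ h₂ : E n → ℝ, ContDiff ℝ ∞ f → HasCompactSupport f →
    tsupport f ⊆ ball 0 R → Continuous h₁ → HasCompactSupport h₁ → tsupport h₁ ⊆ G ∩ ball 0 R →
    Continuous h₂ → (∀ x, lap f x = h₁ x + h₂ x) → ∀ ε > 0, ∃ v w : E n → ℝ,
      ContinuousOn v (ball 0 R \ G) ∧ ContDiffOn ℝ 2 w (ball 0 R) ∧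
      (∀ x ∈ G ∩ ball 0 R, w x = 0) ∧ (∀ x ∈ ball 0 R, lap w x = q x * (w x + v x)) ∧
      IntegrableOn (fun x => (v x - f x) ^ 2) (ball 0 R \ G) ∧
      ∫ x in ball 0 R \ G, (v x - f x) ^ 2 ≤ C * (∫ x, h₂ x ^ 2) + ε ∧
      IntegrableOn (fun x => w x ^ 2 + ∑ j, dj j w x ^ 2) (ball 0 R) ∧
      ∫ x in ball 0 R, (w x ^ 2 + ∑ j, dj j w x ^ 2) ≤
        C * ((∫ x in ball 0 R \ G, (f x ^ 2 + ∑ j, dj j f x ^ 2)) + ∫ x, h₂ x ^ 2) + ε

/-- The core theorem in `ℝ^{k+3}`. -/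
def Core_statement : Prop :=
  ∀ (k : ℕ) (R r : ℝ) (G : Set (E (k + 3))) (q : E (k + 3) → ℝ), 0 < R → 0 < r → IsOpen G →
    ContinuousOn q (ball 0 R) → (∀ x ∈ G ∩ ball 0 R, q x = 0) →
    ball (r • ev 1) r ∩ ball 0 R ⊆ G → Step (k + 3) R G q → ∃ δ > 0, ∀ x ∈ ball 0 δ, q x = 0

end Vale.Agent.P088.R2.H31
end
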