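import Vale.Agent.P088.H5.I.Spec
import Vale.Agent.P088.R2.H31.Spec

/-!
# P088, THEOREM S, manifold part: statements of the blocks RUN, TR, GI
-/

open Bundle Manifold MeasureTheory Set Filter Topology Metric
open scoped ContDiff Matrix

noncomputable section

namespace Vale.Agent.P088.R2.G31

open Vale.Agent.P088 Vale.Agent.P088.EYM Vale.Agent.P088.EYM.O

universe u

/-- (RUN) quantitative Runge approximation. `L T = F + F'` with `supp F ⊆ S` compact in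
`V ∩ M°`. The constant depends only on `P`, `Γ`, `V`. -/
def RUN_statement : Prop :=
  ∀ (n N : ℕ) [NeZero n] (M : Type u) [TopologicalSpace M] [ChartedSpace (EuclideanHalfSpace n) M]
    [IsManifold (𝓡∂ n) ∞ M] [T2Space M] [CompactSpace M] [ConnectedSpace M] [MeasurableSpace M]
    [BorelSpace M] (P : One n N M) (Γ V : Set M), RelBd n Γ → P.HasSol Γ →
    IsOpen V → IsPreconnected V → (V ∩ Γ).Nonempty →
    ∃ C : ℝ, 0 ≤ C ∧ ∀ (T F' : M → Fib N) (S : Set M), SmS n T →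
      (∀ x ∈ (𝓡∂ n).boundary M, T x = 0) → Continuous F' → IsCompact S → S ⊆ V ∩ Mi n M →
      (∀ φ : M → Fib N, SmS n φ → (∀ x ∈ (𝓡∂ n).boundary M, φ x = 0) → tsupport φ ⊆ Sᶜ →
        P.E φ T = ∫ x, inner ℂ (φ x) (F' x) ∂P.μ) →
      ∀ ε > 0, ∃ u ∈ P.U Γ, (FK P Vᶜ (T - u) (T - u)).re ≤ C * ∫ x, ‖F' x‖ ^ 2 ∂P.μ + ε

/-- (TR) transfer: the two solutions agree on `V`, and `u₂ - u₁` is bounded by the `H¹` norm of
`u₁` on the complement of `V`. -/
def TR_statement : Prop :=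
  ∀ (n N : ℕ) [NeZero n] (M : Type u) [TopologicalSpace M] [ChartedSpace (EuclideanHalfSpace n) M]
    [IsManifold (𝓡∂ n) ∞ M] [T2Space M] [CompactSpace M] [ConnectedSpace M] [MeasurableSpace M]
    [BorelSpace M] (P Q : One n N M) (Γ V : Set M), RelBd n Γ → IsOpen V → IsPreconnected V →
    (V ∩ Γ).Nonempty → SameD P Q Γ → AgreeOn P Q V →
    ∃ C : ℝ, 0 ≤ C ∧ ∀ u ∈ PP P Q Γ, (∀ x ∈ V, u.1 x = u.2 x) ∧
      (Q.E (u.2 - u.1) (u.2 - u.1)).re + ∫ x, ‖u.2 x - u.1 x‖ ^ 2 ∂Q.μ ≤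
        C * (FK P Vᶜ u.1 u.1).re

/-- Interior coordinates in which `P.g = om^{4/(n-2)} |dy|²` with a positive harmonic function `om`
(`om = 1` for flat metrics). -/
structure FlatIn {n N : ℕ} [NeZero n] {M : Type u} [TopologicalSpace M]
    [ChartedSpace (EuclideanHalfSpace n) M] [IsManifold (𝓡∂ n) ∞ M] [MeasurableSpace M]
    (P : One n N M) (p : M) (D : Set (E n)) (X Y : E n → E n) (om : E n → ℝ) (R : ℝ) : Prop where
  isOpen : IsOpen D
  sub : D ⊆ tg n p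
  mapsX : MapsTo X D (ball 0 R)
  mapsY : MapsTo Y (ball 0 R) D
  inv1 : ∀ x ∈ D, Y (X x) = x
  inv2 : ∀ y ∈ ball (0 : E n) R, X (Y y) = y
  smX : ContDiffOn ℝ ∞ X D
  smY : ContDiffOn ℝ ∞ Y (ball 0 R)
  smom : ContDiffOn ℝ ∞ om (ball 0 R)
  posom : ∀ y ∈ ball (0 : E n) R, 0 < om y
  harm : ∀ y ∈ ball (0 : E n) R, H31.lap om y = 0
  met : ∀ y ∈ ball (0 : E n) R, ∀ v w : E n,
    ∑ i, ∑ j, (P.loc p).g (Y y) i j * (fderiv ℝ Y y v i * fderiv ℝ Y y w j) =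
      (om y) ^ (4 / ((n : ℝ) - 2)) * inner ℝ v w

/-- (GI) the input of the core at an interior point, for conformal metrics and `A = 0`. -/
def GI_statement : Prop :=
  ∀ (n N : ℕ) [NeZero n] (M : Type u) [TopologicalSpace M] [ChartedSpace (EuclideanHalfSpace n) M]
    [IsManifold (𝓡∂ n) ∞ M] [T2Space M] [CompactSpace M] [ConnectedSpace M] [MeasurableSpace M]
    [BorelSpace M] (P Q : One n N M) (Γ V : Set M) (c : M → ℝ) (p : M) (D : Set (E n))
    (X Y : E n → E n) (om : E n → ℝ) (R : ℝ), 3 ≤ n → 0 < N → 0 < R →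
    (∀ x X, P.A.form x X = 0) → (∀ x X, Q.A.form x X = 0) → RelBd n Γ → IsOpen V →
    IsPreconnected V → (V ∩ Γ).Nonempty → SameD P Q Γ → SmR n c → (∀ x, 0 < c x) →
    (∀ (x : M) (v w : TangentSpace (𝓡∂ n) x), Q.g.inner x v w = c x * P.g.inner x v w) →
    (∀ x ∈ V, c x = 1) → FlatIn P p D X Y om (2 * R) →
    H31.Step n R {y | y ∈ ball (0 : E n) (2 * R) ∧ (xc n p).symm (Y y) ∈ V}
      (fun y => H31.lap (fun z => (c ((xc n p).symm (Y z))) ^ (((n : ℝ) - 2) / 4) * om z) y /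
        ((c ((xc n p).symm (Y y))) ^ (((n : ℝ) - 2) / 4) * om y))

end Vale.Agent.P088.R2.G31
end
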