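import Vale.Agent.P088.R2.H31.Mult

/-!
# P088, THEOREM S, core: bounds for the multipoles, configurations
-/

open MeasureTheory Set Filter Topology Metric
open scoped ContDiff

noncomputable section

namespace Vale.Agent.P088.R2.H31

variable {k : ℕ}

theorem zz_nonneg (y : E (k + 3)) : 0 ≤ zz y := Real.sqrt_nonneg _

theorem nsq_pow_sm {p x : E (k + 3)} (hx : x ≠ p) (m : ℕ) :
    nsq p x ^ (sm k m) = 1 / (nsq p x ^ m * ‖x - p‖ ^ (k + 1)) := by
  have hN := nsq_pos hx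
  have hn : 0 < ‖x - p‖ := norm_pos_iff.2 (sub_ne_zero.2 hx)
  have h1 : nsq p x = ‖x - p‖ ^ (2 : ℝ) := by
    unfold nsq
    norm_cast
  have h2 : nsq p x ^ (sm k m) = ‖x - p‖ ^ (-((k : ℝ) + 1 + 2 * m)) := by
    rw [h1, ← Real.rpow_mul hn.le]
    congr 1
    unfold sm
    ring
  rw [h2, Real.rpow_neg hn.le, one_div]
  congr 1
  unfold nsq
  rw [← pow_mul, ← pow_add, ← Real.rpow_natCast]
  congr 1
  push_cast
  ring

/-- size of the multipole -/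
theorem abs_Um (L : ℂ →L[ℝ] ℝ) (hL : ∀ w, |L w| ≤ ‖w‖) {p x : E (k + 3)} (hx : x ≠ p) (m : ℕ) :
    |Um L p m x| ≤ (zz (x - p) / nsq p x) ^ m / ‖x - p‖ ^ (k + 1) := by
  have hN := nsq_pos hx
  have hn : 0 < ‖x - p‖ := norm_pos_iff.2 (sub_ne_zero.2 hx)
  unfold Um
  rw [abs_mul, nsq_pow_sm hx, abs_of_nonneg (a := 1 / (nsq p x ^ m * ‖x - p‖ ^ (k + 1)))
    (by positivity)]
  have h1 : |Hm L p m x| ≤ zz (x - p) ^ m := by
    unfold Hm
    refine (hL _).trans ?_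
    rw [norm_pow, norm_zl]
  calc |Hm L p m x| * (1 / (nsq p x ^ m * ‖x - p‖ ^ (k + 1)))
      ≤ zz (x - p) ^ m * (1 / (nsq p x ^ m * ‖x - p‖ ^ (k + 1))) :=
        mul_le_mul_of_nonneg_right h1 (by positivity)
    _ = _ := by
      rw [div_pow]
      field_simp

theorem norm_zl_ev (j : Fin (k + 3)) : ‖zl k (ev j)‖ ≤ 1 := by
  rw [norm_zl]
  unfold zz
  rw [Real.sqrt_le_iff]
  refine ⟨zero_le_one, ?_⟩
  by_cases e0 : j = 0
  · subst e0
    simp [ne02.symm, ne01.symm]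
    norm_num
  · by_cases e1 : j = 1
    · subst e1
      simp [ne12.symm]
      norm_num
    · by_cases e2 : j = 2
      · subst e2
        simp [ne02, ne12]
      · simp [Ne.symm e0, Ne.symm e1, Ne.symm e2]

theorem abs_coord_le (y : E (k + 3)) (j : Fin (k + 3)) : |y j| ≤ ‖y‖ := by
  have := PiLp.norm_apply_le y j
  simpa using this

/-- size of the derivatives -/
theorem abs_dj_Um (L : ℂ →L[ℝ] ℝ) (hL : ∀ w, |L w| ≤ ‖w‖) {p x : E (k + 3)} (hx : x ≠ p) (m : ℕ)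
    (j : Fin (k + 3)) :
    |dj j (Um L p m) x| ≤ m * (zz (x - p) / nsq p x) ^ (m - 1) / ‖x - p‖ ^ (k + 3) +
      (k + 1 + 2 * m) * (zz (x - p) / nsq p x) ^ m / ‖x - p‖ ^ (k + 2) := by
  have hN := nsq_pos hx
  have hn : 0 < ‖x - p‖ := norm_pos_iff.2 (sub_ne_zero.2 hx)
  have hNn : nsq p x = ‖x - p‖ ^ 2 := rfl
  have c1 : DifferentiableAt ℝ (Hm L p m) x :=
    (cd_Hm L p m (l := 1)).differentiable (by norm_num) x
  have c2 : DifferentiableAt ℝ (fun x => nsq p x ^ (sm k m)) x :=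
    (cd_pow_nsq hx _ (l := 1)).differentiableAt (by norm_num)
  have cN : DifferentiableAt ℝ (nsq p) x := (cd_nsq p (k := 1)).differentiable (by norm_num) x
  have e2 : dj j (fun x => nsq p x ^ (sm k m)) x =
      sm k m * nsq p x ^ (sm k m - 1) * (2 * (x j - p j)) := by
    rw [dj_comp (h := fun t : ℝ => t ^ (sm k m)) (Real.hasDerivAt_rpow_const (Or.inl hN.ne')) cN,
      dj_nsq]
  have e3 : nsq p x ^ (sm k m - 1) = nsq p x ^ (sm k m) / nsq p x := Real.rpow_sub_one hN.ne' _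
  have e4 : dj j (Um L p m) x = dj j (Hm L p m) x * nsq p x ^ (sm k m) +
      Hm L p m x * (sm k m * (nsq p x ^ (sm k m) / nsq p x) * (2 * (x j - p j))) := by
    unfold Um
    rw [dj_mul c1 c2, e2, e3]
  rw [e4, nsq_pow_sm hx]
  refine (abs_add_le _ _).trans (add_le_add ?_ ?_)
  · rw [abs_mul, abs_of_nonneg (a := 1 / (nsq p x ^ m * ‖x - p‖ ^ (k + 1))) (by positivity)]
    have h1 : |dj j (Hm L p m) x| ≤ m * zz (x - p) ^ (m - 1) := by
      rw [dj_Hm]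
      refine (hL _).trans ?_
      rw [norm_mul, norm_mul, norm_pow, norm_zl]
      have : ‖(m : ℂ)‖ = m := by simp
      rw [this]
      have h2 := norm_zl_ev j
      have h3 : (0 : ℝ) ≤ m * zz (x - p) ^ (m - 1) := by
        have := zz_nonneg (x - p)
        positivity
      calc (m : ℝ) * zz (x - p) ^ (m - 1) * ‖zl k (ev j)‖
          ≤ m * zz (x - p) ^ (m - 1) * 1 := mul_le_mul_of_nonneg_left h2 h3
        _ = _ := mul_one _
    calc |dj j (Hm L p m) x| * (1 / (nsq p x ^ m * ‖x - p‖ ^ (k + 1)))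
        ≤ (m * zz (x - p) ^ (m - 1)) * (1 / (nsq p x ^ m * ‖x - p‖ ^ (k + 1))) :=
          mul_le_mul_of_nonneg_right h1 (by positivity)
      _ = m * (zz (x - p) / nsq p x) ^ (m - 1) / ‖x - p‖ ^ (k + 3) := by
        rcases m with _ | m
        · simp
        · rw [Nat.add_sub_cancel, div_pow, pow_succ (nsq p x) m]
          have : ‖x - p‖ ^ (k + 3) = ‖x - p‖ ^ (k + 1) * nsq p x := by
            rw [hNn]
            ring
          rw [this]
          field_simp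
  · have h1 : |Hm L p m x| ≤ zz (x - p) ^ m := by
      unfold Hm
      refine (hL _).trans ?_
      rw [norm_pow, norm_zl]
    have h2 : |x j - p j| ≤ ‖x - p‖ := abs_coord_le (x - p) j
    have h3 : |sm k m| = (k + 1 + 2 * m) / 2 := by
      unfold sm
      rw [abs_div, abs_neg, abs_of_nonneg (by positivity)]
      simp
    rw [abs_mul, abs_mul, abs_mul, abs_mul, h3, abs_of_nonneg
      (a := 1 / (nsq p x ^ m * ‖x - p‖ ^ (k + 1)) / nsq p x) (by positivity)]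
    rw [show |(2 : ℝ)| = 2 by norm_num]
    have hz := zz_nonneg (x - p)
    calc |Hm L p m x| * (((k : ℝ) + 1 + 2 * m) / 2 * (1 / (nsq p x ^ m * ‖x - p‖ ^ (k + 1)) /
          nsq p x) * (2 * |x j - p j|))
        ≤ zz (x - p) ^ m * (((k : ℝ) + 1 + 2 * m) / 2 * (1 / (nsq p x ^ m * ‖x - p‖ ^ (k + 1)) /
          nsq p x) * (2 * ‖x - p‖)) := by gcongr
      _ = (k + 1 + 2 * m) * (zz (x - p) / nsq p x) ^ m / ‖x - p‖ ^ (k + 2) := by
        rw [div_pow, hNn]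
        field_simp
        ring

/-- The constant in the bounds. -/
def cU (k : ℕ) (κ S : ℝ) : ℝ := 1 / κ ^ (k + 1) + 1 / (S * κ ^ (k + 3)) + (k + 3) / κ ^ (k + 2)

theorem bd_Um {κ S : ℝ} (hκ : 0 < κ) (hS : 0 < S) (L : ℂ →L[ℝ] ℝ) (hL : ∀ w, |L w| ≤ ‖w‖)
    {p x : E (k + 3)} (h1 : κ ≤ ‖x - p‖) (h2 : zz (x - p) ≤ S * nsq p x) (m : ℕ) :
    |Um L p m x| ≤ cU k κ S * (m + 1) * S ^ m ∧
      ∀ j, |dj j (Um L p m) x| ≤ cU k κ S * (m + 1) * S ^ m := by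
  have hn : 0 < ‖x - p‖ := hκ.trans_le h1
  have hx : x ≠ p := fun h => by
    rw [h, sub_self, norm_zero] at hn
    exact lt_irrefl _ hn
  have hN := nsq_pos hx
  have hz := zz_nonneg (x - p)
  have h3 : zz (x - p) / nsq p x ≤ S := by
    rw [div_le_iff₀ hN]
    exact h2
  have h4 : 0 ≤ zz (x - p) / nsq p x := by positivity
  have hpow : ∀ l : ℕ, 1 / ‖x - p‖ ^ l ≤ 1 / κ ^ l := fun l =>
    one_div_le_one_div_of_le (by positivity) (pow_le_pow_left₀ hκ.le h1 l)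
  have hSm : ∀ l : ℕ, (zz (x - p) / nsq p x) ^ l ≤ S ^ l := fun l => pow_le_pow_left₀ h4 h3 l
  have hm : (1 : ℝ) ≤ m + 1 := by
    have : (0 : ℝ) ≤ m := Nat.cast_nonneg m
    linarith
  have hm0 : (0 : ℝ) ≤ m := Nat.cast_nonneg m
  have hk0 : (0 : ℝ) ≤ k := Nat.cast_nonneg k
  have hSm0 : 0 < S ^ m := by positivity
  constructor
  · refine (abs_Um L hL hx m).trans ?_
    calc (zz (x - p) / nsq p x) ^ m / ‖x - p‖ ^ (k + 1)
        = (zz (x - p) / nsq p x) ^ m * (1 / ‖x - p‖ ^ (k + 1)) := by ring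
      _ ≤ S ^ m * (1 / κ ^ (k + 1)) := mul_le_mul (hSm m) (hpow _) (by positivity) (by positivity)
      _ = (1 / κ ^ (k + 1)) * 1 * S ^ m := by ring
      _ ≤ cU k κ S * (m + 1) * S ^ m := by
        refine mul_le_mul_of_nonneg_right (mul_le_mul ?_ hm zero_le_one ?_) hSm0.le
        · unfold cU
          have : 0 ≤ 1 / (S * κ ^ (k + 3)) := by positivity
          have : 0 ≤ ((k : ℝ) + 3) / κ ^ (k + 2) := by positivity
          linarith
        · unfold cU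
          positivity
  · intro j
    refine (abs_dj_Um L hL hx m j).trans ?_
    have e1 : (m : ℝ) * (zz (x - p) / nsq p x) ^ (m - 1) / ‖x - p‖ ^ (k + 3) ≤
        1 / (S * κ ^ (k + 3)) * (m + 1) * S ^ m := by
      rcases m with _ | m
      · simp only [Nat.cast_zero, zero_mul, zero_div]
        positivity
      · rw [Nat.add_sub_cancel]
        calc ((m + 1 : ℕ) : ℝ) * (zz (x - p) / nsq p x) ^ m / ‖x - p‖ ^ (k + 3)
            = ((m + 1 : ℕ) : ℝ) * ((zz (x - p) / nsq p x) ^ m * (1 / ‖x - p‖ ^ (k + 3))) := by ring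
          _ ≤ ((m + 1 : ℕ) : ℝ) * (S ^ m * (1 / κ ^ (k + 3))) := by
            refine mul_le_mul_of_nonneg_left ?_ (by positivity)
            exact mul_le_mul (hSm m) (hpow _) (by positivity) (by positivity)
          _ = 1 / (S * κ ^ (k + 3)) * ((m + 1 : ℕ) : ℝ) * S ^ (m + 1) := by
            field_simp
            ring
          _ ≤ 1 / (S * κ ^ (k + 3)) * (((m + 1 : ℕ) : ℝ) + 1) * S ^ (m + 1) := by
            gcongr
            linarith
    have e2 : ((k : ℝ) + 1 + 2 * m) * (zz (x - p) / nsq p x) ^ m / ‖x - p‖ ^ (k + 2) ≤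
        (k + 3) / κ ^ (k + 2) * (m + 1) * S ^ m := by
      calc ((k : ℝ) + 1 + 2 * m) * (zz (x - p) / nsq p x) ^ m / ‖x - p‖ ^ (k + 2)
          = ((k : ℝ) + 1 + 2 * m) * ((zz (x - p) / nsq p x) ^ m * (1 / ‖x - p‖ ^ (k + 2))) := by ring
        _ ≤ (((k : ℝ) + 3) * (m + 1)) * (S ^ m * (1 / κ ^ (k + 2))) := by
          refine mul_le_mul (by nlinarith) ?_ (by positivity) (by positivity)
          exact mul_le_mul (hSm m) (hpow _) (by positivity) (by positivity)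
        _ = _ := by ring
    have e3 : 0 ≤ 1 / κ ^ (k + 1) * (m + 1) * S ^ m := by positivity
    unfold cU
    calc _ ≤ 1 / (S * κ ^ (k + 3)) * (m + 1) * S ^ m + (k + 3) / κ ^ (k + 2) * (m + 1) * S ^ m :=
          add_le_add e1 e2
      _ ≤ _ := by nlinarith

theorem cU_pos {κ S : ℝ} (hκ : 0 < κ) (hS : 0 < S) : 0 < cU k κ S := by
  unfold cU
  positivity

/-- the weight and the multipole -/
theorem exp_cph {p q x : E (k + 3)} (hp : x ≠ p) (hq : x ≠ q) (m : ℕ) :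
    Real.exp (m * cph p q x) = (‖x - p‖ / ‖x - q‖) ^ m := by
  have h1 : 0 < ‖x - p‖ := norm_pos_iff.2 (sub_ne_zero.2 hp)
  have h2 : 0 < ‖x - q‖ := norm_pos_iff.2 (sub_ne_zero.2 hq)
  have h3 : cph p q x = Real.log (‖x - p‖ / ‖x - q‖) := by
    unfold cph nsq
    rw [Real.log_pow, Real.log_pow, Real.log_div h1.ne' h2.ne']
    push_cast
    ring
  rw [h3, mul_comm, Real.exp_mul, Real.exp_log (by positivity), Real.rpow_natCast]

/-- `Γ = 2ρ|z| / (|x-p||x-q|)`. -/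
def Gam (ρ : ℝ) (p q x : E (k + 3)) : ℝ := 2 * ρ * zz (x - p) / (‖x - p‖ * ‖x - q‖)

/-- A configuration (two poles `p`, `q` at distance `2ρ`) with all the bounds. -/
structure Cfg (k : ℕ) (G : Set (E (k + 3))) (R κ S Em Ez τ θ ρl ρm ρ : ℝ) (p q : E (k + 3)) :
    Prop where
  ρl : ρl ≤ ρ
  ρm : ρ ≤ ρm
  hp : p ∈ G
  hq : q ∈ G
  hpR : ‖p‖ < R / 8
  hqR : ‖q‖ < R / 8
  hpq : nsq p q = 4 * ρ ^ 2
  hz : ∀ x, zl k (x - p) = zl k (x - q)
  far : ∀ x ∈ ball 0 R \ G, κ ≤ ‖x - p‖ ∧ κ ≤ ‖x - q‖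
  bS : ∀ x ∈ ball 0 R \ G, zz (x - p) ≤ S * nsq p x
  bE : ∀ x ∈ ball 0 R \ G, ‖x - p‖ ≤ Em * ‖x - q‖
  bZ : ∀ x, R / 4 ≤ ‖x‖ → ‖x‖ < R → ‖x - p‖ ≤ Ez * ‖x - q‖
  bτ : ∀ x, R / 4 ≤ ‖x‖ → zz (x - p) ≤ τ * nsq p x ∧ zz (x - q) ≤ τ * nsq q x ∧
    κ ≤ ‖x - p‖ ∧ κ ≤ ‖x - q‖
  bΓ : ∀ x, 2 * ρ * zz (x - p) ≤ ‖x - p‖ * ‖x - q‖
  n1 : 2 * ρ * Ez * S ≤ θ
  n2 : 2 * ρ * Em * τ ≤ θ
  n3 : (2 * ρ) ^ 2 * τ * S ≤ θ

end Vale.Agent.P088.R2.H31
end
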