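import Vale.Agent.P088.R2.H31.Main1

/-!
# P088, THEOREM S, core: use of the interface `Step`
-/

open MeasureTheory Set Filter Topology Metric
open scoped ContDiff

noncomputable section

namespace Vale.Agent.P088.R2.H31

variable {k n : ℕ}

theorem two_le_inf : (2 : WithTop ℕ∞) ≤ ∞ := ENat.LEInfty.out

theorem one_le_inf : (1 : WithTop ℕ∞) ≤ ∞ := ENat.LEInfty.out

theorem bdd_of_cs {f : E n → ℝ} (hf : Continuous f) (hc : HasCompactSupport f) :
    ∃ M, 0 ≤ M ∧ ∀ x, |f x| ≤ M := by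
  obtain ⟨C, hC⟩ := hc.exists_bound_of_continuous hf
  exact ⟨max C 0, le_max_right _ _, fun x => (hC x).trans (le_max_left _ _)⟩

/-- bounds for a cut-off -/
theorem bdd_cut (χ : E n → ℝ) (hχ : ContDiff ℝ ∞ χ) (hc : HasCompactSupport χ) :
    ∃ M, 0 ≤ M ∧ (∀ x, |χ x| ≤ M) ∧ (∀ j x, |dj j χ x| ≤ M) ∧ ∀ x, |lap χ x| ≤ M := by
  have h2 : ContDiff ℝ 2 χ := hχ.of_le two_le_inf
  have h1 : ContDiff ℝ 1 χ := hχ.of_le one_le_inf
  obtain ⟨M1, p1, hM1⟩ := bdd_of_cs hχ.continuous hc
  obtain ⟨M2, p2, hM2⟩ := bdd_of_cs (cont_lap h2) (supp_lap hc)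
  choose M3 p3 hM3 using fun j => bdd_of_cs (cont_dj h1 j) (supp_dj hc j)
  refine ⟨M1 + M2 + ∑ j, M3 j, ?_, fun x => ?_, fun j x => ?_, fun x => ?_⟩
  · have := Finset.sum_nonneg fun j (_ : j ∈ Finset.univ) => p3 j
    positivity
  · have := Finset.sum_nonneg fun j (_ : j ∈ Finset.univ) => p3 j
    linarith [hM1 x]
  · have := Finset.single_le_sum (fun j _ => p3 j) (Finset.mem_univ j)
    linarith [hM3 j x]
  · have := Finset.sum_nonneg fun j (_ : j ∈ Finset.univ) => p3 j
    linarith [hM2 x]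

theorem setInt_le {s : Set (E n)} {f : E n → ℝ} (hs : MeasurableSet s) (hv : volume s ≠ ⊤)
    {b : ℝ} (hb : 0 ≤ b) (h : ∀ x ∈ s, f x ≤ b) : ∫ x in s, f x ≤ b * (volume s).toReal := by
  by_cases hf : IntegrableOn f s
  · calc ∫ x in s, f x ≤ ∫ _ in s, b :=
        setIntegral_mono_on hf (integrableOn_const hv) hs h
      _ = _ := by
        rw [setIntegral_const, smul_eq_mul, mul_comm]
        rfl
  · rw [integral_undef hf]
    positivity

/-- The solutions given by `Step` for the multipole `Um L p m`. -/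
theorem get_vw {R κ S Em Ez τ θ ρl ρm : ℝ} {G : Set (E (k + 3))} {q : E (k + 3) → ℝ}
    (hG : IsOpen G) (hR : 0 < R) (hκ : 0 < κ) (hS : 0 < S) (hτ : 0 < τ)
    (hSt : Step (k + 3) R G q) :
    ∃ C, 0 ≤ C ∧ ∀ (ρ : ℝ) (p p' : E (k + 3)), Cfg k G R κ S Em Ez τ θ ρl ρm ρ p p' →
      ∀ L : ℂ →L[ℝ] ℝ, (∀ w, |L w| ≤ ‖w‖) → ∀ m : ℕ, ∃ v w : E (k + 3) → ℝ,
        ContinuousOn v (ball 0 R \ G) ∧ ContDiffOn ℝ 2 w (ball 0 R) ∧
        (∀ x ∈ G ∩ ball 0 R, w x = 0) ∧ (∀ x ∈ ball 0 R, lap w x = q x * (w x + v x)) ∧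
        IntegrableOn (fun x => (v x - Um L p m x) ^ 2) (ball 0 (R / 2) \ G) ∧
        ∫ x in ball 0 (R / 2) \ G, (v x - Um L p m x) ^ 2 ≤ C * ((m + 1) * τ ^ m) ^ 2 ∧
        IntegrableOn (fun x => w x ^ 2 + ∑ j, dj j w x ^ 2) (ball 0 R) ∧
        ∫ x in ball 0 R, (w x ^ 2 + ∑ j, dj j w x ^ 2) ≤
          C * (((m + 1) * S ^ m) ^ 2 + ((m + 1) * τ ^ m) ^ 2) := by
  obtain ⟨Cs, hCs, hStep⟩ := hSt
  -- the cut-off
  let χ : ContDiffBump (0 : E (k + 3)) := ⟨R / 2, 3 * R / 4, by linarith, by linarith⟩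
  have hχs : ContDiff ℝ ∞ (χ : E (k + 3) → ℝ) := χ.contDiff
  have hχc : HasCompactSupport (χ : E (k + 3) → ℝ) := χ.hasCompactSupport
  obtain ⟨M, hM0, -, hMj, hMl⟩ := bdd_cut χ hχs hχc
  set n' : ℝ := ((k + 3 : ℕ) : ℝ) with hn'
  set V : ℝ := (volume (ball (0 : E (k + 3)) R)).toReal with hV
  have hV0 : 0 ≤ V := ENNReal.toReal_nonneg
  have hvol : volume (ball (0 : E (k + 3)) R) ≠ ⊤ := measure_ball_lt_top.ne
  set c1 : ℝ := (M + 2 * n' * M) * cU k κ τ with hc1
  set c2 : ℝ := (1 + n' * (M + 1) ^ 2) * cU k κ S ^ 2 with hc2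
  have hn0 : 0 ≤ n' := Nat.cast_nonneg _
  have cUτ := cU_pos (k := k) hκ hτ
  have cUS := cU_pos (k := k) hκ hS
  refine ⟨Cs * (c1 ^ 2 * V + c2 * V) + 1, by positivity, ?_⟩
  intro ρ p p' hcfg L hL m
  have hm0 : (0 : ℝ) ≤ m := Nat.cast_nonneg m
  -- the cut-off near `p`
  have hpG : G ∩ ball 0 (R / 2) ∈ 𝓝 p := by
    refine inter_mem (hG.mem_nhds hcfg.hp) (isOpen_ball.mem_nhds ?_)
    rw [mem_ball_zero_iff]
    linarith [hcfg.hpR]
  obtain ⟨δ, hδ, hδG⟩ := Metric.mem_nhds_iff.1 hpG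
  let β : ContDiffBump p := ⟨δ / 3, δ / 2, by linarith, by linarith⟩
  have hβs : ContDiff ℝ ∞ (β : E (k + 3) → ℝ) := β.contDiff
  set U : E (k + 3) → ℝ := Um L p m with hU
  set U' : E (k + 3) → ℝ := fun x => (1 - β x) * U x with hU'
  have hU's : ContDiff ℝ ∞ U' := by
    rw [contDiff_iff_contDiffAt]
    intro x
    by_cases hx : x = p
    · subst hx
      have h1 : U' =ᶠ[𝓝 x] fun _ => 0 := by
        filter_upwards [β.eventuallyEq_one] with y hy
        have hy' : β y = 1 := hy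
        simp [hU', hy']
      exact contDiffAt_const.congr_of_eventuallyEq h1
    · exact (contDiffAt_const.sub hβs.contDiffAt).mul (cd_Um L hx m)
  have hU'eq : ∀ x, x ∉ closedBall p (δ / 2) → U' =ᶠ[𝓝 x] U := by
    intro x hx
    filter_upwards [isClosed_closedBall.isOpen_compl.mem_nhds hx] with y hy
    have : β y = 0 := β.zero_of_le_dist (by
      have := mem_closedBall.not.1 hy
      exact (not_le.1 this).le)
    simp [hU', this]
  have hout : ∀ x, x ∉ G → x ∉ closedBall p (δ / 2) := by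
    intro x hx h
    exact hx (hδG (closedBall_subset_ball (by linarith) h)).1
  have hout2 : ∀ x, R / 2 ≤ ‖x‖ → x ∉ closedBall p (δ / 2) := by
    intro x hx h
    have := (hδG (closedBall_subset_ball (by linarith) h)).2
    rw [mem_ball_zero_iff] at this
    linarith
  have hU's2 : ContDiff ℝ 2 U' := hU's.of_le two_le_inf
  have hU's1 : ContDiff ℝ 1 U' := hU's.of_le one_le_inf
  have hχ2 : ContDiff ℝ 2 (χ : E (k + 3) → ℝ) := hχs.of_le two_le_inf
  have hχ1 : ContDiff ℝ 1 (χ : E (k + 3) → ℝ) := hχs.of_le one_le_inf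
  -- `f`, `h₁`, `h₂`
  set f : E (k + 3) → ℝ := fun x => χ x * U' x with hf
  set h₁ : E (k + 3) → ℝ := lap U' with hh₁
  set h₂ : E (k + 3) → ℝ := fun x => lap χ x * U' x + 2 * ∑ j, dj j χ x * dj j U' x with hh₂
  have hfs : ContDiff ℝ ∞ f := hχs.mul hU's
  have hfc : HasCompactSupport f := hχc.mul_right
  have hts : tsupport f ⊆ ball 0 R := by
    refine (closure_mono (Function.support_mul_subset_left _ _)).trans ?_
    have : closure (Function.support (χ : E (k + 3) → ℝ)) = closedBall 0 (3 * R / 4) := χ.tsupport_eq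
    rw [this]
    exact closedBall_subset_ball (by linarith)
  have h₁0 : ∀ x, x ∉ closedBall p (δ / 2) → h₁ x = 0 := by
    intro x hx
    rw [hh₁, lap_congr (hU'eq x hx)]
    have hxp : x ≠ p := fun h => hx (by rw [h]; exact mem_closedBall_self (by linarith))
    exact lap_Um L hxp m
  have h₁s : tsupport h₁ ⊆ closedBall p (δ / 2) := by
    refine closure_minimal (fun x hx => ?_) isClosed_closedBall
    by_contra h
    exact hx (h₁0 x h)
  have h₁c : HasCompactSupport h₁ :=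
    (isCompact_closedBall p (δ / 2)).of_isClosed_subset (isClosed_tsupport _) h₁s
  have h₁G : tsupport h₁ ⊆ G ∩ ball 0 R := by
    intro x hx
    have h2 := hδG (closedBall_subset_ball (by linarith) (h₁s hx))
    exact ⟨h2.1, ball_subset_ball (by linarith) h2.2⟩
  have h₁cont : Continuous h₁ := cont_lap hU's2
  have h₂cont : Continuous h₂ := by
    refine ((cont_lap hχ2).mul hU's.continuous).add (continuous_const.mul ?_)
    exact continuous_finsetSum _ fun j _ => (cont_dj hχ1 j).mul (cont_dj hU's1 j)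
  have hχone : ∀ x, ‖x‖ < R / 2 → (χ : E (k + 3) → ℝ) =ᶠ[𝓝 x] fun _ => 1 := by
    intro x hx
    have hx' : x ∈ ball (0 : E (k + 3)) (R / 2) := by rwa [mem_ball_zero_iff]
    filter_upwards [isOpen_ball.mem_nhds hx'] with y hy
    exact χ.one_of_mem_closedBall (ball_subset_closedBall hy)
  have hlapf : ∀ x, lap f x = h₁ x + h₂ x := by
    intro x
    have e1 : lap f x = lap χ x * U' x + 2 * ∑ i, dj i χ x * dj i U' x + χ x * lap U' x :=
      lap_mul hχ2.contDiffAt hU's2.contDiffAt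
    have e2 : χ x * lap U' x = h₁ x := by
      by_cases hx : x ∈ closedBall p (δ / 2)
      · have h2 := (hδG (closedBall_subset_ball (by linarith) hx)).2
        rw [(hχone x (by rwa [mem_ball_zero_iff] at h2)).self_of_nhds, one_mul]
      · rw [h₁0 x hx]
        have := h₁0 x hx
        rw [hh₁] at this
        rw [this, mul_zero]
    rw [e1, e2]
    ring
  set b : ℝ := (m + 1) * τ ^ m with hb
  set b' : ℝ := (m + 1) * S ^ m with hb'
  have hb0 : 0 < b := by positivity
  have hb'0 : 0 < b' := by positivity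
  -- bound for `h₂`
  have hbound2 : ∀ x, |h₂ x| ≤ c1 * b := by
    intro x
    by_cases hx : ‖x‖ < R / 2
    · have h1 := hχone x hx
      have h2 : h₂ x = 0 := by
        simp only [hh₂]
        rw [lap_congr h1]
        have e1 : ∀ j : Fin (k + 3), dj j (χ : E (k + 3) → ℝ) x = 0 := fun j => by
          rw [dj_congr h1]
          exact dj_const 1 j x
        have e2 : lap (fun _ : E (k + 3) => (1 : ℝ)) x = 0 := by
          unfold lap
          have h2 : ∀ i : Fin (k + 3), dj i (fun _ : E (k + 3) => (1 : ℝ)) = fun _ => 0 := fun i => by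
            funext y
            exact dj_const 1 i y
          simp [h2, dj_const]
        simp [e1, e2]
      rw [h2, abs_zero]
      positivity
    · push Not at hx
      have h1 := hU'eq x (hout2 x hx)
      have h3 := hcfg.bτ x (by linarith)
      obtain ⟨h4, h5⟩ := bd_Um hκ hτ L hL h3.2.2.1 h3.1 m
      have h4' : |U' x| ≤ cU k κ τ * b := by
        rw [h1.self_of_nhds, hb, ← mul_assoc]
        exact h4
      have h5' : ∀ j, |dj j U' x| ≤ cU k κ τ * b := by
        intro j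
        rw [dj_congr h1, hb, ← mul_assoc]
        exact h5 j
      simp only [hh₂]
      calc |lap χ x * U' x + 2 * ∑ j, dj j χ x * dj j U' x|
          ≤ |lap χ x * U' x| + |2 * ∑ j, dj j χ x * dj j U' x| := abs_add_le _ _
        _ ≤ M * (cU k κ τ * b) + 2 * (n' * (M * (cU k κ τ * b))) := by
          refine add_le_add ?_ ?_
          · rw [abs_mul]
            exact mul_le_mul (hMl x) h4' (abs_nonneg _) hM0
          · rw [abs_mul, abs_of_pos (two_pos : (0 : ℝ) < 2)]
            refine mul_le_mul_of_nonneg_left ?_ two_pos.le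
            refine (Finset.abs_sum_le_sum_abs _ _).trans ?_
            calc ∑ j, |dj j χ x * dj j U' x| ≤ ∑ _j : Fin (k + 3), M * (cU k κ τ * b) := by
                  refine Finset.sum_le_sum fun j _ => ?_
                  rw [abs_mul]
                  exact mul_le_mul (hMj j x) (h5' j) (abs_nonneg _) hM0
              _ = n' * (M * (cU k κ τ * b)) := by
                rw [Finset.sum_const, Finset.card_univ, Fintype.card_fin, nsmul_eq_mul]
        _ = c1 * b := by
          rw [hc1]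
          ring
  have hzero2 : ∀ x, x ∉ ball (0 : E (k + 3)) R → h₂ x = 0 := by
    intro x hx
    have h1 : (χ : E (k + 3) → ℝ) =ᶠ[𝓝 x] fun _ => 0 := by
      refine notMem_tsupport_iff_eventuallyEq.1 ?_
      rw [χ.tsupport_eq]
      intro h
      exact hx (closedBall_subset_ball (by simp only [χ]; linarith) h)
    have e1 : ∀ j : Fin (k + 3), dj j (χ : E (k + 3) → ℝ) x = 0 := fun j => by
      rw [dj_congr h1]
      exact dj_const 0 j x
    have e2 : lap (fun _ : E (k + 3) => (0 : ℝ)) x = 0 := by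
      unfold lap
      have h2 : ∀ i : Fin (k + 3), dj i (fun _ : E (k + 3) => (0 : ℝ)) = fun _ => 0 := fun i => by
        funext y
        exact dj_const 0 i y
      simp [h2, dj_const]
    simp only [hh₂]
    rw [lap_congr h1]
    simp [e1, e2]
  have hI2 : ∫ x, h₂ x ^ 2 ≤ (c1 * b) ^ 2 * V := by
    have e1 : ∫ x, h₂ x ^ 2 = ∫ x in ball (0 : E (k + 3)) R, h₂ x ^ 2 := by
      symm
      refine setIntegral_eq_integral_of_forall_compl_eq_zero fun x hx => ?_
      rw [hzero2 x hx]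
      ring
    rw [e1]
    refine setInt_le measurableSet_ball hvol (by positivity) fun x _ => ?_
    rw [← sq_abs]
    exact pow_le_pow_left₀ (abs_nonneg _) (hbound2 x) 2
  -- bound for `f`
  have hI1 : ∫ x in ball 0 R \ G, (f x ^ 2 + ∑ j, dj j f x ^ 2) ≤ c2 * b' ^ 2 * V := by
    have hms : MeasurableSet (ball (0 : E (k + 3)) R \ G) := measurableSet_ball.diff hG.measurableSet
    have hvs : volume (ball (0 : E (k + 3)) R \ G) ≠ ⊤ :=
      ((measure_mono sdiff_subset).trans_lt measure_ball_lt_top).ne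
    have hvs2 : (volume (ball (0 : E (k + 3)) R \ G)).toReal ≤ V :=
      ENNReal.toReal_mono hvol (measure_mono sdiff_subset)
    refine (setInt_le (b := c2 * b' ^ 2) hms hvs (by positivity) fun x hx => ?_).trans
      (mul_le_mul_of_nonneg_left hvs2 (by positivity))
    have h1 := hU'eq x (hout x hx.2)
    obtain ⟨h4, h5⟩ := bd_Um hκ hS L hL (hcfg.far x hx).1 (hcfg.bS x hx) m
    have h4' : |U' x| ≤ cU k κ S * b' := by
      rw [h1.self_of_nhds, hb', ← mul_assoc]
      exact h4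
    have h5' : ∀ j, |dj j U' x| ≤ cU k κ S * b' := by
      intro j
      rw [dj_congr h1, hb', ← mul_assoc]
      exact h5 j
    have hχ1' : |χ x| ≤ 1 := by
      rw [abs_of_nonneg χ.nonneg]
      exact χ.le_one
    have e1 : |f x| ≤ cU k κ S * b' := by
      simp only [hf, abs_mul]
      calc |χ x| * |U' x| ≤ 1 * (cU k κ S * b') := mul_le_mul hχ1' h4' (abs_nonneg _) zero_le_one
        _ = _ := one_mul _
    have e2 : ∀ j, |dj j f x| ≤ (M + 1) * (cU k κ S * b') := by
      intro j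
      have : dj j f x = dj j χ x * U' x + χ x * dj j U' x :=
        dj_mul (hχ1.differentiable (by norm_num) x) (hU's1.differentiable (by norm_num) x) j
      rw [this]
      calc |dj j χ x * U' x + χ x * dj j U' x| ≤ |dj j χ x * U' x| + |χ x * dj j U' x| :=
            abs_add_le _ _
        _ ≤ M * (cU k κ S * b') + 1 * (cU k κ S * b') := by
          rw [abs_mul (dj j χ x) (U' x), abs_mul (χ x) (dj j U' x)]
          exact add_le_add (mul_le_mul (hMj j x) h4' (abs_nonneg _) hM0)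
            (mul_le_mul hχ1' (h5' j) (abs_nonneg _) zero_le_one)
        _ = _ := by ring
    calc f x ^ 2 + ∑ j, dj j f x ^ 2
        ≤ (cU k κ S * b') ^ 2 + ∑ _j : Fin (k + 3), ((M + 1) * (cU k κ S * b')) ^ 2 := by
          refine add_le_add ?_ (Finset.sum_le_sum fun j _ => ?_)
          · rw [← sq_abs (f x)]
            exact pow_le_pow_left₀ (abs_nonneg _) e1 2
          · rw [← sq_abs (dj j f x)]
            exact pow_le_pow_left₀ (abs_nonneg _) (e2 j) 2
      _ = c2 * b' ^ 2 := by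
        rw [Finset.sum_const, Finset.card_univ, Fintype.card_fin, nsmul_eq_mul, hc2]
        ring
  obtain ⟨v, w, hv, hw, hw0, hlw, i1, j1, i2, j2⟩ := hStep f h₁ h₂ hfs hfc hts h₁cont h₁c h₁G h₂cont
    hlapf (b ^ 2) (by positivity)
  have hsub : ball (0 : E (k + 3)) (R / 2) \ G ⊆ ball 0 R \ G :=
    sdiff_subset_sdiff_left (ball_subset_ball (by linarith))
  have hfU : ∀ x ∈ ball (0 : E (k + 3)) (R / 2) \ G, f x = U x := by
    intro x hx
    have h1 := hU'eq x (hout x hx.2)
    have h2 : ‖x‖ < R / 2 := by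
      have := hx.1
      rwa [mem_ball_zero_iff] at this
    simp only [hf]
    rw [(hχone x h2).self_of_nhds, h1.self_of_nhds, one_mul]
  have hms' : MeasurableSet (ball (0 : E (k + 3)) (R / 2) \ G) :=
    measurableSet_ball.diff hG.measurableSet
  have hCb : Cs * (∫ x, h₂ x ^ 2) ≤ Cs * (c1 ^ 2 * V) * b ^ 2 := by
    calc Cs * (∫ x, h₂ x ^ 2) ≤ Cs * ((c1 * b) ^ 2 * V) := mul_le_mul_of_nonneg_left hI2 hCs
      _ = _ := by ring
  refine ⟨v, w, hv, hw, hw0, hlw, ?_, ?_, i2, ?_⟩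
  · refine (i1.mono_set hsub).congr_fun (fun x hx => ?_) hms'
    show (v x - f x) ^ 2 = (v x - U x) ^ 2
    rw [hfU x hx]
  · calc ∫ x in ball 0 (R / 2) \ G, (v x - U x) ^ 2
        = ∫ x in ball 0 (R / 2) \ G, (v x - f x) ^ 2 := by
          refine setIntegral_congr_fun hms' fun x hx => ?_
          show (v x - U x) ^ 2 = (v x - f x) ^ 2
          rw [hfU x hx]
      _ ≤ ∫ x in ball 0 R \ G, (v x - f x) ^ 2 :=
          setIntegral_mono_set i1 (Eventually.of_forall fun x => sq_nonneg _)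
            (Eventually.of_forall hsub)
      _ ≤ Cs * (∫ x, h₂ x ^ 2) + b ^ 2 := j1
      _ ≤ Cs * (c1 ^ 2 * V) * b ^ 2 + b ^ 2 := by linarith
      _ ≤ (Cs * (c1 ^ 2 * V + c2 * V) + 1) * b ^ 2 := by
        have h0 : 0 ≤ Cs * (c2 * V) * b ^ 2 := by positivity
        have h1 : (Cs * (c1 ^ 2 * V + c2 * V) + 1) * b ^ 2 =
          Cs * (c1 ^ 2 * V) * b ^ 2 + b ^ 2 + Cs * (c2 * V) * b ^ 2 := by ring
        rw [h1]
        exact le_add_of_nonneg_right h0
  · refine j2.trans ?_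
    have h0 := mul_le_mul_of_nonneg_left hI1 hCs
    have h1 : 0 ≤ Cs * (c2 * V) * b ^ 2 := by positivity
    have h2 : 0 ≤ Cs * (c1 ^ 2 * V) * b' ^ 2 := by positivity
    have h3 : 0 ≤ b' ^ 2 := by positivity
    have h4 : (Cs * (c1 ^ 2 * V + c2 * V) + 1) * (b' ^ 2 + b ^ 2) =
      (Cs * (c2 * b' ^ 2 * V) + Cs * (c1 ^ 2 * V) * b ^ 2 + b ^ 2) +
      (Cs * (c2 * V) * b ^ 2 + Cs * (c1 ^ 2 * V) * b' ^ 2 + b' ^ 2) := by ring
    rw [h4, mul_add]
    have h5 : 0 ≤ Cs * (c2 * V) * b ^ 2 + Cs * (c1 ^ 2 * V) * b' ^ 2 + b' ^ 2 :=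
      add_nonneg (add_nonneg h1 h2) h3
    refine le_trans ?_ (le_add_of_nonneg_right h5)
    exact add_le_add (add_le_add h0 hCb) le_rfl

end Vale.Agent.P088.R2.H31
end
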