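import Vale.Agent.P088.R2.H31.Main2

/-!
# P088, THEOREM S, core: the main inequality
-/

open MeasureTheory Set Filter Topology Metric
open scoped ContDiff

noncomputable section

namespace Vale.Agent.P088.R2.H31

variable {k n : ℕ}

theorem int_bdd {s : Set (E n)} (hs : MeasurableSet s) (hv : volume s ≠ ⊤) {f : E n → ℝ}
    (hf : AEStronglyMeasurable f (volume.restrict s)) {C : ℝ} (h : ∀ x ∈ s, |f x| ≤ C) :
    IntegrableOn f s := by
  have : IsFiniteMeasure (volume.restrict s) :=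
    ⟨by rw [Measure.restrict_apply_univ]; exact lt_top_iff_ne_top.2 hv⟩
  refine Integrable.of_bound hf C ?_
  rw [ae_restrict_iff' hs]
  exact Eventually.of_forall fun x hx => by simpa using h x hx

/-- Green's formula against a function which is harmonic on the support. -/
theorem green {W V : E n → ℝ} (hW : ContDiff ℝ 2 W) (hc : HasCompactSupport W)
    (hV : ∀ x ∈ tsupport W, ContDiffAt ℝ 2 V x) (hl : ∀ x ∈ tsupport W, lap V x = 0) :
    ∫ x, lap W x * V x = 0 := by
  have hts : ∀ j, tsupport (dj j W) ⊆ tsupport W := fun j =>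
    closure_minimal (fun x hx => by
      by_contra h
      have h1 : W =ᶠ[𝓝 x] fun _ => (0 : ℝ) := notMem_tsupport_iff_eventuallyEq.1 h
      exact hx (by rw [dj_congr h1]; exact dj_const 0 j x)) (isClosed_tsupport _)
  have key := int_div (Y := fun j x => V x * dj j W x - dj j V x * W x) ?_ ?_
  · rw [← key]
    refine integral_congr_ae (Eventually.of_forall fun x => ?_)
    simp only
    by_cases hx : x ∈ tsupport W
    · have cV := hV x hx
      have cW : ContDiffAt ℝ 2 W x := hW.contDiffAt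
      have e1 : ∀ j, dj j (fun x => V x * dj j W x - dj j V x * W x) x =
          V x * dj j (dj j W) x - dj j (dj j V) x * W x := by
        intro j
        rw [dj_sub ((c2_diff cV).fun_mul (c2_djd cW j)) ((c2_djd cV j).fun_mul (c2_diff cW)),
          dj_mul (c2_diff cV) (c2_djd cW j), dj_mul (c2_djd cV j) (c2_diff cW)]
        ring
      simp only [e1, Finset.sum_sub_distrib, ← Finset.mul_sum, ← Finset.sum_mul]
      have h2 := hl x hx
      unfold lap at h2 ⊢
      rw [h2]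
      ring
    · have h1 : W =ᶠ[𝓝 x] fun _ => (0 : ℝ) := notMem_tsupport_iff_eventuallyEq.1 hx
      have h2 : lap W x = 0 := by
        rw [lap_congr h1]
        unfold lap
        have h2 : ∀ i : Fin n, dj i (fun _ : E n => (0 : ℝ)) = fun _ => 0 := fun i => by
          funext y
          exact dj_const 0 i y
        simp [h2, dj_const]
      have h3 : ∀ j, (fun x => V x * dj j W x - dj j V x * W x) =ᶠ[𝓝 x] fun _ => 0 := by
        intro j
        filter_upwards [h1, dj_congr_ev h1 j] with y hy hy'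
        rw [hy, hy', dj_const]
        ring
      rw [h2]
      simp only [fun j => dj_congr (h3 j) j, dj_const]
      simp
  · intro j
    refine (cd_mul (fun x hx => ?_) (cdj hW j)).sub (cd_mul (fun x hx => ?_) (hW.of_le ?_))
    · exact (hV x (hts j hx)).of_le (by norm_num)
    · exact c2_dj (hV x hx) j
    · norm_num
  · intro j
    refine HasCompactSupport.sub ?_ ?_
    · exact (supp_dj hc j).mul_left
    · exact hc.mul_left

/-- The weight `((2ρ) |x-p|/|x-p'|)^m`. -/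
def wE (ρ : ℝ) (p p' : E n) (m : ℕ) (x : E n) : ℝ := ((2 * ρ) * (‖x - p‖ / ‖x - p'‖)) ^ m

/-- pointwise bounds for the weighted multipoles -/
theorem wE_U {ρ κ : ℝ} (hρ : 0 < ρ) (hκ : 0 < κ) (L : ℂ →L[ℝ] ℝ) (hL : ∀ w, |L w| ≤ ‖w‖)
    {p p' x : E (k + 3)} (h1 : κ ≤ ‖x - p‖) (h2 : κ ≤ ‖x - p'‖) (m : ℕ) :
    wE ρ p p' m x * |Um L p m x| ≤ Gam ρ p p' x ^ m / κ ^ (k + 1) := by
  have n1 : 0 < ‖x - p‖ := hκ.trans_le h1
  have n2 : 0 < ‖x - p'‖ := hκ.trans_le h2
  have hx : x ≠ p := fun h => by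
    rw [h, sub_self, norm_zero] at n1
    exact lt_irrefl _ n1
  have hz := zz_nonneg (x - p)
  have hw : 0 ≤ wE ρ p p' m x := by
    unfold wE
    positivity
  have h3 : 1 / ‖x - p‖ ^ (k + 1) ≤ 1 / κ ^ (k + 1) :=
    one_div_le_one_div_of_le (by positivity) (pow_le_pow_left₀ hκ.le h1 _)
  calc wE ρ p p' m x * |Um L p m x|
      ≤ wE ρ p p' m x * ((zz (x - p) / nsq p x) ^ m / ‖x - p‖ ^ (k + 1)) :=
        mul_le_mul_of_nonneg_left (abs_Um L hL hx m) hw
    _ = Gam ρ p p' x ^ m * (1 / ‖x - p‖ ^ (k + 1)) := by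
      unfold wE Gam nsq
      rw [← mul_div_assoc, ← mul_pow]
      have : 2 * ρ * (‖x - p‖ / ‖x - p'‖) * (zz (x - p) / ‖x - p‖ ^ 2) =
          2 * ρ * zz (x - p) / (‖x - p‖ * ‖x - p'‖) := by
        field_simp
      rw [this]
      ring
    _ ≤ Gam ρ p p' x ^ m * (1 / κ ^ (k + 1)) := by
      refine mul_le_mul_of_nonneg_left h3 ?_
      unfold Gam
      positivity
    _ = _ := by ring

theorem wE_V {ρ κ : ℝ} (hρ : 0 < ρ) (hκ : 0 < κ) (L : ℂ →L[ℝ] ℝ) (hL : ∀ w, |L w| ≤ ‖w‖)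
    {p p' x : E (k + 3)} (h1 : κ ≤ ‖x - p‖) (h2 : κ ≤ ‖x - p'‖)
    (hz : zz (x - p) = zz (x - p')) (m : ℕ) :
    (2 * ρ) ^ (2 * m) * |Um L p' m x| ≤ wE ρ p p' m x * (Gam ρ p p' x ^ m / κ ^ (k + 1)) := by
  have n1 : 0 < ‖x - p‖ := hκ.trans_le h1
  have n2 : 0 < ‖x - p'‖ := hκ.trans_le h2
  have hx : x ≠ p' := fun h => by
    rw [h, sub_self, norm_zero] at n2
    exact lt_irrefl _ n2
  have hz0 := zz_nonneg (x - p')
  have h3 : 1 / ‖x - p'‖ ^ (k + 1) ≤ 1 / κ ^ (k + 1) :=
    one_div_le_one_div_of_le (by positivity) (pow_le_pow_left₀ hκ.le h2 _)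
  calc (2 * ρ) ^ (2 * m) * |Um L p' m x|
      ≤ (2 * ρ) ^ (2 * m) * ((zz (x - p') / nsq p' x) ^ m / ‖x - p'‖ ^ (k + 1)) :=
        mul_le_mul_of_nonneg_left (abs_Um L hL hx m) (by positivity)
    _ = wE ρ p p' m x * (Gam ρ p p' x ^ m * (1 / ‖x - p'‖ ^ (k + 1))) := by
      unfold wE Gam nsq
      rw [hz, pow_mul, ← mul_div_assoc, ← mul_pow, ← mul_assoc, ← mul_pow]
      have : (2 * ρ) ^ 2 * (zz (x - p') / ‖x - p'‖ ^ 2) =
          2 * ρ * (‖x - p‖ / ‖x - p'‖) * (2 * ρ * zz (x - p') / (‖x - p‖ * ‖x - p'‖)) := by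
        field_simp
      rw [this]
      ring
    _ ≤ wE ρ p p' m x * (Gam ρ p p' x ^ m * (1 / κ ^ (k + 1))) := by
      refine mul_le_mul_of_nonneg_left (mul_le_mul_of_nonneg_left h3 ?_) ?_
      · unfold Gam
        rw [hz]
        positivity
      · unfold wE
        positivity
    _ = _ := by ring

end Vale.Agent.P088.R2.H31
end
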