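import Vale.Agent.P088.R2.H31.Main3

/-!
# P088, THEOREM S, core: the main inequality
-/

open MeasureTheory Set Filter Topology Metric
open scoped ContDiff

noncomputable section

namespace Vale.Agent.P088.R2.H31

variable {k : ℕ}

theorem cont_zz : Continuous (zz : E (k + 3) → ℝ) := by
  unfold zz
  fun_prop

/-- Young's inequality -/
theorem young {a b t : ℝ} (ht : 0 < t) : a * b ≤ 1 / 2 * (t * a ^ 2 + t⁻¹ * b ^ 2) := by
  have h : 0 ≤ t⁻¹ * (t * a - b) ^ 2 := by positivity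
  have h2 : t⁻¹ * (t * a - b) ^ 2 = t * a ^ 2 + t⁻¹ * b ^ 2 - 2 * (a * b) := by
    field_simp
    ring
  linarith

theorem sq4 (a b c d : ℝ) : (a + b + c + d) ^ 2 ≤ 4 * a ^ 2 + 4 * b ^ 2 + 4 * c ^ 2 + 4 * d ^ 2 := by
  nlinarith [sq_nonneg (a - b), sq_nonneg (a - c), sq_nonneg (a - d), sq_nonneg (b - c),
    sq_nonneg (b - d), sq_nonneg (c - d)]

/-- the commutator -/
theorem comm_bd {n : ℕ} {M : ℝ} {a b : Fin n → ℝ} {l w : ℝ} (ha : ∀ j, |a j| ≤ M)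
    (hl : |l| ≤ M) : (2 * ∑ j, a j * b j + l * w) ^ 2 ≤
      (8 * n + 2) * M ^ 2 * (w ^ 2 + ∑ j, b j ^ 2) := by
  have h1 : (∑ j, a j * b j) ^ 2 ≤ (∑ j, a j ^ 2) * ∑ j, b j ^ 2 :=
    Finset.sum_mul_sq_le_sq_mul_sq _ _ _
  have h2 : ∑ j, a j ^ 2 ≤ n * M ^ 2 := by
    calc ∑ j, a j ^ 2 ≤ ∑ _j : Fin n, M ^ 2 := Finset.sum_le_sum fun j _ => by
          rw [← sq_abs]
          exact pow_le_pow_left₀ (abs_nonneg _) (ha j) 2
      _ = _ := by simp
  have hb : 0 ≤ ∑ j, b j ^ 2 := Finset.sum_nonneg fun j _ => sq_nonneg _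
  have h3 : (∑ j, a j * b j) ^ 2 ≤ n * M ^ 2 * ∑ j, b j ^ 2 :=
    h1.trans (mul_le_mul_of_nonneg_right h2 hb)
  have h4 : (l * w) ^ 2 ≤ M ^ 2 * w ^ 2 := by
    rw [mul_pow]
    refine mul_le_mul_of_nonneg_right ?_ (sq_nonneg _)
    rw [← sq_abs]
    exact pow_le_pow_left₀ (abs_nonneg _) hl 2
  have h5 : (2 * ∑ j, a j * b j + l * w) ^ 2 ≤ 8 * (∑ j, a j * b j) ^ 2 + 2 * (l * w) ^ 2 := by
    nlinarith [sq_nonneg (2 * ∑ j, a j * b j - l * w)]
  have h6 : 0 ≤ 8 * n * M ^ 2 * w ^ 2 := by positivity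
  have h7 : 0 ≤ 2 * M ^ 2 * ∑ j, b j ^ 2 := by positivity
  nlinarith

theorem int_comb {n : ℕ} {s : Set (E n)} (hv : volume s ≠ ⊤) {f1 f2 f3 f4 : E n → ℝ}
    (h1 : IntegrableOn f1 s) (h2 : IntegrableOn f2 s) (h3 : IntegrableOn f3 s)
    (h4 : IntegrableOn f4 s) (a1 a2 a3 a4 a5 : ℝ) :
    IntegrableOn (fun x => a1 * f1 x + a2 * f2 x + a3 * f3 x + a4 * f4 x + a5) s ∧
    ∫ x in s, (a1 * f1 x + a2 * f2 x + a3 * f3 x + a4 * f4 x + a5) =
      a1 * (∫ x in s, f1 x) + a2 * (∫ x in s, f2 x) + a3 * (∫ x in s, f3 x) +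
        a4 * (∫ x in s, f4 x) + a5 * (volume s).toReal := by
  have i1 : Integrable (fun x => a1 * f1 x) (volume.restrict s) := h1.const_mul _
  have i2 : Integrable (fun x => a2 * f2 x) (volume.restrict s) := h2.const_mul _
  have i3 : Integrable (fun x => a3 * f3 x) (volume.restrict s) := h3.const_mul _
  have i4 : Integrable (fun x => a4 * f4 x) (volume.restrict s) := h4.const_mul _
  have i5 : Integrable (fun _ : E n => a5) (volume.restrict s) := integrableOn_const hv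
  have j2 : Integrable (fun x => a1 * f1 x + a2 * f2 x) (volume.restrict s) := i1.add i2
  have j3 : Integrable (fun x => a1 * f1 x + a2 * f2 x + a3 * f3 x) (volume.restrict s) := j2.add i3
  have j4 : Integrable (fun x => a1 * f1 x + a2 * f2 x + a3 * f3 x + a4 * f4 x)
    (volume.restrict s) := j3.add i4
  refine ⟨j4.add i5, ?_⟩
  rw [integral_add j4 i5, integral_add j3 i4, integral_add j2 i3, integral_add i1 i2,
    integral_const_mul, integral_const_mul, integral_const_mul, integral_const_mul,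
    setIntegral_const, smul_eq_mul]
  unfold Measure.real
  ring

/-- the final numerical step -/
theorem fin_num {m : ℕ} (hm2 : 1 ≤ m) {ρ Em τ S θ κ₁ Cq C1 C2 C3 CZ cb V IW A B3 B4 X : ℝ}
    (hρ : 0 < ρ) (hEm : 0 < Em) (hτ : 0 < τ) (hS : 0 < S) (hθ : 0 < θ) (hθ1 : θ < 1)
    (hκ₁0 : 0 ≤ κ₁) (hCq0 : 0 ≤ Cq) (hC1 : 0 ≤ C1) (hC20 : 0 ≤ C2) (hC30 : 0 ≤ C3) (hCZ0 : 0 ≤ CZ)
    (hV0 : 0 ≤ V) (hA0 : 0 ≤ A) (pw1 : (2 * ρ * Em * τ) ^ m ≤ θ ^ m)
    (pw3 : ((2 * ρ) ^ 2 * τ * S) ^ m ≤ θ ^ m) (jv : B3 ≤ C1 * ((m + 1) * τ ^ m) ^ 2)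
    (hB4' : B4 ≤ 2 * C1 * ((m + 1) * S ^ m) ^ 2)
    (hJ2 : IW ≤ 8 * C2 / m ^ 2 * (κ₁ ^ 2 * A + C3 * ((m + 1) * θ ^ m) ^ 2))
    (hI1 : X ≤ 1 / 2 * (m * IW + (m : ℝ)⁻¹ * (κ₁ ^ 2 * A)) +
      1 / 2 * (Cq * κ₁ * ((2 * ρ * Em / τ) ^ m * B3 +
        ((2 * ρ * Em / τ) ^ m)⁻¹ * ((2 * ρ * Em) ^ m) ^ 2 * V)) +
      1 / 2 * ((2 * ρ) ^ (2 * m) * ((τ / S) ^ m * (CZ * B4) +
        ((τ / S) ^ m)⁻¹ * (cb * (m + 1) * τ ^ m) ^ 2 * V))) :
    X ≤ (4 * C2 * κ₁ ^ 2 + 4 * C2 * C3 + κ₁ ^ 2 + Cq * κ₁ * (C1 + V) + (2 * CZ * C1 + cb ^ 2 * V)) /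
        m * A +
      (4 * C2 * κ₁ ^ 2 + 4 * C2 * C3 + κ₁ ^ 2 + Cq * κ₁ * (C1 + V) + (2 * CZ * C1 + cb ^ 2 * V)) *
        ((m + 1) ^ 2 * θ ^ m) := by
  have hm : (1 : ℝ) ≤ m := by exact_mod_cast hm2
  have hmpos : (0 : ℝ) < m := by linarith
  set t : ℝ := (2 * ρ * Em / τ) ^ m with ht
  have ht0 : 0 < t := by positivity
  set t' : ℝ := (τ / S) ^ m with ht'
  have ht'0 : 0 < t' := by positivity
  set c0 : ℝ := (2 * ρ) ^ (2 * m) with hc0
  have hc00 : 0 < c0 := by positivity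
  set F : ℝ := (m + 1) ^ 2 * θ ^ m with hF
  have hF0 : 0 ≤ F := by positivity
  have hθm0 : 0 ≤ θ ^ m := by positivity
  have hF1 : θ ^ m ≤ F := by
    rw [hF]
    have h1 : (1 : ℝ) ≤ (m + 1) ^ 2 := by
      calc (1 : ℝ) = 1 ^ 2 := by norm_num
        _ ≤ (m + 1) ^ 2 := pow_le_pow_left₀ zero_le_one (by linarith) 2
    calc θ ^ m = 1 * θ ^ m := (one_mul _).symm
      _ ≤ _ := mul_le_mul_of_nonneg_right h1 hθm0
  have hg2 : ((m + 1) * θ ^ m) ^ 2 ≤ F := by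
    rw [mul_pow]
    refine mul_le_mul_of_nonneg_left ?_ (by positivity)
    calc (θ ^ m) ^ 2 = θ ^ m * θ ^ m := by ring
      _ ≤ θ ^ m * 1 := mul_le_mul_of_nonneg_left (pow_le_one₀ hθ.le hθ1.le) (by positivity)
      _ = _ := mul_one _
  have b1 : t * B3 ≤ C1 * F := by
    calc t * B3 ≤ t * (C1 * ((m + 1) * τ ^ m) ^ 2) := mul_le_mul_of_nonneg_left jv ht0.le
      _ = C1 * ((m + 1) ^ 2 * (2 * ρ * Em * τ) ^ m) := by
        have h1 : (2 * ρ * Em * τ) ^ m = t * (τ ^ m * τ ^ m) := by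
          rw [ht, ← mul_pow, ← mul_pow]
          congr 1
          field_simp
        rw [h1]
        ring
      _ ≤ C1 * F := mul_le_mul_of_nonneg_left (mul_le_mul_of_nonneg_left pw1 (by positivity)) hC1
  have b2 : t⁻¹ * ((2 * ρ * Em) ^ m) ^ 2 ≤ F := by
    calc t⁻¹ * ((2 * ρ * Em) ^ m) ^ 2 = (2 * ρ * Em * τ) ^ m := by
          rw [ht, ← inv_pow, ← pow_mul, mul_comm m 2, pow_mul, ← mul_pow]
          congr 1
          field_simp
      _ ≤ F := pw1.trans hF1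
  have b3 : c0 * (t' * (CZ * B4)) ≤ 2 * CZ * C1 * F := by
    calc c0 * (t' * (CZ * B4)) ≤ c0 * (t' * (CZ * (2 * C1 * ((m + 1) * S ^ m) ^ 2))) := by
          gcongr
      _ = 2 * CZ * C1 * ((m + 1) ^ 2 * ((2 * ρ) ^ 2 * τ * S) ^ m) := by
        have h1 : ((2 * ρ) ^ 2 * τ * S) ^ m = c0 * (t' * (S ^ m * S ^ m)) := by
          rw [ht', hc0, pow_mul, ← mul_pow, ← mul_pow, ← mul_pow]
          congr 1
          field_simp
        rw [h1]
        ring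
      _ ≤ 2 * CZ * C1 * F := mul_le_mul_of_nonneg_left
        (mul_le_mul_of_nonneg_left pw3 (by positivity)) (by positivity)
  have b4 : c0 * (t'⁻¹ * (cb * (m + 1) * τ ^ m) ^ 2) ≤ cb ^ 2 * F := by
    calc c0 * (t'⁻¹ * (cb * (m + 1) * τ ^ m) ^ 2) =
          cb ^ 2 * ((m + 1) ^ 2 * ((2 * ρ) ^ 2 * τ * S) ^ m) := by
          have h1 : ((2 * ρ) ^ 2 * τ * S) ^ m = c0 * (t'⁻¹ * (τ ^ m * τ ^ m)) := by
            rw [ht', hc0, pow_mul, ← inv_pow, ← mul_pow, ← mul_pow, ← mul_pow]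
            congr 1
            field_simp
          rw [h1]
          ring
      _ ≤ cb ^ 2 * F := mul_le_mul_of_nonneg_left
        (mul_le_mul_of_nonneg_left pw3 (by positivity)) (by positivity)
  have b5 : (m : ℝ) * IW ≤ 8 * C2 / m * (κ₁ ^ 2 * A) + 8 * C2 * C3 * F := by
    have h1 := mul_le_mul_of_nonneg_left hJ2 hmpos.le
    have h2 : (m : ℝ) * (8 * C2 / m ^ 2 * (κ₁ ^ 2 * A + C3 * ((m + 1) * θ ^ m) ^ 2)) =
        8 * C2 / m * (κ₁ ^ 2 * A) + 8 * C2 * C3 * (((m + 1) * θ ^ m) ^ 2 / m) := by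
      field_simp
    have h3 : ((m + 1) * θ ^ m) ^ 2 / m ≤ F :=
      (div_le_self (sq_nonneg _) hm).trans hg2
    have h4 : 8 * C2 * C3 * (((m + 1) * θ ^ m) ^ 2 / m) ≤ 8 * C2 * C3 * F :=
      mul_le_mul_of_nonneg_left h3 (by positivity)
    linarith
  have hCq1 : 0 ≤ Cq * κ₁ := by positivity
  have b6 : Cq * κ₁ * (t * B3 + t⁻¹ * ((2 * ρ * Em) ^ m) ^ 2 * V) ≤ Cq * κ₁ * (C1 + V) * F := by
    have h1 : t * B3 + t⁻¹ * ((2 * ρ * Em) ^ m) ^ 2 * V ≤ (C1 + V) * F := by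
      have := mul_le_mul_of_nonneg_right b2 hV0
      linarith
    calc _ ≤ Cq * κ₁ * ((C1 + V) * F) := mul_le_mul_of_nonneg_left h1 hCq1
      _ = _ := by ring
  have b7 : c0 * (t' * (CZ * B4) + t'⁻¹ * (cb * (m + 1) * τ ^ m) ^ 2 * V) ≤
      (2 * CZ * C1 + cb ^ 2 * V) * F := by
    have := mul_le_mul_of_nonneg_right b4 hV0
    calc c0 * (t' * (CZ * B4) + t'⁻¹ * (cb * (m + 1) * τ ^ m) ^ 2 * V) =
          c0 * (t' * (CZ * B4)) + c0 * (t'⁻¹ * (cb * (m + 1) * τ ^ m) ^ 2) * V := by ring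
      _ ≤ 2 * CZ * C1 * F + cb ^ 2 * F * V := add_le_add b3 this
      _ = _ := by ring
  have b8 : (m : ℝ)⁻¹ * (κ₁ ^ 2 * A) = κ₁ ^ 2 / m * A := by
    field_simp
  refine hI1.trans ?_
  have hz1 : 0 ≤ κ₁ ^ 2 / m * A := by positivity
  have hz2 : 0 ≤ (4 * C2 * C3 + Cq * κ₁ * (C1 + V) + (2 * CZ * C1 + cb ^ 2 * V)) / m * A := by
    positivity
  have hz3 : 0 ≤ Cq * κ₁ * (C1 + V) * F := by positivity
  have hz4 : 0 ≤ (2 * CZ * C1 + cb ^ 2 * V) * F := by positivity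
  have hz5 : 0 ≤ (4 * C2 * κ₁ ^ 2 + κ₁ ^ 2) * F := by positivity
  have hfin : (4 * C2 * κ₁ ^ 2 + 4 * C2 * C3 + κ₁ ^ 2 + Cq * κ₁ * (C1 + V) +
      (2 * CZ * C1 + cb ^ 2 * V)) / m * A + (4 * C2 * κ₁ ^ 2 + 4 * C2 * C3 + κ₁ ^ 2 +
      Cq * κ₁ * (C1 + V) + (2 * CZ * C1 + cb ^ 2 * V)) * F =
      1 / 2 * (8 * C2 / m * (κ₁ ^ 2 * A) + 8 * C2 * C3 * F) +
      κ₁ ^ 2 / m * A +
      (4 * C2 * C3 + Cq * κ₁ * (C1 + V) + (2 * CZ * C1 + cb ^ 2 * V)) / m * A +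
      Cq * κ₁ * (C1 + V) * F + (2 * CZ * C1 + cb ^ 2 * V) * F + (4 * C2 * κ₁ ^ 2 + κ₁ ^ 2) * F := by
    ring
  rw [hfin, b8]
  linarith

set_option maxHeartbeats 4000000 in
/-- The main inequality for one pair of multipoles. -/
theorem main_ineq {R κ S Em Ez τ θ ρl ρm : ℝ} {G : Set (E (k + 3))} {q : E (k + 3) → ℝ}
    (hG : IsOpen G) (hR : 0 < R) (hκ : 0 < κ) (hS : 0 < S) (hEm : 0 < Em) (hEz : 0 < Ez)
    (hτ : 0 < τ) (hτS : τ ≤ S) (hθ : 0 < θ) (hθ1 : θ < 1) (hρl : 0 < ρl)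
    (hq : ContinuousOn q (ball 0 R)) (hqG : ∀ x ∈ G ∩ ball 0 R, q x = 0)
    (hSt : Step (k + 3) R G q) {χ : E (k + 3) → ℝ} (hχ : ContDiff ℝ ∞ χ) (hχ0 : ∀ x, 0 ≤ χ x)
    (hχ1 : ∀ x, χ x ≤ 1) (hχs : tsupport χ ⊆ ball 0 (R / 2))
    (hχz : ∀ x, ‖x‖ < R / 4 → χ =ᶠ[𝓝 x] fun _ => 1) :
    ∃ (C : ℝ) (m₀ : ℕ), 0 ≤ C ∧ ∀ (ρ : ℝ) (p p' : E (k + 3)),
      Cfg k G R κ S Em Ez τ θ ρl ρm ρ p p' → ∀ L : ℂ →L[ℝ] ℝ, (∀ w, |L w| ≤ ‖w‖) →
      ∀ m : ℕ, m₀ ≤ m → 1 ≤ m → Integrable (fun x => χ x * q x * (Um L p m x * Um L p' m x)) ∧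
        (2 * ρ) ^ (2 * m) * |∫ x, χ x * q x * (Um L p m x * Um L p' m x)| ≤
          C / m * (∫ x in ball 0 (R / 2) \ G, q x ^ 2 * Gam ρ p p' x ^ (2 * m)) +
            C * ((m + 1) ^ 2 * θ ^ m) := by
  obtain ⟨C1, hC1, hvw⟩ := get_vw (ρl := ρl) (ρm := ρm) (Em := Em) (Ez := Ez) (θ := θ)
    hG hR hκ hS hτ hSt
  have hsubR : ball (0 : E (k + 3)) (R / 2) ⊆ ball 0 R := ball_subset_ball (by linarith)
  have hχc : HasCompactSupport χ :=
    HasCompactSupport.intro (isCompact_closedBall (0 : E (k + 3)) (R / 2)) fun x hx =>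
      image_eq_zero_of_notMem_tsupport fun h => hx (ball_subset_closedBall (hχs h))
  obtain ⟨M, hM0, -, hMj, hMl⟩ := bdd_cut χ hχ hχc
  obtain ⟨Cq', hCq'⟩ := (isCompact_closedBall (0 : E (k + 3)) (R / 2)).exists_bound_of_continuousOn
    (hq.mono (closedBall_subset_ball (by linarith)))
  set Cq : ℝ := max Cq' 0 with hCq
  have hCq0 : 0 ≤ Cq := le_max_right _ _
  have hqb : ∀ x ∈ ball (0 : E (k + 3)) (R / 2), |q x| ≤ Cq := fun x hx =>
    (hCq' x (ball_subset_closedBall hx)).trans (le_max_left _ _)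
  set K2 : Set (E (k + 3)) := ball 0 (R / 2) \ G with hK2
  have hK2m : MeasurableSet K2 := measurableSet_ball.diff hG.measurableSet
  have hK2v : volume K2 ≠ ⊤ := ((measure_mono sdiff_subset).trans_lt measure_ball_lt_top).ne
  have hK2R : K2 ⊆ ball 0 R \ G := sdiff_subset_sdiff_left hsubR
  set V : ℝ := (volume K2).toReal with hV
  have hV0 : 0 ≤ V := ENNReal.toReal_nonneg
  set L0 : ℝ := Real.log R - Real.log κ with hL0
  set T0 : ℝ := R ^ 4 / (4 * ρl ^ 2) with hT0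
  have hT00 : 0 < T0 := by positivity
  set C2 : ℝ := L0 ^ 2 * T0 ^ 2 with hC2
  have hC20 : 0 ≤ C2 := by positivity
  set κ₁ : ℝ := 1 / κ ^ (k + 1) with hκ₁
  have hκ₁0 : 0 < κ₁ := by positivity
  set CZ : ℝ := (8 * ((k + 3 : ℕ) : ℝ) + 2) * M ^ 2 with hCZ
  have hCZ0 : 0 ≤ CZ := by positivity
  set cb : ℝ := cU k κ τ with hcb
  have hcb0 : 0 < cb := cU_pos hκ hτ
  set C3 : ℝ := Cq ^ 2 * C1 + 2 * CZ * C1 with hC3
  have hC30 : 0 ≤ C3 := by positivity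
  obtain ⟨m₀, hm₀⟩ := exists_nat_gt (8 * C2 * Cq ^ 2)
  set C : ℝ := 4 * C2 * κ₁ ^ 2 + 4 * C2 * C3 + κ₁ ^ 2 + Cq * κ₁ * (C1 + V) + (2 * CZ * C1 + cb ^ 2 * V)
    with hC
  have hC0 : 0 ≤ C := by positivity
  refine ⟨C, m₀, hC0, ?_⟩
  intro ρ p p' hcfg L hL m hm1 hm2
  have hρ : 0 < ρ := hρl.trans_le hcfg.ρl
  have hm : (1 : ℝ) ≤ m := by exact_mod_cast hm2
  have hmpos : (0 : ℝ) < m := by linarith
  obtain ⟨v, w, hv, hw, hw0, hlw, iv, jv, iw, jw⟩ := hvw ρ p p' hcfg L hL m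
  set U : E (k + 3) → ℝ := Um L p m with hU
  set V' : E (k + 3) → ℝ := Um L p' m with hV'
  set e : E (k + 3) → ℝ := wE ρ p p' m with he
  set Γ : E (k + 3) → ℝ := Gam ρ p p' with hΓ
  set W : E (k + 3) → ℝ := fun x => w x * χ x with hW
  set g : ℝ := (m + 1) * θ ^ m with hg
  have hg0 : 0 < g := by positivity
  have hpp : p ≠ p' := by
    intro h
    have h1 := hcfg.hpq
    rw [h] at h1
    unfold nsq at h1
    rw [sub_self, norm_zero] at h1
    have : 0 < 4 * ρ ^ 2 := by positivity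
    linarith [h1]
  -- regularity of `W`
  have hWs : ContDiff ℝ 2 W := by
    refine cd_mul (fun x hx => ?_) (hχ.of_le two_le_inf)
    exact hw.contDiffAt (isOpen_ball.mem_nhds (hsubR (hχs hx)))
  have hWc : HasCompactSupport W := hχc.mul_left
  have hWt : tsupport W ⊆ K2 := by
    intro x hx
    refine ⟨hχs (closure_mono (Function.support_mul_subset_right _ _) hx), fun hxG => ?_⟩
    have h1 : W =ᶠ[𝓝 x] fun _ => 0 := by
      filter_upwards [hG.mem_nhds hxG] with y hy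
      by_cases hyR : y ∈ ball (0 : E (k + 3)) R
      · simp only [hW, hw0 y ⟨hy, hyR⟩, zero_mul]
      · have : χ y = 0 := image_eq_zero_of_notMem_tsupport fun h => hyR (hsubR (hχs h))
        simp only [hW, this, mul_zero]
    exact (notMem_tsupport_iff_eventuallyEq.2 h1) hx
  have hlt : ∀ x, x ∉ K2 → lap W x = 0 := by
    intro x hx
    have h1 : W =ᶠ[𝓝 x] fun _ => (0 : ℝ) := notMem_tsupport_iff_eventuallyEq.1 fun h => hx (hWt h)
    rw [lap_congr h1]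
    unfold lap
    have h2 : ∀ i : Fin (k + 3), dj i (fun _ : E (k + 3) => (0 : ℝ)) = fun _ => 0 := fun i => by
      funext y
      exact dj_const 0 i y
    simp [h2, dj_const]
  have hpK : p ∉ K2 := fun h => h.2 hcfg.hp
  have hp'K : p' ∉ K2 := fun h => h.2 hcfg.hq
  have hfar : ∀ x ∈ K2, κ ≤ ‖x - p‖ ∧ κ ≤ ‖x - p'‖ := fun x hx => hcfg.far x (hK2R hx)
  have hnp : ∀ x ∈ K2, 0 < ‖x - p‖ ∧ 0 < ‖x - p'‖ := fun x hx =>
    ⟨hκ.trans_le (hfar x hx).1, hκ.trans_le (hfar x hx).2⟩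
  have hne : ∀ x ∈ K2, x ≠ p ∧ x ≠ p' := fun x hx =>
    ⟨fun h => hpK (h ▸ hx), fun h => hp'K (h ▸ hx)⟩
  have hup : ∀ x ∈ K2, ‖x - p‖ ≤ R ∧ ‖x - p'‖ ≤ R := by
    intro x hx
    have h1 : ‖x‖ < R / 2 := by
      have := hx.1
      rwa [mem_ball_zero_iff] at this
    constructor
    · linarith [norm_sub_le x p, hcfg.hpR]
    · linarith [norm_sub_le x p', hcfg.hqR]
  -- bounds for `e`, `Γ`
  have he0 : ∀ x, 0 ≤ e x := fun x => by
    simp only [he, wE]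
    positivity
  have hcont : ContinuousOn (fun x => ‖x - p‖ / ‖x - p'‖) K2 :=
    ContinuousOn.div (by fun_prop) (by fun_prop) fun x hx => (hnp x hx).2.ne'
  have hec : ContinuousOn e K2 := (continuousOn_const.mul hcont).pow m
  have heE : ∀ x ∈ K2, e x ≤ (2 * ρ * Em) ^ m := by
    intro x hx
    simp only [he, wE]
    refine pow_le_pow_left₀ (by positivity) ?_ m
    refine mul_le_mul_of_nonneg_left ?_ (by positivity)
    rw [div_le_iff₀ (hnp x hx).2]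
    exact hcfg.bE x (hK2R hx)
  have heZ : ∀ x ∈ K2, R / 4 ≤ ‖x‖ → e x ≤ (2 * ρ * Ez) ^ m := by
    intro x hx h1
    simp only [he, wE]
    refine pow_le_pow_left₀ (by positivity) ?_ m
    refine mul_le_mul_of_nonneg_left ?_ (by positivity)
    rw [div_le_iff₀ (hnp x hx).2]
    refine hcfg.bZ x h1 ?_
    have := hsubR hx.1
    rwa [mem_ball_zero_iff] at this
  have hΓ0 : ∀ x, 0 ≤ Γ x := fun x => by
    have := zz_nonneg (x - p)
    simp only [hΓ, Gam]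
    positivity
  have hΓ1 : ∀ x ∈ K2, Γ x ≤ 1 := by
    intro x hx
    simp only [hΓ, Gam]
    rw [div_le_one (mul_pos (hnp x hx).1 (hnp x hx).2)]
    exact hcfg.bΓ x
  have hΓc : ContinuousOn Γ K2 := by
    have h1 : ContinuousOn (fun x : E (k + 3) => 2 * ρ * zz (x - p)) K2 :=
      (continuous_const.mul (cont_zz.comp (continuous_id.sub continuous_const))).continuousOn
    exact h1.div (by fun_prop) fun x hx => (mul_pos (hnp x hx).1 (hnp x hx).2).ne'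
  have hqc : ContinuousOn q K2 := hq.mono (sdiff_subset.trans hsubR)
  have hUc : ContinuousOn U K2 := fun x hx =>
    (cd_Um L (hne x hx).1 m (l := 1)).continuousAt.continuousWithinAt
  have hV'c : ContinuousOn V' K2 := fun x hx =>
    (cd_Um L (hne x hx).2 m (l := 1)).continuousAt.continuousWithinAt
  have hzz : ∀ x, zz (x - p) = zz (x - p') := fun x => by
    rw [← norm_zl, ← norm_zl, hcfg.hz x]
  have heU : ∀ x ∈ K2, e x * |U x| ≤ Γ x ^ m * κ₁ := fun x hx => by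
    have := wE_U hρ hκ L hL (hfar x hx).1 (hfar x hx).2 m
    rw [hκ₁, mul_one_div]
    exact this
  have heV : ∀ x ∈ K2, (2 * ρ) ^ (2 * m) * |V' x| ≤ e x * (Γ x ^ m * κ₁) := fun x hx => by
    have := wE_V hρ hκ L hL (hfar x hx).1 (hfar x hx).2 (hzz x) m
    rw [hκ₁, mul_one_div]
    exact this
  obtain ⟨MW, -, hMW⟩ := bdd_of_cs hWs.continuous hWc
  obtain ⟨ML, -, hML⟩ := bdd_of_cs (cont_lap hWs) (supp_lap hWc)
  have hE0 : 0 ≤ (2 * ρ * Em) ^ m := by positivity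
  have hmeas : ∀ {f : E (k + 3) → ℝ}, ContinuousOn f K2 → AEStronglyMeasurable f (volume.restrict K2) :=
    fun hf => hf.aestronglyMeasurable hK2m
  have hWcK : ContinuousOn W K2 := hWs.continuous.continuousOn
  have hlWcK : ContinuousOn (lap W) K2 := (cont_lap hWs).continuousOn
  have habs2 : ∀ {a b : ℝ}, |a| ≤ b → a ^ 2 ≤ b ^ 2 := fun {a b} h => by
    rw [← sq_abs]
    exact pow_le_pow_left₀ (abs_nonneg _) h 2
  -- integrability
  have i1 : IntegrableOn (fun x => e x ^ 2 * W x ^ 2) K2 := by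
    refine int_bdd (C := ((2 * ρ * Em) ^ m) ^ 2 * MW ^ 2) hK2m hK2v (hmeas ((hec.pow 2).mul (hWcK.pow 2)))
      fun x hx => ?_
    rw [abs_of_nonneg (by positivity)]
    exact mul_le_mul (pow_le_pow_left₀ (he0 x) (heE x hx) 2) (habs2 (hMW x)) (by positivity)
      (by positivity)
  have i1' : IntegrableOn (fun x => e x ^ 2 * lap W x ^ 2) K2 := by
    refine int_bdd (C := ((2 * ρ * Em) ^ m) ^ 2 * ML ^ 2) hK2m hK2v (hmeas ((hec.pow 2).mul (hlWcK.pow 2)))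
      fun x hx => ?_
    rw [abs_of_nonneg (by positivity)]
    exact mul_le_mul (pow_le_pow_left₀ (he0 x) (heE x hx) 2) (habs2 (hML x)) (by positivity)
      (by positivity)
  have i2 : IntegrableOn (fun x => q x ^ 2 * Γ x ^ (2 * m)) K2 := by
    refine int_bdd (C := Cq ^ 2 * 1) hK2m hK2v (hmeas ((hqc.pow 2).mul (hΓc.pow (2 * m))))
      fun x hx => ?_
    have := hΓ0 x
    rw [abs_of_nonneg (by positivity)]
    exact mul_le_mul (habs2 (hqb x hx.1)) (pow_le_one₀ (hΓ0 x) (hΓ1 x hx)) (by positivity)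
      (by positivity)
  have i4 : IntegrableOn (fun x => w x ^ 2 + ∑ j, dj j w x ^ 2) K2 :=
    iw.mono_set (sdiff_subset.trans hsubR)
  have i5 : IntegrableOn (fun _ : E (k + 3) => (1 : ℝ)) K2 := integrableOn_const hK2v
  -- the Carleman estimate
  have hcthb : ∀ x ∈ K2, 0 < cth p p' x ∧ cth p p' x ≤ T0 := by
    intro x hx
    refine ⟨cth_pos hpp (hne x hx).1 (hne x hx).2, ?_⟩
    unfold cth
    rw [hcfg.hpq, hT0]
    unfold nsq
    have h1 : ‖x - p‖ ^ 2 * ‖x - p'‖ ^ 2 ≤ R ^ 2 * R ^ 2 :=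
      mul_le_mul (pow_le_pow_left₀ (norm_nonneg _) (hup x hx).1 2)
        (pow_le_pow_left₀ (norm_nonneg _) (hup x hx).2 2) (by positivity) (by positivity)
    have h2 : 4 * ρl ^ 2 ≤ 4 * ρ ^ 2 := by
      have := pow_le_pow_left₀ hρl.le hcfg.ρl 2
      linarith
    calc ‖x - p‖ ^ 2 * ‖x - p'‖ ^ 2 / (4 * ρ ^ 2) ≤ R ^ 2 * R ^ 2 / (4 * ρl ^ 2) :=
          div_le_div₀ (by positivity) h1 (by positivity) h2
      _ = _ := by ring
  have hcthc : Continuous (cth p p') := (cd_cth (k := 1)).continuous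
  have hexp : ∀ x ∈ K2, (2 * ρ) ^ (2 * m) * Real.exp (m * cph p p' x) ^ 2 = e x ^ 2 := by
    intro x hx
    rw [exp_cph (hne x hx).1 (hne x hx).2]
    simp only [he, wE]
    ring
  have hcphb : ∀ x ∈ tsupport W, |cph p p' x| ≤ L0 := by
    intro x hx
    have hxK := hWt hx
    obtain ⟨a1, a2⟩ := hfar x hxK
    obtain ⟨b1, b2⟩ := hup x hxK
    obtain ⟨c1, c2⟩ := hnp x hxK
    have e1 : cph p p' x = Real.log ‖x - p‖ - Real.log ‖x - p'‖ := by
      unfold cph nsq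
      rw [Real.log_pow, Real.log_pow]
      push_cast
      ring
    rw [e1, abs_le, hL0]
    have f1 := Real.log_le_log hκ a1
    have f2 := Real.log_le_log hκ a2
    have f3 := Real.log_le_log c1 b1
    have f4 := Real.log_le_log c2 b2
    constructor <;> linarith
  have hCar : ∫ x in K2, e x ^ 2 * W x ^ 2 ≤ C2 / m ^ 2 * ∫ x in K2, e x ^ 2 * lap W x ^ 2 := by
    have hc := carleman hpp hWs hWc (fun h => hpK (hWt h)) (fun h => hp'K (hWt h)) hmpos hcphb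
    have hc0 : 0 < (2 * ρ) ^ (2 * m) := by positivity
    have e1 : (2 * ρ) ^ (2 * m) * ∫ x, Real.exp (m * cph p p' x) ^ 2 * W x ^ 2 / cth p p' x =
        ∫ x in K2, e x ^ 2 * W x ^ 2 / cth p p' x := by
      rw [← setIntegral_eq_integral_of_forall_compl_eq_zero (s := K2), ← integral_const_mul]
      · refine setIntegral_congr_fun hK2m fun x hx => ?_
        rw [← hexp x hx]
        ring
      · intro x hx
        have : W x = 0 := image_eq_zero_of_notMem_tsupport fun h => hx (hWt h)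
        rw [this]
        ring
    have e2 : (2 * ρ) ^ (2 * m) * ∫ x, Real.exp (m * cph p p' x) ^ 2 * (cth p p' x * lap W x ^ 2) =
        ∫ x in K2, e x ^ 2 * (cth p p' x * lap W x ^ 2) := by
      rw [← setIntegral_eq_integral_of_forall_compl_eq_zero (s := K2), ← integral_const_mul]
      · refine setIntegral_congr_fun hK2m fun x hx => ?_
        rw [← hexp x hx]
        ring
      · intro x hx
        rw [hlt x hx]
        ring
    have e3 : 1 / T0 * ∫ x in K2, e x ^ 2 * W x ^ 2 ≤ ∫ x in K2, e x ^ 2 * W x ^ 2 / cth p p' x := by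
      rw [← integral_const_mul]
      refine setIntegral_mono_on (i1.const_mul _) ?_ hK2m fun x hx => ?_
      · refine int_bdd (C := ((2 * ρ * Em) ^ m) ^ 2 * MW ^ 2 / (κ ^ 2 * κ ^ 2 / (4 * ρ ^ 2))) hK2m hK2v
          (hmeas (((hec.pow 2).mul (hWcK.pow 2)).div hcthc.continuousOn
            fun x hx => (hcthb x hx).1.ne')) fun x hx => ?_
        have h0 := (hcthb x hx).1
        have h1 : κ ^ 2 * κ ^ 2 / (4 * ρ ^ 2) ≤ cth p p' x := by
          unfold cth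
          rw [hcfg.hpq]
          unfold nsq
          refine div_le_div_of_nonneg_right ?_ (by positivity)
          exact mul_le_mul (pow_le_pow_left₀ hκ.le (hfar x hx).1 2)
            (pow_le_pow_left₀ hκ.le (hfar x hx).2 2) (by positivity) (by positivity)
        rw [abs_of_nonneg (by positivity)]
        refine div_le_div₀ (by positivity) ?_ (by positivity) h1
        exact mul_le_mul (pow_le_pow_left₀ (he0 x) (heE x hx) 2) (habs2 (hMW x)) (by positivity)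
          (by positivity)
      · obtain ⟨h0, h1⟩ := hcthb x hx
        have h2 : 1 / T0 ≤ 1 / cth p p' x := one_div_le_one_div_of_le h0 h1
        calc 1 / T0 * (e x ^ 2 * W x ^ 2) ≤ 1 / cth p p' x * (e x ^ 2 * W x ^ 2) :=
              mul_le_mul_of_nonneg_right h2 (by positivity)
          _ = _ := by ring
    have e4 : ∫ x in K2, e x ^ 2 * (cth p p' x * lap W x ^ 2) ≤
        T0 * ∫ x in K2, e x ^ 2 * lap W x ^ 2 := by
      rw [← integral_const_mul]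
      have hpw : ∀ x ∈ K2, e x ^ 2 * (cth p p' x * lap W x ^ 2) ≤ T0 * (e x ^ 2 * lap W x ^ 2) := by
        intro x hx
        obtain ⟨h0, h1⟩ := hcthb x hx
        calc e x ^ 2 * (cth p p' x * lap W x ^ 2) = cth p p' x * (e x ^ 2 * lap W x ^ 2) := by ring
          _ ≤ _ := mul_le_mul_of_nonneg_right h1 (by positivity)
      refine setIntegral_mono_on ?_ (i1'.const_mul _) hK2m hpw
      refine int_bdd (C := T0 * (((2 * ρ * Em) ^ m) ^ 2 * ML ^ 2)) hK2m hK2v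
        (hmeas ((hec.pow 2).mul (hcthc.continuousOn.mul (hlWcK.pow 2)))) fun x hx => ?_
      have h0 := (hcthb x hx).1
      rw [abs_of_nonneg (by positivity)]
      refine (hpw x hx).trans (mul_le_mul_of_nonneg_left ?_ hT00.le)
      exact mul_le_mul (pow_le_pow_left₀ (he0 x) (heE x hx) 2) (habs2 (hML x)) (by positivity)
        (by positivity)
    have e5 : 1 / T0 * ∫ x in K2, e x ^ 2 * W x ^ 2 ≤
        L0 ^ 2 / m ^ 2 * (T0 * ∫ x in K2, e x ^ 2 * lap W x ^ 2) := by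
      calc _ ≤ _ := e3
        _ = _ := e1.symm
        _ ≤ (2 * ρ) ^ (2 * m) * (L0 ^ 2 / m ^ 2 *
            ∫ x, Real.exp (m * cph p p' x) ^ 2 * (cth p p' x * lap W x ^ 2)) :=
          mul_le_mul_of_nonneg_left hc hc0.le
        _ = L0 ^ 2 / m ^ 2 * ((2 * ρ) ^ (2 * m) *
            ∫ x, Real.exp (m * cph p p' x) ^ 2 * (cth p p' x * lap W x ^ 2)) := by ring
        _ ≤ _ := by
          rw [e2]
          exact mul_le_mul_of_nonneg_left e4 (by positivity)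
    have e6 := mul_le_mul_of_nonneg_left e5 hT00.le
    calc ∫ x in K2, e x ^ 2 * W x ^ 2 = T0 * (1 / T0 * ∫ x in K2, e x ^ 2 * W x ^ 2) := by
          field_simp
      _ ≤ _ := e6
      _ = _ := by
        rw [hC2]
        ring
  -- the equation on `K2`
  set Z : E (k + 3) → ℝ := fun x => 2 * ∑ j, dj j χ x * dj j w x + lap χ x * w x with hZ
  have hwd : ∀ x ∈ ball (0 : E (k + 3)) R, ContDiffAt ℝ 2 w x := fun x hx =>
    hw.contDiffAt (isOpen_ball.mem_nhds hx)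
  have hlapW : ∀ x ∈ K2, lap W x = q x * W x + χ x * q x * U x + χ x * q x * (v x - U x) + Z x := by
    intro x hx
    have hxR := hsubR hx.1
    have e1 : lap W x = lap w x * χ x + 2 * ∑ i, dj i w x * dj i χ x + w x * lap χ x :=
      lap_mul (hwd x hxR) (hχ.of_le two_le_inf).contDiffAt
    rw [e1, hlw x hxR]
    have e2 : ∑ i, dj i w x * dj i χ x = ∑ j, dj j χ x * dj j w x :=
      Finset.sum_congr rfl fun j _ => mul_comm _ _
    rw [e2]
    simp only [hW, hZ]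
    ring
  have hZ0 : ∀ x, ‖x‖ < R / 4 → Z x = 0 := by
    intro x hx
    have h1 := hχz x hx
    have e1 : ∀ j : Fin (k + 3), dj j χ x = 0 := fun j => by
      rw [dj_congr h1]
      exact dj_const 1 j x
    have e2 : lap χ x = 0 := by
      rw [lap_congr h1]
      unfold lap
      have h2 : ∀ i : Fin (k + 3), dj i (fun _ : E (k + 3) => (1 : ℝ)) = fun _ => 0 := fun i => by
        funext y
        exact dj_const 1 i y
      simp [h2, dj_const]
    simp only [hZ, e1, e2]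
    simp
  have hZb : ∀ x, Z x ^ 2 ≤ CZ * (w x ^ 2 + ∑ j, dj j w x ^ 2) := fun x =>
    comm_bd (fun j => hMj j x) (hMl x)
  have hA4 : ∀ x, 0 ≤ w x ^ 2 + ∑ j, dj j w x ^ 2 := fun x =>
    add_nonneg (sq_nonneg _) (Finset.sum_nonneg fun j _ => sq_nonneg _)
  -- the integrals
  set IW : ℝ := ∫ x in K2, e x ^ 2 * W x ^ 2 with hIW
  set A : ℝ := ∫ x in K2, q x ^ 2 * Γ x ^ (2 * m) with hA
  set B3 : ℝ := ∫ x in K2, (v x - U x) ^ 2 with hB3
  set B4 : ℝ := ∫ x in K2, (w x ^ 2 + ∑ j, dj j w x ^ 2) with hB4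
  have hIW0 : 0 ≤ IW := setIntegral_nonneg hK2m fun x _ => by positivity
  have hA0 : 0 ≤ A := setIntegral_nonneg hK2m fun x _ => by
    have := hΓ0 x
    positivity
  have hB4' : B4 ≤ 2 * C1 * ((m + 1) * S ^ m) ^ 2 := by
    have h1 : B4 ≤ ∫ x in ball 0 R, (w x ^ 2 + ∑ j, dj j w x ^ 2) :=
      setIntegral_mono_set iw (Eventually.of_forall fun x => hA4 x)
        (Eventually.of_forall (sdiff_subset.trans hsubR))
    have h2 : ((m + 1 : ℝ) * τ ^ m) ^ 2 ≤ ((m + 1) * S ^ m) ^ 2 :=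
      pow_le_pow_left₀ (by positivity) (mul_le_mul_of_nonneg_left
        (pow_le_pow_left₀ hτ.le hτS m) (by positivity)) 2
    calc B4 ≤ C1 * (((m + 1) * S ^ m) ^ 2 + ((m + 1) * τ ^ m) ^ 2) := h1.trans jw
      _ ≤ C1 * (((m + 1) * S ^ m) ^ 2 + ((m + 1) * S ^ m) ^ 2) :=
        mul_le_mul_of_nonneg_left (by linarith) hC1
      _ = _ := by ring
  have hB40 : 0 ≤ B4 := setIntegral_nonneg hK2m fun x _ => hA4 x
  have hB30 : 0 ≤ B3 := setIntegral_nonneg hK2m fun x _ => sq_nonneg _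
  -- powers
  have pw1 : (2 * ρ * Em * τ) ^ m ≤ θ ^ m := pow_le_pow_left₀ (by positivity) hcfg.n2 m
  have pw2 : (2 * ρ * Ez * S) ^ m ≤ θ ^ m := pow_le_pow_left₀ (by positivity) hcfg.n1 m
  have pw3 : ((2 * ρ) ^ 2 * τ * S) ^ m ≤ θ ^ m := pow_le_pow_left₀ (by positivity) hcfg.n3 m
  -- first estimate
  have hJ1 : ∫ x in K2, e x ^ 2 * lap W x ^ 2 ≤ 4 * Cq ^ 2 * IW + 4 * κ₁ ^ 2 * A + 4 * C3 * g ^ 2 := by
    have hpw : ∀ x ∈ K2, e x ^ 2 * lap W x ^ 2 ≤ 4 * Cq ^ 2 * (e x ^ 2 * W x ^ 2) +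
        4 * κ₁ ^ 2 * (q x ^ 2 * Γ x ^ (2 * m)) +
        4 * Cq ^ 2 * ((2 * ρ * Em) ^ m) ^ 2 * (v x - U x) ^ 2 +
        4 * CZ * ((2 * ρ * Ez) ^ m) ^ 2 * (w x ^ 2 + ∑ j, dj j w x ^ 2) := by
      intro x hx
      have f0 := he0 x
      have f1 : (e x * (q x * W x)) ^ 2 ≤ Cq ^ 2 * (e x ^ 2 * W x ^ 2) := by
        calc (e x * (q x * W x)) ^ 2 = q x ^ 2 * (e x ^ 2 * W x ^ 2) := by ring
          _ ≤ Cq ^ 2 * (e x ^ 2 * W x ^ 2) :=
            mul_le_mul_of_nonneg_right (habs2 (hqb x hx.1)) (by positivity)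
      have f2 : (e x * (χ x * q x * U x)) ^ 2 ≤ κ₁ ^ 2 * (q x ^ 2 * Γ x ^ (2 * m)) := by
        have g1 := heU x hx
        have g2 : (e x * |U x|) ^ 2 ≤ (Γ x ^ m * κ₁) ^ 2 := pow_le_pow_left₀ (by positivity) g1 2
        have g3 : χ x ^ 2 ≤ 1 := pow_le_one₀ (hχ0 x) (hχ1 x)
        calc (e x * (χ x * q x * U x)) ^ 2 = χ x ^ 2 * (q x ^ 2 * (e x * |U x|) ^ 2) := by
              rw [mul_pow (e x) |U x|, sq_abs]
              ring
          _ ≤ 1 * (q x ^ 2 * (Γ x ^ m * κ₁) ^ 2) :=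
            mul_le_mul g3 (mul_le_mul_of_nonneg_left g2 (sq_nonneg _)) (by positivity) zero_le_one
          _ = _ := by ring
      have f3 : (e x * (χ x * q x * (v x - U x))) ^ 2 ≤
          Cq ^ 2 * ((2 * ρ * Em) ^ m) ^ 2 * (v x - U x) ^ 2 := by
        have g3 : χ x ^ 2 ≤ 1 := pow_le_one₀ (hχ0 x) (hχ1 x)
        have g4 : e x ^ 2 ≤ ((2 * ρ * Em) ^ m) ^ 2 := pow_le_pow_left₀ f0 (heE x hx) 2
        calc (e x * (χ x * q x * (v x - U x))) ^ 2 =
              χ x ^ 2 * (q x ^ 2 * e x ^ 2) * (v x - U x) ^ 2 := by ring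
          _ ≤ 1 * (Cq ^ 2 * ((2 * ρ * Em) ^ m) ^ 2) * (v x - U x) ^ 2 := by
            refine mul_le_mul_of_nonneg_right ?_ (sq_nonneg _)
            exact mul_le_mul g3 (mul_le_mul (habs2 (hqb x hx.1)) g4 (by positivity) (by positivity))
              (by positivity) zero_le_one
          _ = _ := by ring
      have f4 : (e x * Z x) ^ 2 ≤ CZ * ((2 * ρ * Ez) ^ m) ^ 2 * (w x ^ 2 + ∑ j, dj j w x ^ 2) := by
        by_cases h1 : ‖x‖ < R / 4
        · rw [hZ0 x h1, mul_zero, zero_pow two_ne_zero]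
          have := hA4 x
          positivity
        · push Not at h1
          have g4 : e x ^ 2 ≤ ((2 * ρ * Ez) ^ m) ^ 2 := pow_le_pow_left₀ f0 (heZ x hx h1) 2
          calc (e x * Z x) ^ 2 = e x ^ 2 * Z x ^ 2 := by ring
            _ ≤ ((2 * ρ * Ez) ^ m) ^ 2 * (CZ * (w x ^ 2 + ∑ j, dj j w x ^ 2)) :=
              mul_le_mul g4 (hZb x) (sq_nonneg _) (by positivity)
            _ = _ := by ring
      rw [hlapW x hx]
      have f5 := sq4 (e x * (q x * W x)) (e x * (χ x * q x * U x))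
        (e x * (χ x * q x * (v x - U x))) (e x * Z x)
      calc e x ^ 2 * (q x * W x + χ x * q x * U x + χ x * q x * (v x - U x) + Z x) ^ 2
          = (e x * (q x * W x) + e x * (χ x * q x * U x) + e x * (χ x * q x * (v x - U x)) +
            e x * Z x) ^ 2 := by ring
        _ ≤ _ := f5
        _ ≤ _ := by linarith
    have hI := setIntegral_mono_on i1' ((((i1.const_mul (4 * Cq ^ 2)).add
      (i2.const_mul (4 * κ₁ ^ 2))).add (iv.const_mul (4 * Cq ^ 2 * ((2 * ρ * Em) ^ m) ^ 2))).add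
      (i4.const_mul (4 * CZ * ((2 * ρ * Ez) ^ m) ^ 2))) hK2m hpw
    have hI2 : ∫ x in K2, (4 * Cq ^ 2 * (e x ^ 2 * W x ^ 2) +
        4 * κ₁ ^ 2 * (q x ^ 2 * Γ x ^ (2 * m)) +
        4 * Cq ^ 2 * ((2 * ρ * Em) ^ m) ^ 2 * (v x - U x) ^ 2 +
        4 * CZ * ((2 * ρ * Ez) ^ m) ^ 2 * (w x ^ 2 + ∑ j, dj j w x ^ 2)) =
        4 * Cq ^ 2 * IW + 4 * κ₁ ^ 2 * A + 4 * Cq ^ 2 * ((2 * ρ * Em) ^ m) ^ 2 * B3 +
        4 * CZ * ((2 * ρ * Ez) ^ m) ^ 2 * B4 := by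
      rw [integral_add, integral_add, integral_add, integral_const_mul, integral_const_mul,
        integral_const_mul, integral_const_mul]
      · exact i1.const_mul _
      · exact i2.const_mul _
      · exact (i1.const_mul _).add (i2.const_mul _)
      · exact iv.const_mul _
      · exact ((i1.const_mul _).add (i2.const_mul _)).add (iv.const_mul _)
      · exact i4.const_mul _
    have hI3 := hI.trans_eq hI2
    have h3 : ((2 * ρ * Em) ^ m) ^ 2 * B3 ≤ C1 * g ^ 2 := by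
      calc ((2 * ρ * Em) ^ m) ^ 2 * B3 ≤ ((2 * ρ * Em) ^ m) ^ 2 * (C1 * ((m + 1) * τ ^ m) ^ 2) :=
            mul_le_mul_of_nonneg_left jv (by positivity)
        _ = C1 * ((m + 1) * (2 * ρ * Em * τ) ^ m) ^ 2 := by
          rw [mul_pow (2 * ρ * Em) τ m]
          ring
        _ ≤ C1 * g ^ 2 := by
          refine mul_le_mul_of_nonneg_left (pow_le_pow_left₀ (by positivity) ?_ 2) hC1
          exact mul_le_mul_of_nonneg_left pw1 (by positivity)
    have h4 : ((2 * ρ * Ez) ^ m) ^ 2 * B4 ≤ 2 * C1 * g ^ 2 := by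
      calc ((2 * ρ * Ez) ^ m) ^ 2 * B4 ≤ ((2 * ρ * Ez) ^ m) ^ 2 * (2 * C1 * ((m + 1) * S ^ m) ^ 2) :=
            mul_le_mul_of_nonneg_left hB4' (by positivity)
        _ = 2 * C1 * ((m + 1) * (2 * ρ * Ez * S) ^ m) ^ 2 := by
          rw [mul_pow (2 * ρ * Ez) S m]
          ring
        _ ≤ 2 * C1 * g ^ 2 := by
          refine mul_le_mul_of_nonneg_left (pow_le_pow_left₀ (by positivity) ?_ 2) (by positivity)
          exact mul_le_mul_of_nonneg_left pw2 (by positivity)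
    have h3' := mul_le_mul_of_nonneg_left h3 (show 0 ≤ 4 * Cq ^ 2 by positivity)
    have h4' := mul_le_mul_of_nonneg_left h4 (show 0 ≤ 4 * CZ by positivity)
    calc _ ≤ _ := hI3
      _ ≤ 4 * Cq ^ 2 * IW + 4 * κ₁ ^ 2 * A + 4 * Cq ^ 2 * (C1 * g ^ 2) +
          4 * CZ * (2 * C1 * g ^ 2) := by linarith
      _ = _ := by
        rw [hC3]
        ring
  -- absorption
  have hm0' : 8 * C2 * Cq ^ 2 ≤ m ^ 2 := by
    have h1 : (m₀ : ℝ) ≤ m := by exact_mod_cast hm1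
    have h2 : (m : ℝ) ≤ m ^ 2 := by
      calc (m : ℝ) = m * 1 := (mul_one _).symm
        _ ≤ m * m := mul_le_mul_of_nonneg_left hm hmpos.le
        _ = m ^ 2 := (sq _).symm
    linarith
  have hJ2 : IW ≤ 8 * C2 / m ^ 2 * (κ₁ ^ 2 * A + C3 * g ^ 2) := by
    have h1 : IW ≤ C2 / m ^ 2 * (4 * Cq ^ 2 * IW + 4 * κ₁ ^ 2 * A + 4 * C3 * g ^ 2) :=
      hCar.trans (mul_le_mul_of_nonneg_left hJ1 (by positivity))
    have h2 : C2 / m ^ 2 * (4 * Cq ^ 2 * IW) ≤ 1 / 2 * IW := by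
      have h3 : C2 / m ^ 2 * (4 * Cq ^ 2) ≤ 1 / 2 := by
        rw [div_mul_eq_mul_div, div_le_iff₀ (by positivity)]
        linarith
      calc C2 / m ^ 2 * (4 * Cq ^ 2 * IW) = C2 / m ^ 2 * (4 * Cq ^ 2) * IW := by ring
        _ ≤ _ := mul_le_mul_of_nonneg_right h3 hIW0
    have h4 : C2 / m ^ 2 * (4 * Cq ^ 2 * IW + 4 * κ₁ ^ 2 * A + 4 * C3 * g ^ 2) =
        C2 / m ^ 2 * (4 * Cq ^ 2 * IW) + 1 / 2 * (8 * C2 / m ^ 2 * (κ₁ ^ 2 * A + C3 * g ^ 2)) := by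
      ring
    linarith
  -- second estimate
  set c0 : ℝ := (2 * ρ) ^ (2 * m) with hc0
  have hc00 : 0 < c0 := by positivity
  set t : ℝ := (2 * ρ * Em / τ) ^ m with ht
  have ht0 : 0 < t := by positivity
  set t' : ℝ := (τ / S) ^ m with ht'
  have ht'0 : 0 < t' := by positivity
  set b : ℝ := cb * (m + 1) * τ ^ m with hb
  have hb0 : 0 < b := by positivity
  have hJ3 : ∀ x ∈ K2, c0 * |χ x * q x * (U x * V' x) - lap W x * V' x| ≤
      1 / 2 * (m * (e x ^ 2 * W x ^ 2) + (m : ℝ)⁻¹ * (κ₁ ^ 2 * (q x ^ 2 * Γ x ^ (2 * m)))) +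
      1 / 2 * (Cq * κ₁ * (t * (v x - U x) ^ 2 + t⁻¹ * ((2 * ρ * Em) ^ m) ^ 2)) +
      1 / 2 * (c0 * (t' * (CZ * (w x ^ 2 + ∑ j, dj j w x ^ 2)) + t'⁻¹ * b ^ 2)) := by
    intro x hx
    have f0 := he0 x
    have g0 := hΓ0 x
    have e1 : χ x * q x * (U x * V' x) - lap W x * V' x =
        -(q x * W x * V' x + χ x * q x * (v x - U x) * V' x + Z x * V' x) := by
      rw [hlapW x hx]
      ring
    rw [e1, abs_neg]
    have T1 : c0 * |q x * W x * V' x| ≤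
        1 / 2 * (m * (e x ^ 2 * W x ^ 2) + (m : ℝ)⁻¹ * (κ₁ ^ 2 * (q x ^ 2 * Γ x ^ (2 * m)))) := by
      have h1 := mul_le_mul_of_nonneg_left (heV x hx) (mul_nonneg (abs_nonneg (q x)) (abs_nonneg (W x)))
      have h2 := young (a := e x * |W x|) (b := |q x| * (Γ x ^ m * κ₁)) hmpos
      calc c0 * |q x * W x * V' x| = |q x| * |W x| * (c0 * |V' x|) := by
            rw [abs_mul, abs_mul]
            ring
        _ ≤ |q x| * |W x| * (e x * (Γ x ^ m * κ₁)) := h1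
        _ = e x * |W x| * (|q x| * (Γ x ^ m * κ₁)) := by ring
        _ ≤ _ := h2
        _ = _ := by
          rw [mul_pow (e x), mul_pow |q x|, sq_abs, sq_abs]
          ring
    have T2 : c0 * |χ x * q x * (v x - U x) * V' x| ≤
        1 / 2 * (Cq * κ₁ * (t * (v x - U x) ^ 2 + t⁻¹ * ((2 * ρ * Em) ^ m) ^ 2)) := by
      have h2 := young (a := |v x - U x|) (b := (2 * ρ * Em) ^ m) ht0
      have h3 : c0 * |V' x| ≤ (2 * ρ * Em) ^ m * κ₁ := by
        calc c0 * |V' x| ≤ e x * (Γ x ^ m * κ₁) := heV x hx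
          _ ≤ (2 * ρ * Em) ^ m * (1 * κ₁) := by
            refine mul_le_mul (heE x hx) (mul_le_mul_of_nonneg_right
              (pow_le_one₀ g0 (hΓ1 x hx)) hκ₁0.le) (by positivity) hE0
          _ = _ := by ring
      have h4 : |χ x * q x| ≤ Cq := by
        rw [abs_mul, abs_of_nonneg (hχ0 x)]
        calc χ x * |q x| ≤ 1 * Cq := mul_le_mul (hχ1 x) (hqb x hx.1) (abs_nonneg _) zero_le_one
          _ = Cq := one_mul _
      calc c0 * |χ x * q x * (v x - U x) * V' x|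
          = |χ x * q x| * (|v x - U x| * (c0 * |V' x|)) := by
            rw [abs_mul (χ x * q x * (v x - U x)), abs_mul (χ x * q x) (v x - U x)]
            ring
        _ ≤ Cq * (|v x - U x| * ((2 * ρ * Em) ^ m * κ₁)) :=
          mul_le_mul h4 (mul_le_mul_of_nonneg_left h3 (abs_nonneg _)) (by positivity) hCq0
        _ = Cq * κ₁ * (|v x - U x| * (2 * ρ * Em) ^ m) := by ring
        _ ≤ Cq * κ₁ * (1 / 2 * (t * |v x - U x| ^ 2 + t⁻¹ * ((2 * ρ * Em) ^ m) ^ 2)) :=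
          mul_le_mul_of_nonneg_left h2 (by positivity)
        _ = _ := by
          rw [sq_abs]
          ring
    have T3 : c0 * |Z x * V' x| ≤
        1 / 2 * (c0 * (t' * (CZ * (w x ^ 2 + ∑ j, dj j w x ^ 2)) + t'⁻¹ * b ^ 2)) := by
      by_cases h1 : ‖x‖ < R / 4
      · rw [hZ0 x h1, zero_mul, abs_zero, mul_zero]
        have := hA4 x
        positivity
      · push Not at h1
        have h3 := hcfg.bτ x h1
        have h4 := (bd_Um hκ hτ L hL h3.2.2.2 h3.2.1 m).1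
        have h2 := young (a := |Z x|) (b := |V' x|) ht'0
        have h5 : |V' x| ^ 2 ≤ b ^ 2 := pow_le_pow_left₀ (abs_nonneg _) h4 2
        calc c0 * |Z x * V' x| = c0 * (|Z x| * |V' x|) := by rw [abs_mul]
          _ ≤ c0 * (1 / 2 * (t' * |Z x| ^ 2 + t'⁻¹ * |V' x| ^ 2)) :=
            mul_le_mul_of_nonneg_left h2 hc00.le
          _ ≤ c0 * (1 / 2 * (t' * (CZ * (w x ^ 2 + ∑ j, dj j w x ^ 2)) + t'⁻¹ * b ^ 2)) := by
            refine mul_le_mul_of_nonneg_left (mul_le_mul_of_nonneg_left (add_le_add ?_ ?_)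
              (by norm_num)) hc00.le
            · rw [sq_abs]
              exact mul_le_mul_of_nonneg_left (hZb x) ht'0.le
            · exact mul_le_mul_of_nonneg_left h5 (by positivity)
          _ = _ := by ring
    calc c0 * |q x * W x * V' x + χ x * q x * (v x - U x) * V' x + Z x * V' x|
        ≤ c0 * (|q x * W x * V' x| + |χ x * q x * (v x - U x) * V' x| + |Z x * V' x|) :=
          mul_le_mul_of_nonneg_left (abs_add_three _ _ _) hc00.le
      _ = c0 * |q x * W x * V' x| + c0 * |χ x * q x * (v x - U x) * V' x| +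
          c0 * |Z x * V' x| := by ring
      _ ≤ _ := add_le_add (add_le_add T1 T2) T3
  -- integrability of the two products
  have hUb : ∀ x ∈ K2, |U x| ≤ cU k κ S * (m + 1) * S ^ m := fun x hx =>
    (bd_Um hκ hS L hL (hfar x hx).1 (hcfg.bS x (hK2R hx)) m).1
  have hV'b : ∀ x ∈ K2, |V' x| ≤ (2 * ρ * Em) ^ m * κ₁ / c0 := by
    intro x hx
    rw [le_div_iff₀ hc00, mul_comm]
    calc c0 * |V' x| ≤ e x * (Γ x ^ m * κ₁) := heV x hx
      _ ≤ (2 * ρ * Em) ^ m * (1 * κ₁) := by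
        have g0 := hΓ0 x
        refine mul_le_mul (heE x hx) (mul_le_mul_of_nonneg_right
          (pow_le_one₀ g0 (hΓ1 x hx)) hκ₁0.le) (by positivity) hE0
      _ = _ := by ring
  have i6 : IntegrableOn (fun x => χ x * q x * (U x * V' x)) K2 := by
    refine int_bdd (C := 1 * Cq * ((cU k κ S * (m + 1) * S ^ m) * ((2 * ρ * Em) ^ m * κ₁ / c0))) hK2m
      hK2v (hmeas ((hχ.continuous.continuousOn.mul hqc).mul (hUc.mul hV'c))) fun x hx => ?_
    rw [abs_mul, abs_mul, abs_mul]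
    have h1 : |χ x| ≤ 1 := by
      rw [abs_of_nonneg (hχ0 x)]
      exact hχ1 x
    have h2 : 0 ≤ cU k κ S * (m + 1) * S ^ m := by
      have := cU_pos (k := k) hκ hS
      positivity
    exact mul_le_mul (mul_le_mul h1 (hqb x hx.1) (abs_nonneg _) zero_le_one)
      (mul_le_mul (hUb x hx) (hV'b x hx) (abs_nonneg _) h2) (by positivity) (by positivity)
  have i7 : IntegrableOn (fun x => lap W x * V' x) K2 := by
    refine int_bdd (C := ML * ((2 * ρ * Em) ^ m * κ₁ / c0)) hK2m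
      hK2v (hmeas (hlWcK.mul hV'c)) fun x hx => ?_
    rw [abs_mul]
    exact mul_le_mul (hML x) (hV'b x hx) (abs_nonneg _) ((abs_nonneg _).trans (hML x))
  have e7 : ∫ x in K2, lap W x * V' x = 0 := by
    rw [setIntegral_eq_integral_of_forall_compl_eq_zero]
    · exact green hWs hWc (fun x hx => cd_Um L (hne x (hWt hx)).2 m)
        fun x hx => lap_Um L (hne x (hWt hx)).2 m
    · intro x hx
      rw [hlt x hx, zero_mul]
  have e9 : ∀ x, x ∉ K2 → χ x * q x * (U x * V' x) = 0 := by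
    intro x hx
    by_cases h1 : x ∈ ball (0 : E (k + 3)) (R / 2)
    · have h2 : x ∈ G := by
        by_contra h
        exact hx ⟨h1, h⟩
      rw [hqG x ⟨h2, hsubR h1⟩]
      ring
    · have : χ x = 0 := image_eq_zero_of_notMem_tsupport fun h => h1 (hχs h)
      rw [this]
      ring
  have e8 : ∫ x, χ x * q x * (U x * V' x) = ∫ x in K2, (χ x * q x * (U x * V' x) - lap W x * V' x) := by
    rw [integral_sub i6 i7, e7, sub_zero, setIntegral_eq_integral_of_forall_compl_eq_zero e9]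
  have i8 : Integrable (fun x => χ x * q x * (U x * V' x)) := by
    rw [← integrableOn_iff_integrable_of_support_subset (s := K2)]
    · exact i6
    · intro x hx
      by_contra h
      exact hx (e9 x h)
  refine ⟨i8, ?_⟩
  have hI1 : c0 * |∫ x, χ x * q x * (U x * V' x)| ≤
      1 / 2 * (m * IW + (m : ℝ)⁻¹ * (κ₁ ^ 2 * A)) +
      1 / 2 * (Cq * κ₁ * (t * B3 + t⁻¹ * ((2 * ρ * Em) ^ m) ^ 2 * V)) +
      1 / 2 * (c0 * (t' * (CZ * B4) + t'⁻¹ * b ^ 2 * V)) := by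
    have h1 : |∫ x, χ x * q x * (U x * V' x)| ≤
        ∫ x in K2, |χ x * q x * (U x * V' x) - lap W x * V' x| := by
      rw [e8]
      exact abs_integral_le_integral_abs
    obtain ⟨k1, k2⟩ := int_comb hK2v i1 i2 iv i4 (1 / 2 * m) (1 / 2 * (m : ℝ)⁻¹ * κ₁ ^ 2)
      (1 / 2 * Cq * κ₁ * t) (1 / 2 * c0 * t' * CZ)
      (1 / 2 * (Cq * κ₁ * (t⁻¹ * ((2 * ρ * Em) ^ m) ^ 2)) + 1 / 2 * (c0 * (t'⁻¹ * b ^ 2)))
    have h2 : c0 * ∫ x in K2, |χ x * q x * (U x * V' x) - lap W x * V' x| ≤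
        ∫ x in K2, ((1 / 2 * m) * (e x ^ 2 * W x ^ 2) +
          (1 / 2 * (m : ℝ)⁻¹ * κ₁ ^ 2) * (q x ^ 2 * Γ x ^ (2 * m)) +
          (1 / 2 * Cq * κ₁ * t) * (v x - U x) ^ 2 +
          (1 / 2 * c0 * t' * CZ) * (w x ^ 2 + ∑ j, dj j w x ^ 2) +
          (1 / 2 * (Cq * κ₁ * (t⁻¹ * ((2 * ρ * Em) ^ m) ^ 2)) + 1 / 2 * (c0 * (t'⁻¹ * b ^ 2)))) := by
      rw [← integral_const_mul]
      refine setIntegral_mono_on ((i6.sub i7).abs.const_mul _) k1 hK2m fun x hx => ?_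
      refine (hJ3 x hx).trans_eq ?_
      ring
    calc _ ≤ c0 * ∫ x in K2, |χ x * q x * (U x * V' x) - lap W x * V' x| :=
          mul_le_mul_of_nonneg_left h1 hc00.le
      _ ≤ _ := h2
      _ = _ := by
        rw [k2]
        ring
  rw [hC]
  exact fin_num hm2 hρ hEm hτ hS hθ hθ1 hκ₁0.le hCq0 hC1 hC20 hC30 hCZ0 hV0 hA0 pw1 pw3 jv hB4' hJ2 hI1

end Vale.Agent.P088.R2.H31
end
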