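import Vale.Agent.P088.R2.H31.Carl
import Vale.Agent.P088.R2.H31.CSpec2

/-!
# P088, THEOREM S, core: multipoles
-/

open MeasureTheory Set Filter Topology Metric
open scoped ContDiff

noncomputable section

namespace Vale.Agent.P088.R2.H31

variable {k : ℕ}

/-- `ζ · y`, `ζ = (12/13, 5/13, i, 0, …)` -/
def zl (k : ℕ) : E (k + 3) →L[ℝ] ℂ :=
  ((12 / 13 : ℝ) • (EuclideanSpace.proj 0 : E (k + 3) →L[ℝ] ℝ) +
    (5 / 13 : ℝ) • (EuclideanSpace.proj 1 : E (k + 3) →L[ℝ] ℝ)).smulRight (1 : ℂ) +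
    (EuclideanSpace.proj 2 : E (k + 3) →L[ℝ] ℝ).smulRight Complex.I

theorem zl_apply (y : E (k + 3)) :
    zl k y = ((12 / 13 * y 0 + 5 / 13 * y 1 : ℝ) : ℂ) + (y 2 : ℝ) * Complex.I := by
  simp [zl]

theorem norm_zl (y : E (k + 3)) : ‖zl k y‖ = zz y := by
  rw [zl_apply, Complex.norm_add_mul_I]
  rfl

theorem ne01 : (0 : Fin (k + 3)) ≠ 1 := by simp
theorem ne02 : (0 : Fin (k + 3)) ≠ 2 := fun h => by
  have := congrArg Fin.val h
  rw [Fin.val_two] at this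
  simp at this
theorem ne12 : (1 : Fin (k + 3)) ≠ 2 := fun h => by
  have := congrArg Fin.val h
  rw [Fin.val_two] at this
  simp at this

theorem sum_zl_sq : ∑ j, zl k (ev j) ^ 2 = 0 := by
  have h3 : ∀ j : Fin (k + 3), zl k (ev j) ^ 2 =
      (if j = 0 then (144 / 169 : ℂ) else 0) + (if j = 1 then (25 / 169 : ℂ) else 0) +
        (if j = 2 then (-1 : ℂ) else 0) := by
    intro j
    rw [zl_apply]
    by_cases e0 : j = 0
    · subst e0
      simp [ne02, ne01.symm, ne02.symm]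
      norm_num
    · by_cases e1 : j = 1
      · subst e1
        simp [ne12, ne01.symm, ne12.symm]
        norm_num
      · by_cases e2 : j = 2
        · subst e2
          simp [ne02, ne12, ne02.symm, ne12.symm]
        · simp [e0, e1, e2, Ne.symm e0, Ne.symm e1, Ne.symm e2]
  simp only [h3, Finset.sum_add_distrib, Finset.sum_ite_eq', Finset.mem_univ, if_true]
  norm_num

/-- `L (z^m)`, `z = ζ · (x - p)`, `L` the real or the imaginary part -/
def Hm (L : ℂ →L[ℝ] ℝ) (p : E (k + 3)) (m : ℕ) (x : E (k + 3)) : ℝ := L (zl k (x - p) ^ m)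

theorem cd_Hm (L : ℂ →L[ℝ] ℝ) (p : E (k + 3)) (m : ℕ) {l : WithTop ℕ∞} :
    ContDiff ℝ l (Hm L p m) := by
  unfold Hm
  exact L.contDiff.comp (((zl k).contDiff.comp (contDiff_id.sub contDiff_const)).pow m)

theorem hasF_pow (p : E (k + 3)) (m : ℕ) (x : E (k + 3)) :
    HasFDerivAt (fun x : E (k + 3) => zl k (x - p) ^ m)
      ((m * zl k (x - p) ^ (m - 1)) • (zl k)) x := by
  have h1 : HasFDerivAt (fun x : E (k + 3) => zl k (x - p)) (zl k) x := by
    have := (zl k).hasFDerivAt.comp x ((hasFDerivAt_id x).sub_const p)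
    rwa [ContinuousLinearMap.comp_id] at this
  have h2 : HasDerivAt (fun w : ℂ => w ^ m) (m * zl k (x - p) ^ (m - 1)) (zl k (x - p)) :=
    hasDerivAt_pow m _
  have h3 := h2.hasFDerivAt.restrictScalars ℝ
  have h4 := h3.comp x h1
  refine h4.congr_fderiv ?_
  ext v
  simp [mul_comm]

theorem dj_Hm (L : ℂ →L[ℝ] ℝ) (p : E (k + 3)) (m : ℕ) (j : Fin (k + 3)) (x : E (k + 3)) :
    dj j (Hm L p m) x = L (m * zl k (x - p) ^ (m - 1) * zl k (ev j)) := by
  unfold dj Hm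
  have h := L.hasFDerivAt.comp x (hasF_pow p m x)
  have h2 : (fun x : E (k + 3) => L (zl k (x - p) ^ m)) = L ∘ fun x => zl k (x - p) ^ m := rfl
  rw [h2, h.fderiv]
  simp

theorem dj_Hm' (L : ℂ →L[ℝ] ℝ) (p : E (k + 3)) (m : ℕ) (j : Fin (k + 3)) :
    dj j (Hm L p m) = Hm (L.comp (ContinuousLinearMap.mul ℝ ℂ (m * zl k (ev j)))) p (m - 1) := by
  funext x
  rw [dj_Hm]
  unfold Hm
  simp only [ContinuousLinearMap.comp_apply, ContinuousLinearMap.mul_apply']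
  congr 1
  ring

theorem lap_Hm (L : ℂ →L[ℝ] ℝ) (p : E (k + 3)) (m : ℕ) (x : E (k + 3)) :
    lap (Hm L p m) x = 0 := by
  unfold lap
  have h : ∀ j, dj j (dj j (Hm L p m)) x =
      L (m * ((m - 1 : ℕ) * zl k (x - p) ^ (m - 1 - 1)) * zl k (ev j) ^ 2) := by
    intro j
    rw [dj_Hm', dj_Hm]
    simp only [ContinuousLinearMap.comp_apply, ContinuousLinearMap.mul_apply']
    congr 1
    ring
  simp only [h]
  rw [← map_sum, ← Finset.mul_sum, sum_zl_sq, mul_zero, map_zero]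

theorem sum_zl (y : E (k + 3)) : ∑ j, (y j : ℂ) * zl k (ev j) = zl k y := by
  have h : y = ∑ j, y j • (ev j : E (k + 3)) := by
    ext i
    simp [Finset.sum_apply, Pi.single_apply]
  conv_rhs => rw [h]
  rw [map_sum]
  refine Finset.sum_congr rfl fun j _ => ?_
  rw [map_smul]
  simp

theorem euler_Hm (L : ℂ →L[ℝ] ℝ) (p : E (k + 3)) (m : ℕ) (x : E (k + 3)) :
    ∑ j, dj j (Hm L p m) x * (x j - p j) = m * Hm L p m x := by
  have h : ∀ j, dj j (Hm L p m) x * (x j - p j) =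
      L (m * zl k (x - p) ^ (m - 1) * ((((x - p) j : ℝ) : ℂ) * zl k (ev j))) := by
    intro j
    rw [dj_Hm, mul_comm, ← smul_eq_mul, ← map_smul]
    congr 1
    simp only [Complex.real_smul, PiLp.sub_apply, Complex.ofReal_sub]
    ring
  simp only [h]
  rw [← map_sum, ← Finset.mul_sum, sum_zl]
  unfold Hm
  rcases m with _ | m
  · simp
  · rw [Nat.add_sub_cancel, mul_assoc, ← pow_succ]
    rw [show ((m + 1 : ℕ) : ℂ) = (((m + 1 : ℕ) : ℝ) : ℂ) by simp, ← Complex.real_smul, map_smul,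
      smul_eq_mul]

/-- the exponent `(2 - n - 2m)/2`, `n = k + 3` -/
def sm (k m : ℕ) : ℝ := -((k : ℝ) + 1 + 2 * m) / 2

/-- The multipole `L (z^m) |x - p|^{2-n-2m}`. -/
def Um (L : ℂ →L[ℝ] ℝ) (p : E (k + 3)) (m : ℕ) (x : E (k + 3)) : ℝ :=
  Hm L p m x * nsq p x ^ (sm k m)

theorem cd_pow_nsq {p x : E (k + 3)} (hx : x ≠ p) (s : ℝ) {l : WithTop ℕ∞} :
    ContDiffAt ℝ l (fun x => nsq p x ^ s) x :=
  (cd_nsq p).contDiffAt.rpow_const_of_ne (nsq_pos hx).ne'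

theorem cd_Um (L : ℂ →L[ℝ] ℝ) {p x : E (k + 3)} (hx : x ≠ p) (m : ℕ) {l : WithTop ℕ∞} :
    ContDiffAt ℝ l (Um L p m) x :=
  (cd_Hm L p m).contDiffAt.mul (cd_pow_nsq hx _)

theorem lap_Um (L : ℂ →L[ℝ] ℝ) {p x : E (k + 3)} (hx : x ≠ p) (m : ℕ) :
    lap (Um L p m) x = 0 := by
  have hN := nsq_pos hx
  have c1 : ContDiffAt ℝ 2 (Hm L p m) x := (cd_Hm L p m).contDiffAt
  have c2 : ContDiffAt ℝ 2 (fun x => nsq p x ^ (sm k m)) x := cd_pow_nsq hx _
  have cN : ContDiffAt ℝ 2 (nsq p) x := (cd_nsq p).contDiffAt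
  have h1 : ∀ᶠ t in 𝓝 (nsq p x), HasDerivAt (fun t : ℝ => t ^ (sm k m))
      (sm k m * t ^ (sm k m - 1)) t := by
    filter_upwards [IsOpen.mem_nhds isOpen_ne hN.ne'] with t ht
    exact Real.hasDerivAt_rpow_const (Or.inl ht)
  have h2 : HasDerivAt (fun t : ℝ => sm k m * t ^ (sm k m - 1))
      (sm k m * ((sm k m - 1) * nsq p x ^ (sm k m - 1 - 1))) (nsq p x) :=
    (Real.hasDerivAt_rpow_const (Or.inl hN.ne')).const_mul _
  have e1 : lap (fun x => nsq p x ^ (sm k m)) x = sm k m * nsq p x ^ (sm k m - 1) *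
      (2 * (k + 3 : ℕ)) + sm k m * ((sm k m - 1) * nsq p x ^ (sm k m - 1 - 1)) *
      (4 * nsq p x) := by
    rw [lap_comp (h := fun t : ℝ => t ^ (sm k m)) cN h1 h2, lap_nsq, sum_dj_nsq]
  have e2 : ∀ j, dj j (fun x => nsq p x ^ (sm k m)) x =
      sm k m * nsq p x ^ (sm k m - 1) * (2 * (x j - p j)) := by
    intro j
    rw [dj_comp (h := fun t : ℝ => t ^ (sm k m)) h1.self_of_nhds (c2_diff cN), dj_nsq]
  have e3 : ∑ j, dj j (Hm L p m) x * dj j (fun x => nsq p x ^ (sm k m)) x =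
      2 * (sm k m * nsq p x ^ (sm k m - 1)) * (m * Hm L p m x) := by
    rw [← euler_Hm, Finset.mul_sum]
    refine Finset.sum_congr rfl fun j _ => ?_
    rw [e2]
    ring
  have e4 : nsq p x ^ (sm k m - 1 - 1) * nsq p x = nsq p x ^ (sm k m - 1) := by
    rw [← Real.rpow_add_one hN.ne']
    congr 1
    ring
  unfold Um
  rw [lap_mul c1 c2, lap_Hm, e3, e1]
  have e5 : Hm L p m x * (sm k m * nsq p x ^ (sm k m - 1) * (2 * (k + 3 : ℕ)) +
      sm k m * ((sm k m - 1) * nsq p x ^ (sm k m - 1 - 1)) * (4 * nsq p x)) =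
      Hm L p m x * (sm k m * nsq p x ^ (sm k m - 1) * (2 * (k + 3 : ℕ)) +
      sm k m * (sm k m - 1) * 4 * (nsq p x ^ (sm k m - 1 - 1) * nsq p x)) := by
    ring
  rw [e5, e4]
  unfold sm
  push_cast
  ring

end Vale.Agent.P088.R2.H31
end
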